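import Vale.Agent.Helper10.PosDefs
import Vale.Agent.Helper10.PMDefs

/-!
# Helper file for P329: two-way positional counting in plain form

From the automata statement `CountPM`: the number of positions of a word which carry a letter
with the property `sp` and for which the number of earlier `up` letters minus the number of
earlier `dn` letters is congruent to `x` modulo `m`, counted modulo `e`, defines a language of
generalized star height at most one.
-/

namespace Vale.Agent.Helper25.P329PosPM

open Vale.Agent.Helper10

/-- the degree map of a two-way clock given by two properties -/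
def dgZ {α : Type} (m : ℕ) (up dn : α → Prop) [DecidablePred up] [DecidablePred dn] :
    α → ZMod m :=
  fun a => (if up a then (1 : ZMod m) else 0) - (if dn a then (1 : ZMod m) else 0)

/-- the integer step of a letter -/
def stZ {α : Type} (up dn : α → Prop) [DecidablePred up] [DecidablePred dn] : α → ℤ :=
  fun a => (if up a then (1 : ℤ) else 0) - (if dn a then (1 : ℤ) else 0)

theorem dgZ_cast {α : Type} (m : ℕ) (up dn : α → Prop) [DecidablePred up] [DecidablePred dn]
    (a : α) : dgZ m up dn a = ((stZ up dn a : ℤ) : ZMod m) := by
  unfold dgZ stZ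
  by_cases h1 : up a <;> by_cases h2 : dn a <;> simp [h1, h2]

theorem dgZ_cases {α : Type} (m : ℕ) (up dn : α → Prop) [DecidablePred up] [DecidablePred dn]
    (a : α) : dgZ m up dn a = 0 ∨ dgZ m up dn a = 1 ∨ dgZ m up dn a = -1 := by
  unfold dgZ
  by_cases h1 : up a <;> by_cases h2 : dn a <;> simp [h1, h2]

theorem cnt_eq_card_pm {α : Type} {m : ℕ} [NeZero m] (up dn sp : α → Prop) [DecidablePred up]
    [DecidablePred dn] [DecidablePred sp] (x k : ℤ) (w : List α) :
    cnt (dgZ m up dn) sp (x : ZMod m) (k : ZMod m) w
      = (Finset.univ.filter (fun i : Fin w.length => sp (w.get i) ∧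
          k + (((w.take i).countP (fun a => decide (up a)) : ℕ) : ℤ)
            - (((w.take i).countP (fun a => decide (dn a)) : ℕ) : ℤ) ≡ x [ZMOD m])).card := by
  induction w generalizing k with
  | nil => simp [cnt]
  | cons a w ih =>
    rw [cnt, Finset.card_filter]
    have e1 : (∑ i : Fin (a :: w).length,
        (if (sp ((a :: w).get i) ∧
          k + ((((a :: w).take i).countP (fun a => decide (up a)) : ℕ) : ℤ)
            - ((((a :: w).take i).countP (fun a => decide (dn a)) : ℕ) : ℤ) ≡ x [ZMOD m])
          then 1 else 0))
        = (if (sp a ∧ k ≡ x [ZMOD m]) then 1 else 0)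
          + ∑ j : Fin w.length, (if (sp (w.get j) ∧
              (k + stZ up dn a) + (((w.take j).countP (fun a => decide (up a)) : ℕ) : ℤ)
                - (((w.take j).countP (fun a => decide (dn a)) : ℕ) : ℤ) ≡ x [ZMOD m])
              then 1 else 0) := by
      refine (Fin.sum_univ_succ (n := w.length)
        (f := fun i : Fin (w.length + 1) => (if (sp ((a :: w).get i) ∧
          k + ((((a :: w).take i).countP (fun a => decide (up a)) : ℕ) : ℤ)
            - ((((a :: w).take i).countP (fun a => decide (dn a)) : ℕ) : ℤ) ≡ x [ZMOD m])
            then (1 : ℕ) else 0))).trans ?_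
      congr 1
      · simp
      · refine Finset.sum_congr rfl (fun j _ => ?_)
        have e2 : ((((a :: w).take ((j.succ : Fin (w.length + 1)) : ℕ)).countP
            (fun a => decide (up a)) : ℕ) : ℤ)
            = (((w.take j).countP (fun a => decide (up a)) : ℕ) : ℤ)
              + (if up a then (1 : ℤ) else 0) := by
          rw [Fin.val_succ, List.take_succ_cons, List.countP_cons]
          by_cases h : up a <;> simp [h]
        have e2' : ((((a :: w).take ((j.succ : Fin (w.length + 1)) : ℕ)).countP
            (fun a => decide (dn a)) : ℕ) : ℤ)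
            = (((w.take j).countP (fun a => decide (dn a)) : ℕ) : ℤ)
              + (if dn a then (1 : ℤ) else 0) := by
          rw [Fin.val_succ, List.take_succ_cons, List.countP_cons]
          by_cases h : dn a <;> simp [h]
        have e3 : (a :: w).get (j.succ : Fin (w.length + 1)) = w.get j := rfl
        rw [e2, e2', e3]
        have e4 : k + ((((w.take j).countP (fun a => decide (up a)) : ℕ) : ℤ)
              + (if up a then (1 : ℤ) else 0))
            - ((((w.take j).countP (fun a => decide (dn a)) : ℕ) : ℤ)
              + (if dn a then (1 : ℤ) else 0))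
            = (k + stZ up dn a) + (((w.take j).countP (fun a => decide (up a)) : ℕ) : ℤ)
              - (((w.take j).countP (fun a => decide (dn a)) : ℕ) : ℤ) := by
          unfold stZ
          ring
        rw [e4]
    rw [e1]
    have e5 : ((k : ZMod m) + dgZ m up dn a) = (((k + stZ up dn a : ℤ) : ℤ) : ZMod m) := by
      rw [dgZ_cast]
      push_cast
      ring
    rw [e5, ih (k + stZ up dn a), Finset.card_filter]
    congr 1
    have e6 : ((k : ZMod m) = (x : ZMod m)) ↔ k ≡ x [ZMOD m] :=
      ZMod.intCast_eq_intCast_iff k x m
    by_cases h1 : sp a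
    · by_cases h2 : k ≡ x [ZMOD m]
      · rw [if_pos ⟨h1, e6.2 h2⟩, if_pos ⟨h1, h2⟩]
      · rw [if_neg (fun h => h2 (e6.1 h.2)), if_neg (fun h => h2 h.2)]
    · rw [if_neg (fun h => h1 h.1), if_neg (fun h => h1 h.1)]

/-- Two-way positional counting: the number of positions of a word which carry a letter with
the property `sp` and for which the number of earlier `up` letters minus the number of earlier
`dn` letters is congruent to `x` modulo `m`, counted modulo `e`. -/
theorem pos_pm_gsh_of (hc : CountPM) {α : Type} [Finite α] (up dn sp : α → Prop)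
    [DecidablePred up] [DecidablePred dn] [DecidablePred sp] (m e : ℕ) (x : ℤ) (r : ℕ)
    (hm : 0 < m) (he : 0 < e) :
    HasGSH 1 (fun w : List α =>
      (Finset.univ.filter (fun i : Fin w.length => sp (w.get i) ∧
        (((w.take i).countP (fun a => decide (up a)) : ℕ) : ℤ)
          - (((w.take i).countP (fun a => decide (dn a)) : ℕ) : ℤ) ≡ x [ZMOD m])).card
        ≡ r [MOD e]) := by
  have hm' : NeZero m := ⟨hm.ne'⟩
  have he' : NeZero e := ⟨he.ne'⟩
  have h := hc α m (dgZ m up dn) (dgZ_cases m up dn) sp e (x : ZMod m) (r : ZMod e)
  refine h.congr (fun w => ?_)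
  have hcc := cnt_eq_card_pm (m := m) up dn sp x 0 w
  rw [Int.cast_zero] at hcc
  rw [hcc, ZMod.natCast_eq_natCast_iff]
  simp only [zero_add]

end Vale.Agent.Helper25.P329PosPM
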