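import Vale.Agent.Helper10.PosDefs

/-!
# Helper file for P329: groups generated by an abelian normal subgroup and one coset

From the automata statement `CountStep` (positional counting along a clock with steps `0` and
`1` modulo an arbitrary `m`): if `N` is an abelian normal subgroup of the finite group `G` and
every letter is sent into `N` or into the single coset `g N`, then the languages recognised
through `f` have generalized star height at most one.
-/

namespace Vale.Agent.Helper25.P329Coset

open Vale.Agent.Helper10 Vale.Agent.Helper2.P329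

theorem gsh_of_coset (hc : CountStep) {G α : Type} [Group G] [Finite G] [Finite α]
    (N : Subgroup G) [N.Normal] (hab : ∀ a ∈ N, ∀ b ∈ N, a * b = b * a) (g : G)
    (f : α → G) (hf : ∀ a, f a ∈ N ∨ g⁻¹ * f a ∈ N) (T : Set G) :
    HasGSH 1 (fun w : List α => (w.map f).prod ∈ T) := by
  classical
  cases nonempty_fintype α
  have hG : Nat.card G ≠ 0 := Nat.card_pos.ne'
  have : NeZero (Nat.card G) := ⟨hG⟩
  set m : ℕ := orderOf g with hm
  have hmpos : 0 < m := orderOf_pos g
  have : NeZero m := ⟨hmpos.ne'⟩
  have hmdvd : m ∣ Nat.card G := orderOf_dvd_natCard g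
  have hgm : g ^ m = 1 := pow_orderOf_eq_one g
  -- exponents of `g` only matter modulo `m`
  have hpow : ∀ k l : ℕ, k ≡ l [MOD m] → g ^ k = g ^ l := by
    intro k l hkl
    rw [← pow_mod_orderOf g k, ← pow_mod_orderOf g l]
    exact congrArg _ hkl
  have hval_add : ∀ c d : ZMod m, g ^ (c + d).val = g ^ c.val * g ^ d.val := by
    intro c d
    rw [← pow_add]
    apply hpow
    rw [ZMod.val_add]
    exact Nat.mod_modEq _ _
  have hval_one : g ^ (1 : ZMod m).val = g := by
    have h1 : g ^ (1 : ZMod m).val = g ^ 1 := by
      apply hpow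
      rcases Nat.lt_or_ge 1 m with h | h
      · have : Fact (1 < m) := ⟨h⟩
        rw [ZMod.val_one]
      · have hm1 : m = 1 := by omega
        have : (1 : ZMod m).val < m := ZMod.val_lt _
        have h0 : (1 : ZMod m).val = 0 := by omega
        rw [h0, hm1]
        exact Nat.modEq_one
    rw [h1, pow_one]
  -- the commutative group `N`
  let _ : CommGroup N :=
    { (inferInstance : Group N) with
      mul_comm := fun a b => Subtype.ext (hab a a.2 b b.2) }
  -- degree and `N`-part of a letter
  let dg : α → ZMod m := fun a => if f a ∈ N then 0 else 1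
  have hdg01 : ∀ a, dg a = 0 ∨ dg a = 1 := by
    intro a
    by_cases h : f a ∈ N
    · left; simp only [dg, if_pos h]
    · right; simp only [dg, if_neg h]
  have hnu_mem : ∀ a, f a * (g ^ (dg a).val)⁻¹ ∈ N := by
    intro a
    by_cases h : f a ∈ N
    · simp only [dg, if_pos h, ZMod.val_zero, pow_zero, inv_one, mul_one]
      exact h
    · simp only [dg, if_neg h]
      rw [hval_one]
      have h2 : g⁻¹ * f a ∈ N := (hf a).resolve_left h
      have h3 := ‹N.Normal›.conj_mem _ h2 g
      have e : g * (g⁻¹ * f a) * g⁻¹ = f a * g⁻¹ := by group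
      rw [e] at h3
      exact h3
  let nu : α → N := fun a => ⟨_, hnu_mem a⟩
  have hfa : ∀ a, f a = (nu a : G) * g ^ (dg a).val := by
    intro a
    simp only [nu]
    group
  let q : ZMod m → α → N := fun c a =>
    ⟨g ^ c.val * (nu a : G) * (g ^ c.val)⁻¹, ‹N.Normal›.conj_mem _ (nu a).2 _⟩
  -- the key identity
  have key : ∀ (u : List α) (c : ZMod m),
      g ^ c.val * (u.map f).prod
        = ((pathProd dg q c u : N) : G) * g ^ (c + (u.map dg).sum).val := by
    intro u
    induction u with
    | nil =>
      intro c
      simp [pathProd]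
    | cons a u ih =>
      intro c
      simp only [List.map_cons, List.prod_cons, List.sum_cons, pathProd]
      rw [Subgroup.coe_mul, ← add_assoc, mul_assoc _ _ (g ^ _), ← ih (c + dg a), hval_add c (dg a)]
      conv_lhs => rw [hfa a]
      simp only [q]
      group
  have hN : ∀ x : G, x ^ Nat.card G = 1 := fun x => pow_card_eq_one'
  -- the statistics
  let F : α × ZMod m → List α → ZMod (Nat.card G) := fun i w =>
    (cnt dg (fun b => b = i.1) i.2 0 w : ZMod (Nat.card G))
  have hF : ∀ i b, HasGSH 1 (fun w => F i w = b) := fun i b =>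
    hc α m dg hdg01 (fun b => b = i.1) (Nat.card G) i.2 b
  refine HasGSH.of_fun (fun w => (fun i => F i w)) (fun S => HasGSH.pi F hF S) _ ?_
  intro w w' hww' hw
  have hcnt : ∀ (a : α) (x : ZMod m),
      cnt dg (fun b => b = a) x 0 w ≡ cnt dg (fun b => b = a) x 0 w' [MOD Nat.card G] := by
    intro a x
    have h1 := congrFun hww' (a, x)
    simp only [F] at h1
    exact (ZMod.natCast_eq_natCast_iff _ _ _).mp h1
  have e1 : pathProd dg q 0 w = pathProd dg q 0 w' := by
    refine pathProd_congr dg q (Nat.card G) (fun x a => ?_) 0 w w' hcnt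
    exact Subtype.ext (by rw [Subgroup.coe_pow, hN]; rfl)
  have e2 : (w.map dg).sum = (w'.map dg).sum := by
    have e3 := pathProd_congr dg (fun (_ : ZMod m) (a : α) => Multiplicative.ofAdd (dg a))
      (Nat.card G) (fun x a => ?_) 0 w w' hcnt
    · rw [pathProd_ofAdd, pathProd_ofAdd] at e3
      exact Multiplicative.ofAdd.injective e3
    · rw [← ofAdd_nsmul, nsmul_eq_mul]
      have h0 : ((Nat.card G : ℕ) : ZMod m) = 0 := (ZMod.natCast_eq_zero_iff _ _).mpr hmdvd
      rw [h0, zero_mul]
      rfl
  have k1 := key w 0
  have k2 := key w' 0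
  rw [ZMod.val_zero, pow_zero, one_mul] at k1 k2
  have hprod : (w.map f).prod = (w'.map f).prod := by
    rw [k1, k2, e1, e2]
  rw [← hprod]
  exact hw

end Vale.Agent.Helper25.P329Coset
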