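import Vale.Agent.Helper10.Cnt

/-!
# Helper file for P329: fibre sums of positional counts

Summing the positional counts modulo `m` over a fibre of the projection `ZMod m → ZMod d`
(`d ∣ m`) gives the positional count modulo `d`.
-/

namespace Vale.Agent.Helper25.P329Fibre

open Vale.Agent.Helper10

theorem cnt_fibre {α : Type} {m d : ℕ} [NeZero m] (hd : d ∣ m) (adv : α → Bool)
    (sp : α → Prop) [DecidablePred sp] (y c : ZMod m) (w : List α) :
    ∑ h ∈ Finset.univ.filter (fun h : ZMod m => ZMod.castHom hd (ZMod d) h = 0),
        cnt (fun a => if adv a then (1 : ZMod m) else 0) sp (y + h) c w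
      = cnt (fun a => if adv a then (1 : ZMod d) else 0) sp
          (ZMod.castHom hd (ZMod d) y) (ZMod.castHom hd (ZMod d) c) w := by
  induction w generalizing c with
  | nil => simp [cnt]
  | cons a w ih =>
    simp only [cnt]
    rw [Finset.sum_add_distrib, ih (c + if adv a then (1 : ZMod m) else 0)]
    have hφ : (ZMod.castHom hd (ZMod d)) (c + if adv a then (1 : ZMod m) else 0)
        = (ZMod.castHom hd (ZMod d)) c + if adv a then (1 : ZMod d) else 0 := by
      rw [map_add]
      by_cases ha : adv a = true
      · rw [if_pos ha, if_pos ha, map_one]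
      · rw [if_neg ha, if_neg ha, map_zero]
    rw [hφ]
    congr 1
    by_cases hs : sp a
    · by_cases hc : (ZMod.castHom hd (ZMod d)) c = (ZMod.castHom hd (ZMod d)) y
      · rw [if_pos ⟨hs, hc⟩]
        rw [Finset.sum_eq_single (c - y)]
        · rw [if_pos ⟨hs, by ring⟩]
        · intro h _ hne
          rw [if_neg]
          rintro ⟨_, h2⟩
          apply hne
          rw [h2]
          ring
        · intro hnot
          exfalso
          apply hnot
          rw [Finset.mem_filter]
          refine ⟨Finset.mem_univ _, ?_⟩
          rw [map_sub, hc, sub_self]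
      · rw [if_neg (fun h => hc h.2)]
        apply Finset.sum_eq_zero
        intro h hh
        rw [Finset.mem_filter] at hh
        rw [if_neg]
        rintro ⟨_, h2⟩
        apply hc
        rw [h2, map_add, hh.2, add_zero]
    · rw [if_neg (fun h => hs h.1)]
      apply Finset.sum_eq_zero
      intro h _
      rw [if_neg (fun h => hs h.1)]

end Vale.Agent.Helper25.P329Fibre
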