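import Mathlib
import Vale.Agent.Results.P064.StarForests

/-!
P064, all-graphs extension (helper25, step P4): a copy-count bound for connected graphs on
`Fin v` is transported to connected graphs on an arbitrary finite vertex type and turned into
a bound on labelled copies.
-/

namespace Vale.Agent.Helper25.KKTransport

open Finset SimpleGraph
open Vale.Agent.Results.P064.StarForests

/-- Labelled copy counts only depend on the isomorphism type of the pattern graph. -/
lemma labelled_congr {V W W' : Type*} [Fintype V] [Fintype W] [Fintype W']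
    (G : SimpleGraph V) {F : SimpleGraph W} {F' : SimpleGraph W'} (e : F ≃g F') :
    G.labelledCopyCount F = G.labelledCopyCount F' := by
  classical
  rw [lcc_eq, lcc_eq]
  apply Nat.card_congr
  exact
    { toFun := fun f => f.comp e.symm.toCopy
      invFun := fun f => f.comp e.toCopy
      left_inv := fun f => by
        apply Copy.ext
        intro a
        simp
      right_inv := fun f => by
        apply Copy.ext
        intro a
        simp }

/-- Isomorphic graphs have the same number of edges. -/
lemma ncard_edgeSet_congr {W W' : Type*} {F : SimpleGraph W} {F' : SimpleGraph W'}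
    (e : F ≃g F') : F.edgeSet.ncard = F'.edgeSet.ncard := by
  rw [← Nat.card_coe_set_eq, ← Nat.card_coe_set_eq]
  exact Nat.card_congr e.mapEdgeSet

/-- Step P4: if every connected graph `F` on some `Fin v` with at least one edge has
`N(H,F) <= N(K_n,F) * c ^ e(F)`, then every connected graph `F` on a finite vertex type `W`
with at least one edge has at most `n (n-1) ... (n-|W|+1) * c ^ e(F)` labelled copies in `H`. -/
theorem labelled_of_connected_count {n : ℕ} (H : SimpleGraph (Fin n)) (c : ℝ)
    (hcc : ∀ (v : ℕ) (F : SimpleGraph (Fin v)), F.Connected → 1 ≤ F.edgeSet.ncard →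
      (H.copyCount F : ℝ) ≤ ((⊤ : SimpleGraph (Fin n)).copyCount F : ℝ) * c ^ F.edgeSet.ncard)
    {W : Type*} [Fintype W] (F : SimpleGraph W) (hF : F.Connected) (he : 1 ≤ F.edgeSet.ncard) :
    (H.labelledCopyCount F : ℝ)
      ≤ (n.descFactorial (Fintype.card W) : ℝ) * c ^ F.edgeSet.ncard := by
  classical
  let ε : W ≃ Fin (Fintype.card W) := Fintype.equivFin W
  let F' : SimpleGraph (Fin (Fintype.card W)) := SimpleGraph.map ε.toEmbedding F
  have iso : F ≃g F' := Iso.map ε F
  have hF' : F'.Connected := iso.connected_iff.mp hF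
  have hee : F.edgeSet.ncard = F'.edgeSet.ncard := ncard_edgeSet_congr iso
  have he' : 1 ≤ F'.edgeSet.ncard := hee ▸ he
  have h1 := hcc _ F' hF' he'
  have h2 : H.labelledCopyCount F = H.copyCount F' * Nat.card (F' ≃g F') := by
    rw [labelled_congr H iso, labelled_eq]
  have h3 : n.descFactorial (Fintype.card W)
      = (⊤ : SimpleGraph (Fin n)).copyCount F' * Nat.card (F' ≃g F') := by
    rw [← labelled_eq, labelled_top, Fintype.card_fin]
  rw [h2, h3, hee]
  push_cast
  have h4 : (0 : ℝ) ≤ (Nat.card (F' ≃g F') : ℝ) := Nat.cast_nonneg _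
  calc (H.copyCount F' : ℝ) * (Nat.card (F' ≃g F') : ℝ)
      ≤ (((⊤ : SimpleGraph (Fin n)).copyCount F' : ℝ) * c ^ F'.edgeSet.ncard)
          * (Nat.card (F' ≃g F') : ℝ) := mul_le_mul_of_nonneg_right h1 h4
    _ = ((⊤ : SimpleGraph (Fin n)).copyCount F' : ℝ) * (Nat.card (F' ≃g F') : ℝ)
          * c ^ F'.edgeSet.ncard := by ring

end Vale.Agent.Helper25.KKTransport
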