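import Mathlib
import Vale.Agent.Results.P064.StarForests
import Vale.Agent.Helper25.KKTransport

/-!
P064, all-graphs extension (helper25, steps P3 and P5): labelled copies of a graph are
controlled by the product over its connected components; vertices and edges add up over the
components.  Packaged form: `labelled_all`.
-/

namespace Vale.Agent.Helper25.KKComponents

open Finset SimpleGraph
open Vale.Agent.Results.P064.StarForests
open Vale.Agent.Helper25.KKTransport

/-- Step P3: a copy of `F` is determined by its restrictions to the components of `F`. -/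
lemma card_copy_le_prod {V W : Type*} [Finite V] [Finite W] (G : SimpleGraph V)
    (F : SimpleGraph W) [Fintype F.ConnectedComponent] :
    Nat.card (Copy F G)
      ≤ ∏ C : F.ConnectedComponent, Nat.card (Copy (F.induce C.supp) G) := by
  classical
  rw [← Nat.card_pi]
  have : ∀ C : F.ConnectedComponent, Finite (Copy (F.induce C.supp) G) :=
    fun C => finite_copy G _
  apply Nat.card_le_card_of_injective
    (fun (f : Copy F G) (C : F.ConnectedComponent) => f.comp (Copy.induce F C.supp))
  intro f g hfg
  apply Copy.ext
  intro a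
  have h1 := congrFun hfg (F.connectedComponentMk a)
  have h2 := congrArg (fun k : Copy (F.induce (F.connectedComponentMk a).supp) G =>
    k ⟨a, rfl⟩) h1
  simp only [Copy.comp_apply] at h2
  exact h2

/-- Step P5 (vertices): the component sizes add up to the number of vertices. -/
lemma sum_card_supp {W : Type*} [Finite W] (F : SimpleGraph W)
    [Fintype F.ConnectedComponent] :
    ∑ C : F.ConnectedComponent, Nat.card C.supp = Nat.card W := by
  classical
  have h : Nat.card (Σ C : F.ConnectedComponent, {x : W // F.connectedComponentMk x = C})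
      = Nat.card W := Nat.card_congr (Equiv.sigmaFiberEquiv F.connectedComponentMk)
  rw [Nat.card_sigma] at h
  exact h

/-- The forgetful map from the edges of the components to the edges of the graph. -/
def edgeMap {W : Type*} (F : SimpleGraph W) :
    (Σ C : F.ConnectedComponent, (F.induce C.supp).edgeSet) → F.edgeSet :=
  fun x => (Embedding.induce x.1.supp).toHom.mapEdgeSet x.2

lemma edgeMap_injective {W : Type*} (F : SimpleGraph W) : Function.Injective (edgeMap F) := by
  rintro ⟨C, ⟨e, he⟩⟩ ⟨C', ⟨e', he'⟩⟩ h
  have h1 : Sym2.map (Subtype.val : C.supp → W) e = Sym2.map (Subtype.val : C'.supp → W) e' :=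
    congrArg Subtype.val h
  have hC : C = C' := by
    induction e using Sym2.ind with
    | _ x y =>
      induction e' using Sym2.ind with
      | _ x' y' =>
        rw [Sym2.map_mk, Sym2.map_mk, Sym2.eq_iff] at h1
        have hx : F.connectedComponentMk x.1 = C := x.2
        have hx' : F.connectedComponentMk x'.1 = C' := x'.2
        have hy' : F.connectedComponentMk y'.1 = C' := y'.2
        rcases h1 with ⟨h2, -⟩ | ⟨h2, -⟩
        · rw [← hx, ← hx', h2]
        · rw [← hx, ← hy', h2]
  subst hC
  have h3 : e = e' := Sym2.map.injective Subtype.val_injective h1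
  subst h3
  rfl

lemma edgeMap_surjective {W : Type*} (F : SimpleGraph W) :
    Function.Surjective (edgeMap F) := by
  rintro ⟨z, hz⟩
  induction z using Sym2.ind with
  | _ a b =>
    rw [mem_edgeSet] at hz
    have hb : b ∈ (F.connectedComponentMk a).supp :=
      (ConnectedComponent.connectedComponentMk_eq_of_adj hz).symm
    have hadj : (F.induce (F.connectedComponentMk a).supp).Adj ⟨a, rfl⟩ ⟨b, hb⟩ := hz
    refine ⟨⟨F.connectedComponentMk a, ⟨s(⟨a, rfl⟩, ⟨b, hb⟩), hadj⟩⟩, ?_⟩
    apply Subtype.ext
    rfl

/-- Step P5 (edges): the edge numbers of the components add up to the number of edges. -/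
lemma sum_ncard_edgeSet {W : Type*} [Finite W] (F : SimpleGraph W)
    [Fintype F.ConnectedComponent] :
    ∑ C : F.ConnectedComponent, (F.induce C.supp).edgeSet.ncard = F.edgeSet.ncard := by
  classical
  have h : Nat.card (Σ C : F.ConnectedComponent, (F.induce C.supp).edgeSet)
      = Nat.card F.edgeSet :=
    Nat.card_congr (Equiv.ofBijective (edgeMap F) ⟨edgeMap_injective F, edgeMap_surjective F⟩)
  rw [Nat.card_sigma] at h
  rw [← Nat.card_coe_set_eq, ← h]
  apply Finset.sum_congr rfl
  intro C _
  rw [Nat.card_coe_set_eq]

/-- Every component is connected. -/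
lemma connected_induce_supp {W : Type*} (F : SimpleGraph W) (C : F.ConnectedComponent) :
    (F.induce C.supp).Connected :=
  C.connected_toSimpleGraph

/-- A component of a graph without isolated vertices has an edge. -/
lemma one_le_ncard_edgeSet_induce {W : Type*} [Finite W] (F : SimpleGraph W)
    (hno : ∀ a, ∃ b, F.Adj a b) (C : F.ConnectedComponent) :
    1 ≤ (F.induce C.supp).edgeSet.ncard := by
  induction C using ConnectedComponent.ind with
  | _ a =>
    obtain ⟨b, hab⟩ := hno a
    have hb : b ∈ (F.connectedComponentMk a).supp :=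
      (ConnectedComponent.connectedComponentMk_eq_of_adj hab).symm
    have hadj : (F.induce (F.connectedComponentMk a).supp).Adj ⟨a, rfl⟩ ⟨b, hb⟩ := hab
    have hne : (F.induce (F.connectedComponentMk a).supp).edgeSet.Nonempty :=
      ⟨s(⟨a, rfl⟩, ⟨b, hb⟩), hadj⟩
    exact (Set.ncard_pos (Set.toFinite _)).mpr hne

/-- Steps P3, P4, P5 packaged: if every connected graph `F` on some `Fin v` with at least one
edge has `N(H,F) <= N(K_n,F) * c ^ e(F)`, then every graph `F` without isolated vertices, on
a finite vertex type `W`, has at most `n ^ |W| * c ^ e(F)` labelled copies in `H`. -/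
theorem labelled_all {n : ℕ} (H : SimpleGraph (Fin n)) (c : ℝ) (hc0 : 0 ≤ c)
    (hcc : ∀ (v : ℕ) (F : SimpleGraph (Fin v)), F.Connected → 1 ≤ F.edgeSet.ncard →
      (H.copyCount F : ℝ) ≤ ((⊤ : SimpleGraph (Fin n)).copyCount F : ℝ) * c ^ F.edgeSet.ncard)
    {W : Type*} [Fintype W] (F : SimpleGraph W) (hno : ∀ a, ∃ b, F.Adj a b) :
    (H.labelledCopyCount F : ℝ) ≤ (n : ℝ) ^ (Fintype.card W) * c ^ F.edgeSet.ncard := by
  classical
  have hfac : ∀ C : F.ConnectedComponent,
      (Nat.card (Copy (F.induce C.supp) H) : ℝ)
        ≤ (n : ℝ) ^ (Nat.card C.supp) * c ^ (F.induce C.supp).edgeSet.ncard := by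
    intro C
    have h1 := labelled_of_connected_count H c hcc (F.induce C.supp)
      (connected_induce_supp F C) (one_le_ncard_edgeSet_induce F hno C)
    rw [lcc_eq, ← Nat.card_eq_fintype_card] at h1
    refine h1.trans ?_
    apply mul_le_mul_of_nonneg_right _ (pow_nonneg hc0 _)
    exact_mod_cast Nat.descFactorial_le_pow n (Nat.card C.supp)
  have h2 : (Nat.card (Copy F H) : ℝ)
      ≤ ∏ C : F.ConnectedComponent, (Nat.card (Copy (F.induce C.supp) H) : ℝ) := by
    exact_mod_cast card_copy_le_prod H F
  have h3 : ∏ C : F.ConnectedComponent, (Nat.card (Copy (F.induce C.supp) H) : ℝ)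
      ≤ ∏ C : F.ConnectedComponent,
          ((n : ℝ) ^ (Nat.card C.supp) * c ^ (F.induce C.supp).edgeSet.ncard) :=
    Finset.prod_le_prod (fun C _ => Nat.cast_nonneg _) (fun C _ => hfac C)
  rw [lcc_eq]
  refine h2.trans (h3.trans (le_of_eq ?_))
  rw [Finset.prod_mul_distrib, Finset.prod_pow_eq_pow_sum, Finset.prod_pow_eq_pow_sum,
    sum_card_supp, sum_ncard_edgeSet, Nat.card_eq_fintype_card]

end Vale.Agent.Helper25.KKComponents
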