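import Mathlib
import Vale.Agent.Results.P064.StarForests
import Vale.Agent.Helper25.KKComponents
import Vale.Agent.Helper3.KKAll
import Vale.Agent.Helper18.KKArith

/-!
P064, all-graphs extension (helper25, final assembly): a copy-count bound for connected
graphs with constant `c` gives the same kind of bound, with constant `e^2 * c`, for every graph
without isolated vertices.
-/

namespace Vale.Agent.Helper25.KKAllGraphs

open Finset SimpleGraph
open Vale.Agent.Results.P064.StarCounts
open Vale.Agent.Results.P064.StarForests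
open Vale.Agent.Helper25.KKComponents

lemma finite_aut {W : Type*} [Finite W] (F : SimpleGraph W) : Finite (F ≃g F) :=
  Finite.of_injective (fun e : F ≃g F => (e : W → W)) DFunLike.coe_injective

lemma aut_pos {W : Type*} [Finite W] (F : SimpleGraph W) : 0 < Nat.card (F ≃g F) := by
  have := finite_aut F
  have : Nonempty (F ≃g F) := ⟨Iso.refl⟩
  exact Nat.card_pos

/-- General form: a bound `N(H,F) <= N(K_n,F) * c ^ e(F)` for all connected `F` with an edge
implies `N(H,F) <= N(K_n,F) * (e^2 * c) ^ e(F)` for all `F` without isolated vertices. -/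
theorem all_graphs_general {n : ℕ} (H : SimpleGraph (Fin n)) (c : ℝ) (hc0 : 0 ≤ c)
    (hcc : ∀ (v : ℕ) (F : SimpleGraph (Fin v)), F.Connected → 1 ≤ F.edgeSet.ncard →
      (H.copyCount F : ℝ) ≤ ((⊤ : SimpleGraph (Fin n)).copyCount F : ℝ) * c ^ F.edgeSet.ncard)
    {W : Type*} [Fintype W] (F : SimpleGraph W) (hno : ∀ a, ∃ b, F.Adj a b) :
    (H.copyCount F : ℝ)
      ≤ ((⊤ : SimpleGraph (Fin n)).copyCount F : ℝ) * (Real.exp 2 * c) ^ F.edgeSet.ncard := by
  classical
  have hA : (0 : ℝ) < (Nat.card (F ≃g F) : ℝ) := by exact_mod_cast aut_pos F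
  have hH : (H.labelledCopyCount F : ℝ) = (H.copyCount F : ℝ) * (Nat.card (F ≃g F) : ℝ) := by
    exact_mod_cast labelled_eq H F
  have hT : (n.descFactorial (Fintype.card W) : ℝ)
      = ((⊤ : SimpleGraph (Fin n)).copyCount F : ℝ) * (Nat.card (F ≃g F) : ℝ) := by
    have h := labelled_eq (⊤ : SimpleGraph (Fin n)) F
    rw [labelled_top] at h
    exact_mod_cast h
  have hrhs : (0 : ℝ) ≤ ((⊤ : SimpleGraph (Fin n)).copyCount F : ℝ)
      * (Real.exp 2 * c) ^ F.edgeSet.ncard :=
    mul_nonneg (Nat.cast_nonneg _) (pow_nonneg (mul_nonneg (Real.exp_pos 2).le hc0) _)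
  rcases le_or_gt (Fintype.card W) n with hvn | hvn
  · have h1 := labelled_all H c hc0 hcc F hno
    have h2 := Vale.Agent.Helper18.KKArith.pow_le_exp_descFactorial n (Fintype.card W) hvn
    have h3 := Vale.Agent.Helper3.KKAll.card_le_two_mul_ncard_edgeSet F hno
    have h4 : Real.exp (Fintype.card W : ℝ) ≤ Real.exp 2 ^ F.edgeSet.ncard := by
      rw [← Real.exp_nat_mul]
      apply Real.exp_le_exp.mpr
      have : (Fintype.card W : ℝ) ≤ ((2 * F.edgeSet.ncard : ℕ) : ℝ) := by exact_mod_cast h3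
      push_cast at this
      linarith
    have hce : (0 : ℝ) ≤ c ^ F.edgeSet.ncard := pow_nonneg hc0 _
    have hd : (0 : ℝ) ≤ (n.descFactorial (Fintype.card W) : ℝ) := Nat.cast_nonneg _
    have h5 : (H.copyCount F : ℝ) * (Nat.card (F ≃g F) : ℝ)
        ≤ (((⊤ : SimpleGraph (Fin n)).copyCount F : ℝ) * (Real.exp 2 * c) ^ F.edgeSet.ncard)
          * (Nat.card (F ≃g F) : ℝ) := by
      rw [← hH]
      calc (H.labelledCopyCount F : ℝ)
          ≤ (n : ℝ) ^ (Fintype.card W) * c ^ F.edgeSet.ncard := h1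
        _ ≤ (Real.exp (Fintype.card W : ℝ) * (n.descFactorial (Fintype.card W) : ℝ))
              * c ^ F.edgeSet.ncard := mul_le_mul_of_nonneg_right h2 hce
        _ ≤ (Real.exp 2 ^ F.edgeSet.ncard * (n.descFactorial (Fintype.card W) : ℝ))
              * c ^ F.edgeSet.ncard :=
            mul_le_mul_of_nonneg_right (mul_le_mul_of_nonneg_right h4 hd) hce
        _ = (((⊤ : SimpleGraph (Fin n)).copyCount F : ℝ) * (Real.exp 2 * c) ^ F.edgeSet.ncard)
              * (Nat.card (F ≃g F) : ℝ) := by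
            rw [hT, mul_pow]
            ring
    exact le_of_mul_le_mul_right h5 hA
  · have h0 : n.descFactorial (Fintype.card W) = 0 := Nat.descFactorial_of_lt hvn
    have h1 : H.labelledCopyCount F ≤ (⊤ : SimpleGraph (Fin n)).labelledCopyCount F :=
      labelled_le_top H F
    rw [labelled_top, h0] at h1
    have h2 : H.labelledCopyCount F = 0 := Nat.le_zero.mp h1
    rw [labelled_eq] at h2
    have h3 : H.copyCount F = 0 := by
      rcases Nat.mul_eq_zero.mp h2 with h | h
      · exact h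
      · exact absurd h (aut_pos F).ne'
    rw [h3]
    simpa using hrhs

lemma exp_two_mul_le : Real.exp 2 * 24 ≤ 178 := by
  have h1 : Real.exp 2 = Real.exp 1 * Real.exp 1 := by
    rw [← Real.exp_add]
    norm_num
  have h2 := Real.exp_one_lt_d9
  have h3 := Real.exp_pos 1
  rw [h1]
  nlinarith

/-- The all-graphs step for P064: from the bound for connected graphs with constant
`24 * exp (8 n q) * q` to all graphs without isolated vertices with
`min 1 (178 * exp (8 n q) * q)`. -/
theorem all_graphs {n : ℕ} (H : SimpleGraph (Fin n)) (q : ℝ) (hq : 0 ≤ q)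
    (hcc : ∀ (v : ℕ) (F : SimpleGraph (Fin v)), F.Connected → 1 ≤ F.edgeSet.ncard →
      (H.copyCount F : ℝ) ≤ ((⊤ : SimpleGraph (Fin n)).copyCount F : ℝ)
        * (24 * Real.exp (8 * n * q) * q) ^ F.edgeSet.ncard)
    {W : Type*} [Fintype W] (F : SimpleGraph W) (hno : ∀ a, ∃ b, F.Adj a b) :
    (H.copyCount F : ℝ) ≤ ((⊤ : SimpleGraph (Fin n)).copyCount F : ℝ)
      * (min 1 (178 * Real.exp (8 * n * q) * q)) ^ F.edgeSet.ncard := by
  have hE : (0 : ℝ) < Real.exp (8 * n * q) := Real.exp_pos _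
  have hc0 : (0 : ℝ) ≤ 24 * Real.exp (8 * n * q) * q := by positivity
  have hT : (0 : ℝ) ≤ ((⊤ : SimpleGraph (Fin n)).copyCount F : ℝ) := Nat.cast_nonneg _
  rcases le_total 1 (178 * Real.exp (8 * n * q) * q) with h | h
  · rw [min_eq_left h, one_pow, mul_one]
    exact_mod_cast copyCount_mono (le_top : H ≤ ⊤) F
  · rw [min_eq_right h]
    refine (all_graphs_general H _ hc0 hcc F hno).trans ?_
    apply mul_le_mul_of_nonneg_left _ hT
    apply pow_le_pow_left₀ (mul_nonneg (Real.exp_pos 2).le hc0)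
    have h1 := exp_two_mul_le
    have h2 : (0 : ℝ) ≤ Real.exp (8 * n * q) * q := by positivity
    calc Real.exp 2 * (24 * Real.exp (8 * n * q) * q)
        = (Real.exp 2 * 24) * (Real.exp (8 * n * q) * q) := by ring
      _ ≤ 178 * (Real.exp (8 * n * q) * q) := mul_le_mul_of_nonneg_right h1 h2
      _ = 178 * Real.exp (8 * n * q) * q := by ring

end Vale.Agent.Helper25.KKAllGraphs
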