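import Mathlib
import Vale.Agent.Results.P064.StarForests
import Vale.Agent.Helper25.KKAllGraphs
import Vale.Agent.Helper18.KKArith

/-!
P064 (helper25, for the tree theorem): the number of labelled copies of a connected graph on
`k + 1` vertices in a graph on `n` vertices with all degrees at most `Δ` is at most `n Δ^k`.
-/

namespace Vale.Agent.Helper25.KKTree

open Finset SimpleGraph
open Vale.Agent.Results.P064.StarForests
open Vale.Agent.Helper25.KKAllGraphs
open Vale.Agent.Results.P064.StarCounts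

/-- Removing a vertex `w` that has a neighbour `p`: the copies of `F` are at most `Δ` times
the copies of `F - w`. -/
lemma card_copy_le_remove {V W : Type*} [Fintype V] [Fintype W] (G : SimpleGraph V)
    (Δ : ℕ) (hdeg : ∀ u : V, (G.neighborSet u).ncard ≤ Δ)
    (F : SimpleGraph W) (w p : W) (hadj : F.Adj p w) :
    Nat.card (Copy F G) ≤ Nat.card (Copy (F.induce ({w}ᶜ : Set W)) G) * Δ := by
  classical
  have := finite_copy G F
  have := finite_copy G (F.induce ({w}ᶜ : Set W))
  have : Fintype (Copy F G) := Fintype.ofFinite _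
  have : Fintype (Copy (F.induce ({w}ᶜ : Set W)) G) := Fintype.ofFinite _
  have hp : p ∈ ({w}ᶜ : Set W) := hadj.ne
  let r : Copy F G → Copy (F.induce ({w}ᶜ : Set W)) G :=
    fun f => f.comp (Copy.induce F ({w}ᶜ : Set W))
  have h1 : (Finset.univ : Finset (Copy F G)).card
      = ∑ f₀ ∈ (Finset.univ : Finset (Copy (F.induce ({w}ᶜ : Set W)) G)),
          ((Finset.univ : Finset (Copy F G)).filter (fun f => r f = f₀)).card :=
    Finset.card_eq_sum_card_fiberwise (fun _ _ => Finset.mem_coe.mpr (Finset.mem_univ _))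
  have h2 : ∀ f₀ ∈ (Finset.univ : Finset (Copy (F.induce ({w}ᶜ : Set W)) G)),
      ((Finset.univ : Finset (Copy F G)).filter (fun f => r f = f₀)).card ≤ Δ := by
    intro f₀ _
    rw [← Fintype.card_subtype, ← Nat.card_eq_fintype_card]
    refine le_trans ?_ (hdeg (f₀ ⟨p, hp⟩))
    rw [← Nat.card_coe_set_eq]
    let ψ : {f : Copy F G // r f = f₀} → ↥(G.neighborSet (f₀ ⟨p, hp⟩)) :=
      fun f => ⟨f.1 w, by
        have h8 : r f.1 ⟨p, hp⟩ = f₀ ⟨p, hp⟩ :=
          congrArg (fun k : Copy (F.induce ({w}ᶜ : Set W)) G => k ⟨p, hp⟩) f.2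
        have h9 : G.Adj (f.1 p) (f.1 w) := f.1.toHom.map_adj hadj
        rw [mem_neighborSet, ← h8]
        exact h9⟩
    apply Nat.card_le_card_of_injective ψ
    intro f g hfg
    apply Subtype.ext
    apply Copy.ext
    intro a
    by_cases ha : a = w
    · rw [ha]
      exact congrArg Subtype.val hfg
    · have ha' : a ∈ ({w}ᶜ : Set W) := ha
      have h3 : r f.1 ⟨a, ha'⟩ = r g.1 ⟨a, ha'⟩ := by rw [f.2, g.2]
      exact h3
  rw [Nat.card_eq_fintype_card, Nat.card_eq_fintype_card, ← Finset.card_univ, h1]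
  refine (Finset.sum_le_card_nsmul _ _ _ h2).trans (le_of_eq ?_)
  rw [smul_eq_mul, Finset.card_univ]

/-- Labelled copies of a connected graph on `k + 1` vertices in a graph on `n` vertices with
all degrees at most `Δ`: at most `n Δ^k`. -/
theorem card_copy_connected_le {n : ℕ} (H : SimpleGraph (Fin n)) (Δ : ℕ)
    (hdeg : ∀ u : Fin n, (H.neighborSet u).ncard ≤ Δ) :
    ∀ (k : ℕ) (W : Type) [Fintype W] (F : SimpleGraph W), F.Connected →
      Fintype.card W = k + 1 → Nat.card (Copy F H) ≤ n * Δ ^ k := by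
  intro k
  induction k with
  | zero =>
    intro W _ F _ hcard
    classical
    have hfin : Finite (W → Fin n) := inferInstance
    have h1 : Nat.card (Copy F H) ≤ Nat.card (W → Fin n) :=
      Nat.card_le_card_of_injective (fun f => (f : W → Fin n)) DFunLike.coe_injective
    have h2 : Nat.card (W → Fin n) = n := by
      rw [Nat.card_eq_fintype_card, Fintype.card_fun, Fintype.card_fin, hcard]
      simp
    rw [h2] at h1
    simpa using h1
  | succ k ih =>
    intro W _ F hF hcard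
    classical
    have hnt : Nontrivial W := by
      rw [← Fintype.one_lt_card_iff_nontrivial, hcard]
      omega
    obtain ⟨w, hw⟩ := hF.exists_connected_induce_compl_singleton_of_finite_nontrivial
    obtain ⟨p, hp⟩ := hF.preconnected.exists_adj_of_nontrivial w
    have hcard' : Fintype.card ↥({w}ᶜ : Set W) = k + 1 := by
      have h := Fintype.card_compl_set ({w} : Set W)
      rw [h, hcard]
      simp
    have h1 := card_copy_le_remove H Δ hdeg F w p hp.symm
    have h2 := ih ↥({w}ᶜ : Set W) (F.induce ({w}ᶜ : Set W)) hw hcard'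
    calc Nat.card (Copy F H) ≤ Nat.card (Copy (F.induce ({w}ᶜ : Set W)) H) * Δ := h1
      _ ≤ (n * Δ ^ k) * Δ := Nat.mul_le_mul_right Δ h2
      _ = n * Δ ^ (k + 1) := by rw [pow_succ, mul_assoc]

/-- `C(a,j) y^j <= (e a y / j)^j`. -/
lemma choose_mul_pow_le_exp (a j : ℕ) (hj : 1 ≤ j) (y : ℝ) (hy : 0 ≤ y) :
    (a.choose j : ℝ) * y ^ j ≤ (Real.exp 1 * a * y / j) ^ j := by
  have h1 : (a.choose j : ℝ) ≤ (a : ℝ) ^ j / j.factorial := Nat.choose_le_pow_div j a
  have hfpos : (0 : ℝ) < j.factorial := by exact_mod_cast Nat.factorial_pos j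
  have hjpos : (0 : ℝ) < j := by exact_mod_cast hj
  have hjj : (0 : ℝ) < (j : ℝ) ^ j := pow_pos hjpos j
  have h2 : (j : ℝ) ^ j ≤ Real.exp 1 ^ j * j.factorial := by
    have h := Real.pow_div_factorial_le_exp (j : ℝ) (Nat.cast_nonneg j) j
    have h4 : Real.exp (j : ℝ) = Real.exp 1 ^ j := by
      rw [← Real.exp_nat_mul, mul_one]
    rw [h4, div_le_iff₀ hfpos] at h
    exact h
  have hay : (0 : ℝ) ≤ ((a : ℝ) * y) ^ j := pow_nonneg (mul_nonneg (Nat.cast_nonneg a) hy) j
  calc (a.choose j : ℝ) * y ^ j ≤ (a : ℝ) ^ j / j.factorial * y ^ j :=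
        mul_le_mul_of_nonneg_right h1 (pow_nonneg hy j)
    _ = ((a : ℝ) * y) ^ j / j.factorial := by rw [mul_pow]; ring
    _ ≤ ((a : ℝ) * y) ^ j * Real.exp 1 ^ j / (j : ℝ) ^ j := by
        rw [div_le_div_iff₀ hfpos hjj]
        nlinarith
    _ = (Real.exp 1 * a * y / j) ^ j := by
        rw [div_pow, mul_pow, mul_pow, mul_pow]; ring

/-- The degree bound: under the expectation hypothesis at density `q`, every vertex of `H`
has degree at most `max (e^2 n q) (log n)`. -/
theorem degree_le {n : ℕ} (H : SimpleGraph (Fin n)) (q : ℝ) (hq0 : 0 ≤ q)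
    (hyp : ∀ F' : SimpleGraph (Fin n), F' ≤ H →
      1 ≤ ((⊤ : SimpleGraph (Fin n)).copyCount F' : ℝ) * q ^ F'.edgeSet.ncard)
    (u : Fin n) :
    ((H.neighborSet u).ncard : ℝ) ≤ max (Real.exp 2 * n * q) (Real.log n) := by
  classical
  have hn1 : 1 ≤ n := by
    have := u.2
    omega
  have hnpos : (0 : ℝ) < n := by exact_mod_cast hn1
  have hd : (H.neighborSet u).ncard = (H.neighborFinset u).card := by
    rw [← Set.ncard_coe_finset, coe_neighborFinset]
  rw [hd]
  set d := (H.neighborFinset u).card with hddef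
  by_cases hle : (d : ℝ) ≤ Real.exp 2 * n * q
  · exact hle.trans (le_max_left _ _)
  rw [not_le] at hle
  refine le_trans ?_ (le_max_right _ _)
  -- the star at `u`
  let F' : SimpleGraph (Fin n) :=
    { Adj := fun a b => H.Adj a b ∧ (a ∈ ({u} : Finset (Fin n)) ∨ b ∈ ({u} : Finset (Fin n)))
      symm := ⟨fun _ _ h => ⟨h.1.symm, h.2.symm⟩⟩
      loopless := ⟨fun a h => H.loopless.irrefl a h.1⟩ }
  have hF'le : F' ≤ H := fun a b h => h.1
  have hcount := copyCount_top_le_of_cover F' ({u} : Finset (Fin n)) (fun a b h => h.2)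
  rw [Finset.card_singleton, Nat.choose_one_right, one_mul] at hcount
  set e' := F'.edgeFinset.card with he'
  have hedge : d ≤ e' := by
    apply Finset.card_le_card_of_injOn (fun w => s(u, w))
    · intro w hw
      rw [Finset.mem_coe, mem_neighborFinset] at hw
      rw [Finset.mem_coe, mem_edgeFinset, mem_edgeSet]
      exact ⟨hw, Or.inl (Finset.mem_singleton_self u)⟩
    · intro w _ w' _ hww
      rw [Sym2.eq_iff] at hww
      rcases hww with ⟨-, h2⟩ | ⟨h1, h2⟩
      · exact h2
      · rw [← h1, h2]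
  have h1 := hyp F' hF'le
  have hnc : F'.edgeSet.ncard = e' := by
    rw [he', edgeFinset, Set.ncard_eq_toFinset_card']
  rw [hnc] at h1
  have he'pos : 1 ≤ e' := by
    by_contra hcon
    have h0 : d = 0 := by omega
    rw [h0] at hle
    have : (0 : ℝ) ≤ Real.exp 2 * n * q := by positivity
    simp only [Nat.cast_zero] at hle
    linarith
  have he'R : (0 : ℝ) < e' := by exact_mod_cast he'pos
  have hle' : Real.exp 2 * n * q ≤ e' := by
    have : (d : ℝ) ≤ e' := by exact_mod_cast hedge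
    linarith
  have h2 : (1 : ℝ) ≤ (n : ℝ) * ((n.choose e' : ℝ) * q ^ e') := by
    refine h1.trans ?_
    rw [← mul_assoc]
    apply mul_le_mul_of_nonneg_right _ (pow_nonneg hq0 _)
    exact_mod_cast hcount
  have h3 := choose_mul_pow_le_exp n e' he'pos q hq0
  have h4 : Real.exp 1 * n * q / e' ≤ Real.exp (-1) := by
    rw [div_le_iff₀ he'R]
    have h5 : Real.exp 2 = Real.exp 1 * Real.exp 1 := by
      rw [← Real.exp_add]; norm_num
    have h6 : Real.exp (-1) * Real.exp 1 = 1 := by
      rw [← Real.exp_add]; norm_num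
    have h7 : Real.exp 1 * (Real.exp 1 * n * q) ≤ Real.exp 1 * (Real.exp (-1) * e') := by
      calc Real.exp 1 * (Real.exp 1 * n * q) = Real.exp 2 * n * q := by rw [h5]; ring
        _ ≤ e' := hle'
        _ = Real.exp 1 * (Real.exp (-1) * e') := by
            rw [← mul_assoc, mul_comm (Real.exp 1) (Real.exp (-1)), h6, one_mul]
    exact le_of_mul_le_mul_left h7 (Real.exp_pos 1)
  have h8 : (Real.exp 1 * n * q / e') ^ e' ≤ Real.exp (-(e' : ℝ)) := by
    have h9 : Real.exp (-(e' : ℝ)) = Real.exp (-1) ^ e' := by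
      rw [← Real.exp_nat_mul]; ring_nf
    rw [h9]
    exact pow_le_pow_left₀ (by positivity) h4 e'
  have h10 : (1 : ℝ) ≤ (n : ℝ) * Real.exp (-(e' : ℝ)) :=
    h2.trans (mul_le_mul_of_nonneg_left (h3.trans h8) hnpos.le)
  have h11 : Real.exp (e' : ℝ) ≤ n := by
    have h12 : Real.exp (e' : ℝ) * 1 ≤ Real.exp (e' : ℝ) * ((n : ℝ) * Real.exp (-(e' : ℝ))) :=
      mul_le_mul_of_nonneg_left h10 (Real.exp_pos _).le
    have h13 : Real.exp (e' : ℝ) * ((n : ℝ) * Real.exp (-(e' : ℝ))) = n := by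
      rw [mul_comm (n : ℝ), ← mul_assoc, ← Real.exp_add]
      simp
    rw [h13, mul_one] at h12
    exact h12
  have h14 : (e' : ℝ) ≤ Real.log n := by
    rw [Real.le_log_iff_exp_le hnpos]
    exact h11
  have : (d : ℝ) ≤ e' := by exact_mod_cast hedge
  linarith

/-- The quotient step: a connected graph on `k + 1` vertices has at most
`N(K_n,F) (2 e Δ / n)^k` copies in a graph on `n` vertices with all degrees at most `Δ`. -/
theorem connected_count_degree {n : ℕ} (H : SimpleGraph (Fin n)) (Δ : ℕ)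
    (hdeg : ∀ u : Fin n, (H.neighborSet u).ncard ≤ Δ)
    (k : ℕ) (W : Type) [Fintype W] (F : SimpleGraph W) (hF : F.Connected)
    (hcard : Fintype.card W = k + 1) :
    (H.copyCount F : ℝ)
      ≤ ((⊤ : SimpleGraph (Fin n)).copyCount F : ℝ) * (2 * Real.exp 1 * Δ / n) ^ k := by
  classical
  have hA : (0 : ℝ) < (Nat.card (F ≃g F) : ℝ) := by exact_mod_cast aut_pos F
  have hHl : (H.labelledCopyCount F : ℝ) = (H.copyCount F : ℝ) * (Nat.card (F ≃g F) : ℝ) := by
    exact_mod_cast labelled_eq H F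
  have hTl : (n.descFactorial (k + 1) : ℝ)
      = ((⊤ : SimpleGraph (Fin n)).copyCount F : ℝ) * (Nat.card (F ≃g F) : ℝ) := by
    have h := labelled_eq (⊤ : SimpleGraph (Fin n)) F
    rw [labelled_top, hcard] at h
    exact_mod_cast h
  rcases Nat.eq_zero_or_pos k with hk0 | hkpos
  · rw [hk0, pow_zero, mul_one]
    exact_mod_cast copyCount_mono (le_top : H ≤ ⊤) F
  have hrhs : (0 : ℝ) ≤ ((⊤ : SimpleGraph (Fin n)).copyCount F : ℝ)
      * (2 * Real.exp 1 * Δ / n) ^ k := by positivity
  rcases le_or_gt (k + 1) n with hkn | hkn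
  · obtain ⟨m, rfl⟩ : ∃ m, n = m + 1 := ⟨n - 1, by omega⟩
    have hkm : k ≤ m := by omega
    have hm1 : 1 ≤ m := by omega
    have h1 := card_copy_connected_le H Δ hdeg k W F hF hcard
    rw [← lcc_eq] at h1
    have h1R : (H.labelledCopyCount F : ℝ) ≤ ((m + 1 : ℕ) : ℝ) * (Δ : ℝ) ^ k := by
      exact_mod_cast h1
    have h2 := Vale.Agent.Helper18.KKArith.pow_le_exp_descFactorial m k hkm
    have hexp : Real.exp (k : ℝ) = Real.exp 1 ^ k := by
      rw [← Real.exp_nat_mul, mul_one]
    rw [hexp] at h2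
    have hm1R : (1 : ℝ) ≤ (m : ℝ) := by exact_mod_cast hm1
    have h3 : ((m : ℝ) + 1) ^ k ≤ (2 * (m : ℝ)) ^ k :=
      pow_le_pow_left₀ (by positivity) (by linarith) k
    have hmpos : (0 : ℝ) < (m : ℝ) + 1 := by positivity
    have key : (1 : ℝ) ≤ (m.descFactorial k : ℝ) * (2 * Real.exp 1 / ((m : ℝ) + 1)) ^ k := by
      rw [div_pow, mul_pow, ← mul_div_assoc, le_div_iff₀ (pow_pos hmpos k), one_mul]
      calc ((m : ℝ) + 1) ^ k ≤ (2 * (m : ℝ)) ^ k := h3
        _ = 2 ^ k * (m : ℝ) ^ k := mul_pow _ _ _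
        _ ≤ 2 ^ k * (Real.exp 1 ^ k * (m.descFactorial k : ℝ)) :=
            mul_le_mul_of_nonneg_left h2 (by positivity)
        _ = (m.descFactorial k : ℝ) * (2 ^ k * Real.exp 1 ^ k) := by ring
    have hdesc : (((m + 1).descFactorial (k + 1) : ℕ) : ℝ)
        = ((m + 1 : ℕ) : ℝ) * (m.descFactorial k : ℝ) := by
      rw [Nat.succ_descFactorial_succ]
      push_cast
      ring
    have h5 : (H.copyCount F : ℝ) * (Nat.card (F ≃g F) : ℝ)
        ≤ (((⊤ : SimpleGraph (Fin (m + 1))).copyCount F : ℝ)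
          * (2 * Real.exp 1 * Δ / ((m + 1 : ℕ) : ℝ)) ^ k) * (Nat.card (F ≃g F) : ℝ) := by
      rw [← hHl]
      calc (H.labelledCopyCount F : ℝ) ≤ ((m + 1 : ℕ) : ℝ) * (Δ : ℝ) ^ k := h1R
        _ = ((m + 1 : ℕ) : ℝ) * ((Δ : ℝ) ^ k * 1) := by ring
        _ ≤ ((m + 1 : ℕ) : ℝ) * ((Δ : ℝ) ^ k
              * ((m.descFactorial k : ℝ) * (2 * Real.exp 1 / ((m : ℝ) + 1)) ^ k)) :=
            mul_le_mul_of_nonneg_left (mul_le_mul_of_nonneg_left key (by positivity))
              (by positivity)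
        _ = (((m + 1).descFactorial (k + 1) : ℕ) : ℝ)
              * (2 * Real.exp 1 * Δ / ((m + 1 : ℕ) : ℝ)) ^ k := by
            rw [hdesc]
            push_cast
            rw [div_pow, div_pow, mul_pow, mul_pow, mul_pow]
            ring
        _ = (((⊤ : SimpleGraph (Fin (m + 1))).copyCount F : ℝ)
              * (2 * Real.exp 1 * Δ / ((m + 1 : ℕ) : ℝ)) ^ k) * (Nat.card (F ≃g F) : ℝ) := by
            rw [hTl]
            ring
    exact le_of_mul_le_mul_right h5 hA
  · have h0 : n.descFactorial (Fintype.card W) = 0 := by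
      rw [hcard]
      exact Nat.descFactorial_of_lt hkn
    have h1 : H.labelledCopyCount F ≤ (⊤ : SimpleGraph (Fin n)).labelledCopyCount F :=
      labelled_le_top H F
    rw [labelled_top, h0] at h1
    have h2 : H.labelledCopyCount F = 0 := Nat.le_zero.mp h1
    rw [labelled_eq] at h2
    have h3 : H.copyCount F = 0 := by
      rcases Nat.mul_eq_zero.mp h2 with h | h
      · exact h
      · exact absurd h (aut_pos F).ne'
    rw [h3]
    simpa using hrhs

lemma exp_consts : 2 * Real.exp 1 ≤ 6 ∧ 2 * Real.exp 1 * Real.exp 2 ≤ 48 := by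
  have h1 : Real.exp 2 = Real.exp 1 * Real.exp 1 := by
    rw [← Real.exp_add]; norm_num
  have h2 := Real.exp_one_lt_d9
  have h3 := Real.exp_pos 1
  constructor
  · linarith
  · rw [h1]
    have h4 : Real.exp 1 * Real.exp 1 ≤ 2.7182818286 * 2.7182818286 :=
      mul_le_mul h2.le h2.le h3.le (by norm_num)
    nlinarith

/-- Connected graphs on `k + 1` vertices: `N(H,F) <= N(K_n,F) min(1, 6 max(8q, log n / n))^k`
under the expectation hypothesis at density `q`.  For trees `k = e(F)`. -/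
theorem connected_count_final {n : ℕ} (H : SimpleGraph (Fin n)) (q : ℝ) (hq : 0 ≤ q)
    (hyp : ∀ F' : SimpleGraph (Fin n), F' ≤ H →
      1 ≤ ((⊤ : SimpleGraph (Fin n)).copyCount F' : ℝ) * q ^ F'.edgeSet.ncard)
    (k : ℕ) (W : Type) [Fintype W] (F : SimpleGraph W) (hF : F.Connected)
    (hcard : Fintype.card W = k + 1) :
    (H.copyCount F : ℝ) ≤ ((⊤ : SimpleGraph (Fin n)).copyCount F : ℝ)
      * (min 1 (6 * max (8 * q) (Real.log n / n))) ^ k := by
  classical
  have hmono : (H.copyCount F : ℝ) ≤ ((⊤ : SimpleGraph (Fin n)).copyCount F : ℝ) := by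
    exact_mod_cast copyCount_mono (le_top : H ≤ ⊤) F
  rcases Nat.eq_zero_or_pos k with hk0 | hkpos
  · rw [hk0, pow_zero, mul_one]
    exact hmono
  rcases le_total 1 (6 * max (8 * q) (Real.log n / n)) with h | h
  · rw [min_eq_left h, one_pow, mul_one]
    exact hmono
  rw [min_eq_right h]
  set D0 := max (Real.exp 2 * n * q) (Real.log n) with hD0
  have hD0nn : 0 ≤ D0 := le_trans (by positivity) (le_max_left _ _)
  have hdeg : ∀ u : Fin n, (H.neighborSet u).ncard ≤ ⌊D0⌋₊ :=
    fun u => Nat.le_floor (degree_le H q hq hyp u)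
  have h1 := connected_count_degree H ⌊D0⌋₊ hdeg k W F hF hcard
  refine h1.trans ?_
  apply mul_le_mul_of_nonneg_left _ (Nat.cast_nonneg _)
  apply pow_le_pow_left₀ (by positivity)
  have hx0 : (0 : ℝ) ≤ 6 * max (8 * q) (Real.log n / n) :=
    mul_nonneg (by norm_num) (le_trans (by positivity) (le_max_left _ _))
  rcases Nat.eq_zero_or_pos n with hn0 | hnpos
  · rw [hn0]
    simp only [Nat.cast_zero, div_zero]
    simp
  · have hnR : (0 : ℝ) < n := by exact_mod_cast hnpos
    have hfl : (⌊D0⌋₊ : ℝ) ≤ D0 := Nat.floor_le hD0nn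
    have hlog : 0 ≤ Real.log n := Real.log_natCast_nonneg n
    obtain ⟨hc1, hc2⟩ := exp_consts
    rw [div_le_iff₀ hnR]
    have hxn : 6 * max (8 * q) (Real.log n / n) * n = 6 * max (8 * q * n) (Real.log n) := by
      rw [mul_assoc, max_mul_of_nonneg _ _ hnR.le, div_mul_cancel₀ _ hnR.ne']
    rw [hxn]
    have hE : (0 : ℝ) < 2 * Real.exp 1 := by positivity
    have hD0le : 2 * Real.exp 1 * D0 ≤ 6 * max (8 * q * n) (Real.log n) := by
      rcases max_cases (Real.exp 2 * n * q) (Real.log n) with ⟨hm, -⟩ | ⟨hm, -⟩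
      · rw [hD0, hm]
        have hnq : 0 ≤ (n : ℝ) * q := mul_nonneg hnR.le hq
        calc 2 * Real.exp 1 * (Real.exp 2 * n * q) = (2 * Real.exp 1 * Real.exp 2) * (n * q) := by
              ring
          _ ≤ 48 * (n * q) := mul_le_mul_of_nonneg_right hc2 hnq
          _ = 6 * (8 * q * n) := by ring
          _ ≤ 6 * max (8 * q * n) (Real.log n) :=
              mul_le_mul_of_nonneg_left (le_max_left _ _) (by norm_num)
      · rw [hD0, hm]
        calc 2 * Real.exp 1 * Real.log n ≤ 6 * Real.log n := mul_le_mul_of_nonneg_right hc1 hlog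
          _ ≤ 6 * max (8 * q * n) (Real.log n) :=
              mul_le_mul_of_nonneg_left (le_max_right _ _) (by norm_num)
    calc 2 * Real.exp 1 * (⌊D0⌋₊ : ℝ) ≤ 2 * Real.exp 1 * D0 :=
          mul_le_mul_of_nonneg_left hfl hE.le
      _ ≤ 6 * max (8 * q * n) (Real.log n) := hD0le

/-- **Trees.**  Under the expectation hypothesis at density `q`, every tree `T` (unbounded
degrees) satisfies `N(H,T) <= N(K_n,T) min(1, 6 max(8q, log n / n))^(e(T))`. -/
theorem tree_count {n : ℕ} (H : SimpleGraph (Fin n)) (q : ℝ) (hq : 0 ≤ q)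
    (hyp : ∀ F' : SimpleGraph (Fin n), F' ≤ H →
      1 ≤ ((⊤ : SimpleGraph (Fin n)).copyCount F' : ℝ) * q ^ F'.edgeSet.ncard)
    {W : Type} [Fintype W] (T : SimpleGraph W) (hT : T.IsTree) :
    (H.copyCount T : ℝ) ≤ ((⊤ : SimpleGraph (Fin n)).copyCount T : ℝ)
      * (min 1 (6 * max (8 * q) (Real.log n / n))) ^ T.edgeSet.ncard := by
  classical
  have hc := hT.card_edgeFinset
  have hk : Fintype.card W = T.edgeSet.ncard + 1 := by
    rw [← hc, ← Set.ncard_coe_finset, coe_edgeFinset]
  exact connected_count_final H q hq hyp _ W T hT.connected hk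

/-- **Acyclic hosts.**  If `H` is a forest, the bound of `tree_count` holds for every
connected graph `F` (a connected graph with a cycle has no copy in `H`). -/
theorem forest_host_connected {n : ℕ} (H : SimpleGraph (Fin n)) (hH : H.IsAcyclic) (q : ℝ)
    (hq : 0 ≤ q)
    (hyp : ∀ F' : SimpleGraph (Fin n), F' ≤ H →
      1 ≤ ((⊤ : SimpleGraph (Fin n)).copyCount F' : ℝ) * q ^ F'.edgeSet.ncard)
    {W : Type} [Fintype W] (F : SimpleGraph W) (hF : F.Connected) :
    (H.copyCount F : ℝ) ≤ ((⊤ : SimpleGraph (Fin n)).copyCount F : ℝ)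
      * (min 1 (6 * max (8 * q) (Real.log n / n))) ^ F.edgeSet.ncard := by
  by_cases hac : F.IsAcyclic
  · exact tree_count H q hq hyp F ⟨hF, hac⟩
  · have h0 : H.copyCount F = 0 := by
      rw [copyCount_eq_zero]
      rintro ⟨f⟩
      exact hac (hH.comap f.toHom f.injective)
    rw [h0]
    have hx0 : (0 : ℝ) ≤ min 1 (6 * max (8 * q) (Real.log n / n)) :=
      le_min zero_le_one
        (mul_nonneg (by norm_num) (le_trans (by positivity) (le_max_left _ _)))
    simp only [Nat.cast_zero]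
    positivity

end Vale.Agent.Helper25.KKTree
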