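import Mathlib
import Vale.Agent.Results.P064.StarForests
import Vale.Agent.Helper25.KKAllGraphs

/-!
P064, all-graphs extension (helper25): isolated vertices.  A copy of `F` is a copy of the
graph induced on a vertex set `S` together with an injection of the remaining vertices into
the complement of its image.  With `S` the set of non-isolated vertices this removes the
hypothesis that `F` has no isolated vertex.
-/

namespace Vale.Agent.Helper25.KKIsolated

open Finset SimpleGraph
open Vale.Agent.Results.P064.StarCounts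
open Vale.Agent.Results.P064.StarForests
open Vale.Agent.Helper25.KKAllGraphs

/-- Counting the copies of `F` through their restrictions to a vertex set `S`. -/
lemma card_copy_le_restrict {V W : Type*} [Fintype V] [Fintype W] (G : SimpleGraph V)
    (F : SimpleGraph W) (S : Set W) :
    Nat.card (Copy F G) ≤ Nat.card (Copy (F.induce S) G)
      * (Fintype.card V - Nat.card S).descFactorial (Fintype.card W - Nat.card S) := by
  classical
  have := finite_copy G F
  have := finite_copy G (F.induce S)
  have : Fintype (Copy F G) := Fintype.ofFinite _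
  have : Fintype (Copy (F.induce S) G) := Fintype.ofFinite _
  let r : Copy F G → Copy (F.induce S) G := fun f => f.comp (Copy.induce F S)
  have hr : ∀ (f : Copy F G) (s : S), r f s = f s.1 := fun f s => rfl
  have h1 : (Finset.univ : Finset (Copy F G)).card
      = ∑ f₀ ∈ (Finset.univ : Finset (Copy (F.induce S) G)),
          ((Finset.univ : Finset (Copy F G)).filter (fun f => r f = f₀)).card :=
    Finset.card_eq_sum_card_fiberwise (fun _ _ => Finset.mem_coe.mpr (Finset.mem_univ _))
  have h2 : ∀ f₀ ∈ (Finset.univ : Finset (Copy (F.induce S) G)),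
      ((Finset.univ : Finset (Copy F G)).filter (fun f => r f = f₀)).card
        ≤ (Fintype.card V - Nat.card S).descFactorial (Fintype.card W - Nat.card S) := by
    intro f₀ _
    rw [← Fintype.card_subtype]
    let ψ : {f : Copy F G // r f = f₀} → ({a : W // a ∉ S} ↪ {x : V // x ∉ Set.range f₀}) :=
      fun f =>
        ⟨fun a => ⟨f.1 a.1, by
            rintro ⟨s, hs⟩
            have h8 : r f.1 s = f₀ s := congrArg (fun k : Copy (F.induce S) G => k s) f.2
            have h3 : f.1 s.1 = f.1 a.1 := h8.trans hs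
            exact a.2 (f.1.injective h3 ▸ s.2)⟩,
          fun a b hab => Subtype.ext (f.1.injective (congrArg Subtype.val hab))⟩
    have hψ : Function.Injective ψ := by
      intro f g hfg
      apply Subtype.ext
      apply Copy.ext
      intro a
      by_cases ha : a ∈ S
      · have h3 : r f.1 ⟨a, ha⟩ = r g.1 ⟨a, ha⟩ := by rw [f.2, g.2]
        exact h3
      · have h3 := congrArg (fun e : {a : W // a ∉ S} ↪ {x : V // x ∉ Set.range f₀} =>
          (e ⟨a, ha⟩).1) hfg
        exact h3
    have h4 := Fintype.card_le_of_injective ψ hψ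
    rw [Fintype.card_embedding_eq] at h4
    have h5 : Fintype.card {a : W // a ∉ S} = Fintype.card W - Nat.card S := by
      rw [Fintype.card_subtype_compl, Nat.card_eq_fintype_card]
    have h6 : Fintype.card {x : V // x ∉ Set.range f₀} = Fintype.card V - Nat.card S := by
      rw [Fintype.card_subtype_compl, ← Nat.card_range_of_injective f₀.injective,
        Nat.card_eq_fintype_card]
      rfl
    rw [h5, h6] at h4
    exact h4
  rw [Nat.card_eq_fintype_card, Nat.card_eq_fintype_card, ← Finset.card_univ, h1]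
  refine (Finset.sum_le_card_nsmul _ _ _ h2).trans (le_of_eq ?_)
  rw [smul_eq_mul, Finset.card_univ]

/-- The set of non-isolated vertices. -/
def core {W : Type*} (F : SimpleGraph W) : Set W := {a | ∃ b, F.Adj a b}

lemma core_no_isolated {W : Type*} (F : SimpleGraph W) :
    ∀ a : core F, ∃ b : core F, (F.induce (core F)).Adj a b := by
  rintro ⟨a, b, hab⟩
  exact ⟨⟨b, a, hab.symm⟩, hab⟩

lemma ncard_edgeSet_core {W : Type*} (F : SimpleGraph W) :
    (F.induce (core F)).edgeSet.ncard = F.edgeSet.ncard := by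
  rw [← Nat.card_coe_set_eq, ← Nat.card_coe_set_eq]
  apply Nat.card_congr
  apply Equiv.ofBijective (Embedding.induce (core F)).toHom.mapEdgeSet
  constructor
  · rintro ⟨e, he⟩ ⟨e', he'⟩ h
    have h1 : Sym2.map (Subtype.val : core F → W) e = Sym2.map (Subtype.val : core F → W) e' :=
      congrArg Subtype.val h
    exact Subtype.ext (Sym2.map.injective Subtype.val_injective h1)
  · rintro ⟨z, hz⟩
    induction z using Sym2.ind with
    | _ a b =>
      rw [mem_edgeSet] at hz
      have hadj : (F.induce (core F)).Adj ⟨a, b, hz⟩ ⟨b, a, hz.symm⟩ := hz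
      refine ⟨⟨s(⟨a, b, hz⟩, ⟨b, a, hz.symm⟩), hadj⟩, ?_⟩
      apply Subtype.ext
      rfl

/-- General form for every graph `F`, isolated vertices allowed: a bound with constant `x`
for the graphs without isolated vertices (on every finite vertex type) passes to all graphs. -/
theorem any_of_no_isolated {n : ℕ} (H : SimpleGraph (Fin n)) (x : ℝ)
    {W : Type*} [Fintype W] (F : SimpleGraph W)
    (hcore : (H.copyCount (F.induce (core F)) : ℝ)
      ≤ ((⊤ : SimpleGraph (Fin n)).copyCount (F.induce (core F)) : ℝ)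
        * x ^ (F.induce (core F)).edgeSet.ncard) :
    (H.copyCount F : ℝ) ≤ ((⊤ : SimpleGraph (Fin n)).copyCount F : ℝ) * x ^ F.edgeSet.ncard := by
  classical
  have : Fintype (core F) := Fintype.ofFinite _
  set F₀ := F.induce (core F) with hF₀
  have hA : (0 : ℝ) < (Nat.card (F ≃g F) : ℝ) := by exact_mod_cast aut_pos F
  have hA₀ : (0 : ℝ) ≤ (Nat.card (F₀ ≃g F₀) : ℝ) := Nat.cast_nonneg _
  have hs : Nat.card (core F) ≤ Fintype.card W := by
    rw [← Nat.card_eq_fintype_card]
    exact Nat.card_le_card_of_injective _ Subtype.val_injective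
  set D := (n - Nat.card (core F)).descFactorial (Fintype.card W - Nat.card (core F)) with hD
  have h1 : H.labelledCopyCount F ≤ H.labelledCopyCount F₀ * D := by
    have h := card_copy_le_restrict H F (core F)
    rw [Fintype.card_fin] at h
    rw [lcc_eq, lcc_eq]
    exact h
  have h2 : (H.labelledCopyCount F : ℝ) = (H.copyCount F : ℝ) * (Nat.card (F ≃g F) : ℝ) := by
    exact_mod_cast labelled_eq H F
  have h3 : (H.labelledCopyCount F₀ : ℝ)
      = (H.copyCount F₀ : ℝ) * (Nat.card (F₀ ≃g F₀) : ℝ) := by
    exact_mod_cast labelled_eq H F₀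
  have h4 : (n.descFactorial (Nat.card (core F)) : ℝ)
      = ((⊤ : SimpleGraph (Fin n)).copyCount F₀ : ℝ) * (Nat.card (F₀ ≃g F₀) : ℝ) := by
    have h := labelled_eq (⊤ : SimpleGraph (Fin n)) F₀
    rw [labelled_top, ← Nat.card_eq_fintype_card] at h
    exact_mod_cast h
  have h5 : (n.descFactorial (Fintype.card W) : ℝ)
      = ((⊤ : SimpleGraph (Fin n)).copyCount F : ℝ) * (Nat.card (F ≃g F) : ℝ) := by
    have h := labelled_eq (⊤ : SimpleGraph (Fin n)) F
    rw [labelled_top] at h
    exact_mod_cast h
  have h6 : (D : ℝ) * (n.descFactorial (Nat.card (core F)) : ℝ)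
      = (n.descFactorial (Fintype.card W) : ℝ) := by
    exact_mod_cast Nat.descFactorial_mul_descFactorial (n := n) hs
  have h7 : (H.copyCount F : ℝ) * (Nat.card (F ≃g F) : ℝ)
      ≤ (((⊤ : SimpleGraph (Fin n)).copyCount F : ℝ) * x ^ F.edgeSet.ncard)
        * (Nat.card (F ≃g F) : ℝ) := by
    rw [← h2]
    calc (H.labelledCopyCount F : ℝ)
        ≤ (H.labelledCopyCount F₀ : ℝ) * (D : ℝ) := by exact_mod_cast h1
      _ = ((H.copyCount F₀ : ℝ) * (Nat.card (F₀ ≃g F₀) : ℝ)) * (D : ℝ) := by rw [h3]
      _ ≤ ((((⊤ : SimpleGraph (Fin n)).copyCount F₀ : ℝ) * x ^ F₀.edgeSet.ncard)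
            * (Nat.card (F₀ ≃g F₀) : ℝ)) * (D : ℝ) :=
          mul_le_mul_of_nonneg_right (mul_le_mul_of_nonneg_right hcore hA₀) (Nat.cast_nonneg _)
      _ = ((D : ℝ) * (n.descFactorial (Nat.card (core F)) : ℝ)) * x ^ F₀.edgeSet.ncard := by
          rw [h4]
          ring
      _ = (((⊤ : SimpleGraph (Fin n)).copyCount F : ℝ) * x ^ F.edgeSet.ncard)
            * (Nat.card (F ≃g F) : ℝ) := by
          rw [h6, h5, hF₀, ncard_edgeSet_core]
          ring
  exact le_of_mul_le_mul_right h7 hA

/-- The all-graphs step for P064 with isolated vertices allowed: from the bound for connected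
graphs with constant `24 * exp (8 n q) * q` to every graph with
`min 1 (178 * exp (8 n q) * q)`. -/
theorem all_graphs_any {n : ℕ} (H : SimpleGraph (Fin n)) (q : ℝ) (hq : 0 ≤ q)
    (hcc : ∀ (v : ℕ) (F : SimpleGraph (Fin v)), F.Connected → 1 ≤ F.edgeSet.ncard →
      (H.copyCount F : ℝ) ≤ ((⊤ : SimpleGraph (Fin n)).copyCount F : ℝ)
        * (24 * Real.exp (8 * n * q) * q) ^ F.edgeSet.ncard)
    {W : Type*} [Fintype W] (F : SimpleGraph W) :
    (H.copyCount F : ℝ) ≤ ((⊤ : SimpleGraph (Fin n)).copyCount F : ℝ)
      * (min 1 (178 * Real.exp (8 * n * q) * q)) ^ F.edgeSet.ncard := by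
  classical
  have : Fintype (core F) := Fintype.ofFinite _
  exact any_of_no_isolated H _ F
    (all_graphs H q hq hcc (F.induce (core F)) (core_no_isolated F))

/-- General constants, isolated vertices allowed: a bound `N(H,F) <= N(K_n,F) * c ^ e(F)` for
all connected `F` with an edge gives `N(H,F) <= N(K_n,F) * min(1, e^2 * c) ^ e(F)` for every
graph `F`. -/
theorem all_graphs_any_general {n : ℕ} (H : SimpleGraph (Fin n)) (c : ℝ) (hc0 : 0 ≤ c)
    (hcc : ∀ (v : ℕ) (F : SimpleGraph (Fin v)), F.Connected → 1 ≤ F.edgeSet.ncard →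
      (H.copyCount F : ℝ) ≤ ((⊤ : SimpleGraph (Fin n)).copyCount F : ℝ) * c ^ F.edgeSet.ncard)
    {W : Type*} [Fintype W] (F : SimpleGraph W) :
    (H.copyCount F : ℝ) ≤ ((⊤ : SimpleGraph (Fin n)).copyCount F : ℝ)
      * (min 1 (Real.exp 2 * c)) ^ F.edgeSet.ncard := by
  classical
  have : Fintype (core F) := Fintype.ofFinite _
  rcases le_total 1 (Real.exp 2 * c) with h | h
  · rw [min_eq_left h, one_pow, mul_one]
    exact_mod_cast copyCount_mono (le_top : H ≤ ⊤) F
  · rw [min_eq_right h]
    exact any_of_no_isolated H _ F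
      (all_graphs_general H c hc0 hcc (F.induce (core F)) (core_no_isolated F))

/-- `min(1, e^2 * min(1, y)) = min(1, e^2 * y)`. -/
lemma min_one_exp_two_mul_min (y : ℝ) :
    min 1 (Real.exp 2 * min 1 y) = min 1 (Real.exp 2 * y) := by
  have h1 : (1 : ℝ) ≤ Real.exp 2 := by
    have := Real.add_one_le_exp (2 : ℝ)
    linarith
  rcases le_total 1 y with h | h
  · rw [min_eq_left h, mul_one, min_eq_left h1, min_eq_left]
    nlinarith
  · rw [min_eq_right h]

end Vale.Agent.Helper25.KKIsolated
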