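import Mathlib
import Vale.Agent.Results.P064.StarForests
import Vale.Agent.Helper25.KKComponents
import Vale.Agent.Helper25.KKIsolated
import Vale.Agent.Helper25.KKTree
import Vale.Agent.Helper3.KKAll
import Vale.Agent.Helper18.KKArith

/-!
P064 (helper25): from trees to forests.  A copy-count bound for all trees gives the same kind
of bound, with constant multiplied by `e^2`, for every forest (isolated vertices allowed).
-/

namespace Vale.Agent.Helper25.KKForest

open Finset SimpleGraph
open Vale.Agent.Results.P064.StarCounts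
open Vale.Agent.Results.P064.StarForests
open Vale.Agent.Helper25.KKComponents
open Vale.Agent.Helper25.KKAllGraphs
open Vale.Agent.Helper25.KKIsolated

/-- Component-wise form of the product bound. -/
theorem labelled_of_components {n : ℕ} (H : SimpleGraph (Fin n)) (c : ℝ)
    {W : Type*} [Fintype W] (F : SimpleGraph W)
    (hcomp : ∀ C : F.ConnectedComponent, (Nat.card (Copy (F.induce C.supp) H) : ℝ)
      ≤ (n : ℝ) ^ (Nat.card C.supp) * c ^ (F.induce C.supp).edgeSet.ncard) :
    (H.labelledCopyCount F : ℝ) ≤ (n : ℝ) ^ (Fintype.card W) * c ^ F.edgeSet.ncard := by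
  classical
  have h2 : (Nat.card (Copy F H) : ℝ)
      ≤ ∏ C : F.ConnectedComponent, (Nat.card (Copy (F.induce C.supp) H) : ℝ) := by
    exact_mod_cast card_copy_le_prod H F
  have h3 : ∏ C : F.ConnectedComponent, (Nat.card (Copy (F.induce C.supp) H) : ℝ)
      ≤ ∏ C : F.ConnectedComponent,
          ((n : ℝ) ^ (Nat.card C.supp) * c ^ (F.induce C.supp).edgeSet.ncard) :=
    Finset.prod_le_prod (fun C _ => Nat.cast_nonneg _) (fun C _ => hcomp C)
  rw [lcc_eq]
  refine h2.trans (h3.trans (le_of_eq ?_))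
  rw [Finset.prod_mul_distrib, Finset.prod_pow_eq_pow_sum, Finset.prod_pow_eq_pow_sum,
    sum_card_supp, sum_ncard_edgeSet, Nat.card_eq_fintype_card]

/-- From a bound on labelled copies by `n ^ v * c ^ e` to a bound on copies, for graphs
without isolated vertices. -/
theorem of_labelled_bound {n : ℕ} (H : SimpleGraph (Fin n)) (c : ℝ) (hc0 : 0 ≤ c)
    {W : Type*} [Fintype W] (F : SimpleGraph W) (hno : ∀ a, ∃ b, F.Adj a b)
    (h1 : (H.labelledCopyCount F : ℝ) ≤ (n : ℝ) ^ (Fintype.card W) * c ^ F.edgeSet.ncard) :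
    (H.copyCount F : ℝ)
      ≤ ((⊤ : SimpleGraph (Fin n)).copyCount F : ℝ) * (Real.exp 2 * c) ^ F.edgeSet.ncard := by
  classical
  have hA : (0 : ℝ) < (Nat.card (F ≃g F) : ℝ) := by exact_mod_cast aut_pos F
  have hH : (H.labelledCopyCount F : ℝ) = (H.copyCount F : ℝ) * (Nat.card (F ≃g F) : ℝ) := by
    exact_mod_cast labelled_eq H F
  have hT : (n.descFactorial (Fintype.card W) : ℝ)
      = ((⊤ : SimpleGraph (Fin n)).copyCount F : ℝ) * (Nat.card (F ≃g F) : ℝ) := by
    have h := labelled_eq (⊤ : SimpleGraph (Fin n)) F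
    rw [labelled_top] at h
    exact_mod_cast h
  have hrhs : (0 : ℝ) ≤ ((⊤ : SimpleGraph (Fin n)).copyCount F : ℝ)
      * (Real.exp 2 * c) ^ F.edgeSet.ncard :=
    mul_nonneg (Nat.cast_nonneg _) (pow_nonneg (mul_nonneg (Real.exp_pos 2).le hc0) _)
  rcases le_or_gt (Fintype.card W) n with hvn | hvn
  · have h2 := Vale.Agent.Helper18.KKArith.pow_le_exp_descFactorial n (Fintype.card W) hvn
    have h3 := Vale.Agent.Helper3.KKAll.card_le_two_mul_ncard_edgeSet F hno
    have h4 : Real.exp (Fintype.card W : ℝ) ≤ Real.exp 2 ^ F.edgeSet.ncard := by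
      rw [← Real.exp_nat_mul]
      apply Real.exp_le_exp.mpr
      have : (Fintype.card W : ℝ) ≤ ((2 * F.edgeSet.ncard : ℕ) : ℝ) := by exact_mod_cast h3
      push_cast at this
      linarith
    have hce : (0 : ℝ) ≤ c ^ F.edgeSet.ncard := pow_nonneg hc0 _
    have hd : (0 : ℝ) ≤ (n.descFactorial (Fintype.card W) : ℝ) := Nat.cast_nonneg _
    have h5 : (H.copyCount F : ℝ) * (Nat.card (F ≃g F) : ℝ)
        ≤ (((⊤ : SimpleGraph (Fin n)).copyCount F : ℝ) * (Real.exp 2 * c) ^ F.edgeSet.ncard)
          * (Nat.card (F ≃g F) : ℝ) := by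
      rw [← hH]
      calc (H.labelledCopyCount F : ℝ)
          ≤ (n : ℝ) ^ (Fintype.card W) * c ^ F.edgeSet.ncard := h1
        _ ≤ (Real.exp (Fintype.card W : ℝ) * (n.descFactorial (Fintype.card W) : ℝ))
              * c ^ F.edgeSet.ncard := mul_le_mul_of_nonneg_right h2 hce
        _ ≤ (Real.exp 2 ^ F.edgeSet.ncard * (n.descFactorial (Fintype.card W) : ℝ))
              * c ^ F.edgeSet.ncard :=
            mul_le_mul_of_nonneg_right (mul_le_mul_of_nonneg_right h4 hd) hce
        _ = (((⊤ : SimpleGraph (Fin n)).copyCount F : ℝ) * (Real.exp 2 * c) ^ F.edgeSet.ncard)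
              * (Nat.card (F ≃g F) : ℝ) := by
            rw [hT, mul_pow]
            ring
    exact le_of_mul_le_mul_right h5 hA
  · have h0 : n.descFactorial (Fintype.card W) = 0 := Nat.descFactorial_of_lt hvn
    have h1' : H.labelledCopyCount F ≤ (⊤ : SimpleGraph (Fin n)).labelledCopyCount F :=
      labelled_le_top H F
    rw [labelled_top, h0] at h1'
    have h2 : H.labelledCopyCount F = 0 := Nat.le_zero.mp h1'
    rw [labelled_eq] at h2
    have h3 : H.copyCount F = 0 := by
      rcases Nat.mul_eq_zero.mp h2 with h | h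
      · exact h
      · exact absurd h (aut_pos F).ne'
    rw [h3]
    simpa using hrhs

/-- A bound `N(H,T) <= N(K_n,T) c^(e(T))` for all trees gives
`N(H,F) <= N(K_n,F) (e^2 c)^(e(F))` for all forests without isolated vertices. -/
theorem forest_no_isolated {n : ℕ} (H : SimpleGraph (Fin n)) (c : ℝ) (hc0 : 0 ≤ c)
    (htree : ∀ (W : Type) [Fintype W] (T : SimpleGraph W), T.IsTree →
      (H.copyCount T : ℝ) ≤ ((⊤ : SimpleGraph (Fin n)).copyCount T : ℝ) * c ^ T.edgeSet.ncard)
    {W : Type} [Fintype W] (F : SimpleGraph W) (hF : F.IsAcyclic) (hno : ∀ a, ∃ b, F.Adj a b) :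
    (H.copyCount F : ℝ)
      ≤ ((⊤ : SimpleGraph (Fin n)).copyCount F : ℝ) * (Real.exp 2 * c) ^ F.edgeSet.ncard := by
  classical
  apply of_labelled_bound H c hc0 F hno
  apply labelled_of_components
  intro C
  have hfin : Fintype ↥C.supp := Fintype.ofFinite _
  have hT : (F.induce C.supp).IsTree := ⟨connected_induce_supp F C, hF.induce C.supp⟩
  have h1 := htree ↥C.supp (F.induce C.supp) hT
  have hA : (0 : ℝ) ≤ (Nat.card ((F.induce C.supp) ≃g (F.induce C.supp)) : ℝ) :=
    Nat.cast_nonneg _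
  have h2 : (Nat.card (Copy (F.induce C.supp) H) : ℝ)
      = (H.copyCount (F.induce C.supp) : ℝ)
        * (Nat.card ((F.induce C.supp) ≃g (F.induce C.supp)) : ℝ) := by
    rw [← lcc_eq]
    exact_mod_cast labelled_eq H (F.induce C.supp)
  have h3 : (n.descFactorial (Nat.card C.supp) : ℝ)
      = ((⊤ : SimpleGraph (Fin n)).copyCount (F.induce C.supp) : ℝ)
        * (Nat.card ((F.induce C.supp) ≃g (F.induce C.supp)) : ℝ) := by
    have h := labelled_eq (⊤ : SimpleGraph (Fin n)) (F.induce C.supp)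
    rw [labelled_top, ← Nat.card_eq_fintype_card] at h
    exact_mod_cast h
  have h4 : (n.descFactorial (Nat.card C.supp) : ℝ) ≤ (n : ℝ) ^ (Nat.card C.supp) := by
    exact_mod_cast Nat.descFactorial_le_pow n (Nat.card C.supp)
  have hce : (0 : ℝ) ≤ c ^ (F.induce C.supp).edgeSet.ncard := pow_nonneg hc0 _
  calc (Nat.card (Copy (F.induce C.supp) H) : ℝ)
      = (H.copyCount (F.induce C.supp) : ℝ)
        * (Nat.card ((F.induce C.supp) ≃g (F.induce C.supp)) : ℝ) := h2
    _ ≤ (((⊤ : SimpleGraph (Fin n)).copyCount (F.induce C.supp) : ℝ)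
          * c ^ (F.induce C.supp).edgeSet.ncard)
        * (Nat.card ((F.induce C.supp) ≃g (F.induce C.supp)) : ℝ) :=
        mul_le_mul_of_nonneg_right h1 hA
    _ = (n.descFactorial (Nat.card C.supp) : ℝ) * c ^ (F.induce C.supp).edgeSet.ncard := by
        rw [h3]
        ring
    _ ≤ (n : ℝ) ^ (Nat.card C.supp) * c ^ (F.induce C.supp).edgeSet.ncard :=
        mul_le_mul_of_nonneg_right h4 hce

/-- From trees to all forests, isolated vertices allowed, in the form with `min`. -/
theorem forests_general {n : ℕ} (H : SimpleGraph (Fin n)) (c : ℝ) (hc0 : 0 ≤ c)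
    (htree : ∀ (W : Type) [Fintype W] (T : SimpleGraph W), T.IsTree →
      (H.copyCount T : ℝ) ≤ ((⊤ : SimpleGraph (Fin n)).copyCount T : ℝ) * c ^ T.edgeSet.ncard)
    {W : Type} [Fintype W] (F : SimpleGraph W) (hF : F.IsAcyclic) :
    (H.copyCount F : ℝ) ≤ ((⊤ : SimpleGraph (Fin n)).copyCount F : ℝ)
      * (min 1 (Real.exp 2 * c)) ^ F.edgeSet.ncard := by
  classical
  have : Fintype (core F) := Fintype.ofFinite _
  rcases le_total 1 (Real.exp 2 * c) with h | h
  · rw [min_eq_left h, one_pow, mul_one]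
    exact_mod_cast copyCount_mono (le_top : H ≤ ⊤) F
  · rw [min_eq_right h]
    exact any_of_no_isolated H _ F
      (forest_no_isolated H c hc0 htree (F.induce (core F)) (hF.induce (core F))
        (core_no_isolated F))

/-- **Forests.**  Under the expectation hypothesis at density `q`, every forest `F` (any
degrees, isolated vertices allowed) satisfies
`N(H,F) <= N(K_n,F) min(1, 45 max(8q, log n / n))^(e(F))`. -/
theorem forest_count {n : ℕ} (H : SimpleGraph (Fin n)) (q : ℝ) (hq : 0 ≤ q)
    (hyp : ∀ F' : SimpleGraph (Fin n), F' ≤ H →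
      1 ≤ ((⊤ : SimpleGraph (Fin n)).copyCount F' : ℝ) * q ^ F'.edgeSet.ncard)
    {W : Type} [Fintype W] (F : SimpleGraph W) (hF : F.IsAcyclic) :
    (H.copyCount F : ℝ) ≤ ((⊤ : SimpleGraph (Fin n)).copyCount F : ℝ)
      * (min 1 (45 * max (8 * q) (Real.log n / n))) ^ F.edgeSet.ncard := by
  set M := max (8 * q) (Real.log n / n) with hM
  have hM0 : 0 ≤ M := le_trans (by positivity) (le_max_left _ _)
  have hc0 : (0 : ℝ) ≤ min 1 (6 * M) := le_min zero_le_one (by positivity)
  have h1 := forests_general H (min 1 (6 * M)) hc0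
    (fun W _ T hT => Vale.Agent.Helper25.KKTree.tree_count H q hq hyp T hT) F hF
  rw [min_one_exp_two_mul_min] at h1
  refine h1.trans ?_
  apply mul_le_mul_of_nonneg_left _ (Nat.cast_nonneg _)
  apply pow_le_pow_left₀ (le_min zero_le_one (by positivity))
  apply min_le_min le_rfl
  have he : Real.exp 2 * 6 ≤ 45 := by
    have h1 : Real.exp 2 = Real.exp 1 * Real.exp 1 := by
      rw [← Real.exp_add]; norm_num
    have h2 := Real.exp_one_lt_d9
    have h3 := Real.exp_pos 1
    rw [h1]
    nlinarith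
  calc Real.exp 2 * (6 * M) = (Real.exp 2 * 6) * M := by ring
    _ ≤ 45 * M := mul_le_mul_of_nonneg_right he hM0

end Vale.Agent.Helper25.KKForest
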