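import Mathlib

/-!
P064 (helper25, for the version with a polynomial constant): averaging over colourings with
`k` colours.  A vertex set `τ` is good for a colouring when `τ` lies in colour class `0` and
`Nb τ` avoids it; each `τ` is good for at least a fraction `k^(-|τ|) (1 - 1/k)^(|Nb τ|)` of
the colourings.
-/

namespace Vale.Agent.Helper25.KKColour

open Finset

theorem averaging_k {n : ℕ} (k : ℕ) (hk : 2 ≤ k) (VV : Finset (Finset (Fin n)))
    (Nb : Finset (Fin n) → Finset (Fin n)) (v s : ℕ) (B : ℝ)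
    (hdisj : ∀ τ ∈ VV, Disjoint τ (Nb τ))
    (hv : ∀ τ ∈ VV, τ.card ≤ v) (hs : ∀ τ ∈ VV, (Nb τ).card ≤ s)
    (hB : ∀ (R : Finset (Fin n)) (DD : Finset (Finset (Fin n))), DD ⊆ VV →
      (∀ τ ∈ DD, τ ⊆ R ∧ Disjoint (Nb τ) R) → (DD.card : ℝ) ≤ B) :
    (VV.card : ℝ) ≤ (k : ℝ) ^ v * ((k : ℝ) / (k - 1)) ^ s * B := by
  classical
  have hk0 : 0 < k := by omega
  have hK : (2 : ℝ) ≤ (k : ℝ) := by exact_mod_cast hk
  have hKpos : (0 : ℝ) < (k : ℝ) := by linarith
  have hK1pos : (0 : ℝ) < (k : ℝ) - 1 := by linarith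
  let z0 : Fin k := ⟨0, hk0⟩
  let Rc : (Fin n → Fin k) → Finset (Fin n) := fun c => univ.filter (fun x => c x = z0)
  let A : Finset (Fin n) → Fin n → Finset (Fin k) :=
    fun τ x => if x ∈ τ then {z0} else if x ∈ Nb τ then univ.erase z0 else univ
  -- the colourings in `piFinset (A τ)` are good for `τ`
  have hsub : ∀ τ ∈ VV, Fintype.piFinset (A τ)
      ⊆ univ.filter (fun c : Fin n → Fin k => τ ⊆ Rc c ∧ Disjoint (Nb τ) (Rc c)) := by
    intro τ hτ c hc
    rw [Fintype.mem_piFinset] at hc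
    rw [Finset.mem_filter]
    refine ⟨Finset.mem_univ _, ?_, ?_⟩
    · intro x hx
      have h := hc x
      simp only [A, if_pos hx, Finset.mem_singleton] at h
      simp only [Rc, Finset.mem_filter, Finset.mem_univ, true_and]
      exact h
    · rw [Finset.disjoint_left]
      intro x hx hxR
      have hxτ : x ∉ τ := fun hxτ => Finset.disjoint_left.mp (hdisj τ hτ) hxτ hx
      have h := hc x
      simp only [A, if_neg hxτ, if_pos hx, Finset.mem_erase] at h
      simp only [Rc, Finset.mem_filter, Finset.mem_univ, true_and] at hxR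
      exact h.1 hxR
  -- the number of these colourings
  have hcard : ∀ τ ∈ VV, ((Fintype.piFinset (A τ)).card : ℝ)
      = (k : ℝ) ^ n * (1 / (k : ℝ)) ^ τ.card * (((k : ℝ) - 1) / k) ^ (Nb τ).card := by
    intro τ hτ
    rw [Fintype.card_piFinset]
    push_cast
    have hpt : ∀ x : Fin n, (((A τ x).card : ℕ) : ℝ)
        = (k : ℝ) * (if x ∈ τ then 1 / (k : ℝ) else 1)
          * (if x ∈ Nb τ then ((k : ℝ) - 1) / k else 1) := by
      intro x
      by_cases hx : x ∈ τ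
      · have hxN : x ∉ Nb τ := fun h => Finset.disjoint_left.mp (hdisj τ hτ) hx h
        simp only [A, if_pos hx, if_neg hxN, Finset.card_singleton]
        field_simp
        norm_num
      · by_cases hxN : x ∈ Nb τ
        · simp only [A, if_neg hx, if_pos hxN]
          rw [Finset.card_erase_of_mem (Finset.mem_univ _), Finset.card_univ, Fintype.card_fin,
            Nat.cast_sub (by omega : 1 ≤ k)]
          field_simp
          norm_num
        · simp only [A, if_neg hx, if_neg hxN, Finset.card_univ, Fintype.card_fin]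
          ring
    rw [Finset.prod_congr rfl (fun x _ => hpt x), Finset.prod_mul_distrib,
      Finset.prod_mul_distrib, Finset.prod_const, Finset.card_univ, Fintype.card_fin,
      Finset.prod_ite_mem, Finset.prod_ite_mem, Finset.univ_inter, Finset.univ_inter,
      Finset.prod_const, Finset.prod_const]
  -- lower bound for each `τ`
  set ρ : ℝ := (1 / (k : ℝ)) ^ v * (((k : ℝ) - 1) / k) ^ s with hρ
  have hρpos : 0 < ρ := by positivity
  have hlow : ∀ τ ∈ VV, (k : ℝ) ^ n * ρ ≤ ((Fintype.piFinset (A τ)).card : ℝ) := by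
    intro τ hτ
    rw [hcard τ hτ, hρ, mul_assoc]
    apply mul_le_mul_of_nonneg_left _ (by positivity)
    have h1 : (1 / (k : ℝ)) ^ v ≤ (1 / (k : ℝ)) ^ τ.card := by
      apply pow_le_pow_of_le_one (by positivity) _ (hv τ hτ)
      rw [div_le_one hKpos]
      linarith
    have h2 : (((k : ℝ) - 1) / k) ^ s ≤ (((k : ℝ) - 1) / k) ^ (Nb τ).card := by
      apply pow_le_pow_of_le_one (by positivity) _ (hs τ hτ)
      rw [div_le_one hKpos]
      linarith
    exact mul_le_mul h1 h2 (by positivity) (by positivity)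
  -- double counting
  have hdc : ∑ c : Fin n → Fin k,
        (VV.filter (fun τ => τ ⊆ Rc c ∧ Disjoint (Nb τ) (Rc c))).card
      = ∑ τ ∈ VV,
        (univ.filter (fun c : Fin n → Fin k => τ ⊆ Rc c ∧ Disjoint (Nb τ) (Rc c))).card := by
    simp only [Finset.card_filter]
    exact Finset.sum_comm
  have hup : ∀ c : Fin n → Fin k,
      (((VV.filter (fun τ => τ ⊆ Rc c ∧ Disjoint (Nb τ) (Rc c))).card : ℕ) : ℝ) ≤ B := by
    intro c
    apply hB (Rc c) _ (Finset.filter_subset _ _)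
    intro τ hτ
    exact (Finset.mem_filter.mp hτ).2
  have h1 : (VV.card : ℝ) * ((k : ℝ) ^ n * ρ)
      ≤ ∑ τ ∈ VV, ((univ.filter
          (fun c : Fin n → Fin k => τ ⊆ Rc c ∧ Disjoint (Nb τ) (Rc c))).card : ℝ) := by
    rw [← nsmul_eq_mul]
    apply Finset.card_nsmul_le_sum
    intro τ hτ
    refine (hlow τ hτ).trans ?_
    exact_mod_cast Finset.card_le_card (hsub τ hτ)
  have h2 : ∑ τ ∈ VV, ((univ.filter
        (fun c : Fin n → Fin k => τ ⊆ Rc c ∧ Disjoint (Nb τ) (Rc c))).card : ℝ)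
      ≤ (k : ℝ) ^ n * B := by
    have h3 : ∑ τ ∈ VV, ((univ.filter
        (fun c : Fin n → Fin k => τ ⊆ Rc c ∧ Disjoint (Nb τ) (Rc c))).card : ℝ)
        = ∑ c : Fin n → Fin k,
          (((VV.filter (fun τ => τ ⊆ Rc c ∧ Disjoint (Nb τ) (Rc c))).card : ℕ) : ℝ) := by
      exact_mod_cast hdc.symm
    rw [h3]
    refine (Finset.sum_le_card_nsmul _ _ B (fun c _ => hup c)).trans (le_of_eq ?_)
    rw [Finset.card_univ, Fintype.card_pi, Finset.prod_const, Finset.card_univ,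
      Fintype.card_fin, Fintype.card_fin, nsmul_eq_mul]
    push_cast
    ring
  have h4 : (VV.card : ℝ) * ρ ≤ B := by
    have h5 : (k : ℝ) ^ n * ((VV.card : ℝ) * ρ) ≤ (k : ℝ) ^ n * B := by
      calc (k : ℝ) ^ n * ((VV.card : ℝ) * ρ) = (VV.card : ℝ) * ((k : ℝ) ^ n * ρ) := by ring
        _ ≤ (k : ℝ) ^ n * B := h1.trans h2
    exact le_of_mul_le_mul_left h5 (by positivity)
  have h6 : (k : ℝ) ^ v * ((k : ℝ) / (k - 1)) ^ s * ρ = 1 := by
    rw [hρ]
    have e1 : (k : ℝ) ^ v * (1 / (k : ℝ)) ^ v = 1 := by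
      rw [← mul_pow]
      have : (k : ℝ) * (1 / (k : ℝ)) = 1 := by field_simp
      rw [this, one_pow]
    have e2 : ((k : ℝ) / (k - 1)) ^ s * (((k : ℝ) - 1) / k) ^ s = 1 := by
      rw [← mul_pow]
      have : (k : ℝ) / (k - 1) * (((k : ℝ) - 1) / k) = 1 := by field_simp
      rw [this, one_pow]
    calc (k : ℝ) ^ v * ((k : ℝ) / (k - 1)) ^ s * ((1 / (k : ℝ)) ^ v * (((k : ℝ) - 1) / k) ^ s)
        = ((k : ℝ) ^ v * (1 / (k : ℝ)) ^ v) * (((k : ℝ) / (k - 1)) ^ s * (((k : ℝ) - 1) / k) ^ s) := by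
          ring
      _ = 1 := by rw [e1, e2, one_mul]
  have hc0 : (0 : ℝ) ≤ (k : ℝ) ^ v * ((k : ℝ) / (k - 1)) ^ s := by positivity
  calc (VV.card : ℝ) = (k : ℝ) ^ v * ((k : ℝ) / (k - 1)) ^ s * ((VV.card : ℝ) * ρ) := by
        rw [← mul_assoc, mul_comm ((k : ℝ) ^ v * ((k : ℝ) / (k - 1)) ^ s) (VV.card : ℝ),
          mul_assoc, h6, mul_one]
    _ ≤ (k : ℝ) ^ v * ((k : ℝ) / (k - 1)) ^ s * B := mul_le_mul_of_nonneg_left h4 hc0

/-- The shape requested by helper8: `K + 1` colours, `|τ| = v`, `|Nb τ| <= K v`. -/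
theorem averagingK {n : ℕ} (VV : Finset (Finset (Fin n)))
    (Nb : Finset (Fin n) → Finset (Fin n)) (K v : ℕ) (hK : 1 ≤ K) (B : ℝ)
    (hdisj : ∀ τ ∈ VV, Disjoint τ (Nb τ)) (hcard : ∀ τ ∈ VV, τ.card = v)
    (hnb : ∀ τ ∈ VV, (Nb τ).card ≤ K * v)
    (hB : ∀ (R : Finset (Fin n)) (DD : Finset (Finset (Fin n))), DD ⊆ VV →
      (∀ τ ∈ DD, τ ⊆ R ∧ Disjoint (Nb τ) R) → (DD.card : ℝ) ≤ B) :
    (VV.card : ℝ) ≤ (3 * ((K : ℝ) + 1)) ^ v * B := by
  have hB0 : 0 ≤ B := by
    have h := hB ∅ ∅ (Finset.empty_subset _) (fun τ hτ => absurd hτ (Finset.notMem_empty τ))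
    simpa using h
  have h1 := averaging_k (K + 1) (by omega) VV Nb v (K * v) B hdisj
    (fun τ hτ => (hcard τ hτ).le) hnb hB
  have hKpos : (0 : ℝ) < (K : ℝ) := by exact_mod_cast hK
  have h2 : (((K + 1 : ℕ) : ℝ) / (((K + 1 : ℕ) : ℝ) - 1)) ^ (K * v) ≤ 3 ^ v := by
    rw [pow_mul]
    have h3 : ((K + 1 : ℕ) : ℝ) / (((K + 1 : ℕ) : ℝ) - 1) = 1 / (K : ℝ) + 1 := by
      have e1 : (((K + 1 : ℕ) : ℝ) - 1) = (K : ℝ) := by
        push_cast
        ring
      rw [e1]
      push_cast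
      field_simp
      ring
    rw [h3]
    apply pow_le_pow_left₀ (by positivity)
    have h4 : (1 / (K : ℝ) + 1) ^ K ≤ Real.exp (1 / (K : ℝ)) ^ K :=
      pow_le_pow_left₀ (by positivity) (Real.add_one_le_exp _) K
    have h5 : Real.exp (1 / (K : ℝ)) ^ K = Real.exp 1 := by
      rw [← Real.exp_nat_mul]
      congr 1
      field_simp
    rw [h5] at h4
    exact h4.trans Real.exp_one_lt_three.le
  refine h1.trans ?_
  apply mul_le_mul_of_nonneg_right _ hB0
  calc ((K + 1 : ℕ) : ℝ) ^ v * (((K + 1 : ℕ) : ℝ) / (((K + 1 : ℕ) : ℝ) - 1)) ^ (K * v)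
      ≤ ((K + 1 : ℕ) : ℝ) ^ v * 3 ^ v := mul_le_mul_of_nonneg_left h2 (by positivity)
    _ = (3 * ((K : ℝ) + 1)) ^ v := by
        push_cast
        rw [mul_pow]
        ring

end Vale.Agent.Helper25.KKColour
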