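import Mathlib
import Vale.Agent.Helper25.KKForest
import Vale.Agent.Helper8.KK.Half

/-!
P064 (helper25): the counting inequalities in the form used by the expectation thresholds.
The hypothesis `N(K_n,F') p^(e(F')) >= 1/2` for all `F' <= H` (the condition defining `p_E`)
gives the hypothesis with `1` at density `2 p`.
-/

namespace Vale.Agent.Helper25.KKThreshold

open SimpleGraph

/-- From expected counts at least `1/2` at density `p` to expected counts at least `1` at
density `2 p`. -/
theorem half_to_one {n : ℕ} (H : SimpleGraph (Fin n)) (p : ℝ) (hp : 0 ≤ p)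
    (h : ∀ F' : SimpleGraph (Fin n), F' ≤ H →
      1 / 2 ≤ ((⊤ : SimpleGraph (Fin n)).copyCount F' : ℝ) * p ^ F'.edgeSet.ncard) :
    ∀ F' : SimpleGraph (Fin n), F' ≤ H →
      1 ≤ ((⊤ : SimpleGraph (Fin n)).copyCount F' : ℝ) * (2 * p) ^ F'.edgeSet.ncard := by
  intro F' hF'
  have h1 := h F' hF'
  rcases Nat.eq_zero_or_pos F'.edgeSet.ncard with he | he
  · rw [he, pow_zero, mul_one] at h1 ⊢
    have h2 : (0 : ℝ) < ((⊤ : SimpleGraph (Fin n)).copyCount F' : ℝ) := by linarith
    have h3 : 0 < (⊤ : SimpleGraph (Fin n)).copyCount F' := by exact_mod_cast h2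
    exact_mod_cast h3
  · have h2 : (2 : ℝ) ≤ 2 ^ F'.edgeSet.ncard := by
      calc (2 : ℝ) = 2 ^ 1 := by norm_num
        _ ≤ 2 ^ F'.edgeSet.ncard := pow_le_pow_right₀ (by norm_num) he
    have h3 : (0 : ℝ) ≤ ((⊤ : SimpleGraph (Fin n)).copyCount F' : ℝ) * p ^ F'.edgeSet.ncard :=
      mul_nonneg (Nat.cast_nonneg _) (pow_nonneg hp _)
    rw [mul_pow]
    calc (1 : ℝ) = 2 * (1 / 2) := by norm_num
      _ ≤ 2 ^ F'.edgeSet.ncard
            * (((⊤ : SimpleGraph (Fin n)).copyCount F' : ℝ) * p ^ F'.edgeSet.ncard) :=
          mul_le_mul h2 h1 (by norm_num) (by positivity)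
      _ = ((⊤ : SimpleGraph (Fin n)).copyCount F' : ℝ)
            * (2 ^ F'.edgeSet.ncard * p ^ F'.edgeSet.ncard) := by ring

/-- Forest hosts: if all subgraphs of the forest `H` have expected count at least `1/2` at
density `p`, then every `F' <= H` satisfies
`N(H,F') <= N(K_n,F') min(1, 720 max(p, log n / n))^(e(F'))`. -/
theorem forest_threshold {n : ℕ} (H : SimpleGraph (Fin n)) (hH : H.IsAcyclic) (p : ℝ)
    (hp : 0 ≤ p)
    (h : ∀ F' : SimpleGraph (Fin n), F' ≤ H →
      1 / 2 ≤ ((⊤ : SimpleGraph (Fin n)).copyCount F' : ℝ) * p ^ F'.edgeSet.ncard)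
    (F : SimpleGraph (Fin n)) (hF : F ≤ H) :
    (H.copyCount F : ℝ) ≤ ((⊤ : SimpleGraph (Fin n)).copyCount F : ℝ)
      * (min 1 (720 * max p (Real.log n / n))) ^ F.edgeSet.ncard := by
  have hyp := half_to_one H p hp h
  have h1 := Vale.Agent.Helper25.KKForest.forest_count H (2 * p) (by positivity) hyp F
    (hH.anti hF)
  refine h1.trans ?_
  apply mul_le_mul_of_nonneg_left _ (Nat.cast_nonneg _)
  have hM0 : 0 ≤ max (8 * (2 * p)) (Real.log n / n) := le_trans (by positivity) (le_max_left _ _)
  apply pow_le_pow_left₀ (le_min zero_le_one (by positivity))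
  apply min_le_min le_rfl
  have hL0 : 0 ≤ max p (Real.log n / n) := le_trans hp (le_max_left _ _)
  have h2 : max (8 * (2 * p)) (Real.log n / n) ≤ 16 * max p (Real.log n / n) := by
    apply max_le
    · have := le_max_left p (Real.log n / n)
      linarith
    · have := le_max_right p (Real.log n / n)
      linarith
  calc 45 * max (8 * (2 * p)) (Real.log n / n) ≤ 45 * (16 * max p (Real.log n / n)) :=
        mul_le_mul_of_nonneg_left h2 (by norm_num)
    _ = 720 * max p (Real.log n / n) := by ring

/-- Forest hosts, every pattern: if all subgraphs of the forest `H` have expected count at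
least `1/2` at density `p`, then every graph `F` (on any `Fin v`) satisfies
`N(H,F) <= N(K_n,F) min(1, 720 max(p, log n / n))^(e(F))`. -/
theorem forest_threshold_any {n : ℕ} (H : SimpleGraph (Fin n)) (hH : H.IsAcyclic) (p : ℝ)
    (hp : 0 ≤ p)
    (h : ∀ F' : SimpleGraph (Fin n), F' ≤ H →
      1 / 2 ≤ ((⊤ : SimpleGraph (Fin n)).copyCount F' : ℝ) * p ^ F'.edgeSet.ncard)
    {v : ℕ} (F : SimpleGraph (Fin v)) :
    (H.copyCount F : ℝ) ≤ ((⊤ : SimpleGraph (Fin n)).copyCount F : ℝ)
      * (min 1 (720 * max p (Real.log n / n))) ^ F.edgeSet.ncard := by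
  have hL0 : 0 ≤ max p (Real.log n / n) := le_trans hp (le_max_left _ _)
  by_cases hac : F.IsAcyclic
  · have hyp := half_to_one H p hp h
    have h1 := Vale.Agent.Helper25.KKForest.forest_count H (2 * p) (by positivity) hyp F hac
    refine h1.trans ?_
    apply mul_le_mul_of_nonneg_left _ (Nat.cast_nonneg _)
    have hM0 : 0 ≤ max (8 * (2 * p)) (Real.log n / n) :=
      le_trans (by positivity) (le_max_left _ _)
    apply pow_le_pow_left₀ (le_min zero_le_one (by positivity))
    apply min_le_min le_rfl
    have h2 : max (8 * (2 * p)) (Real.log n / n) ≤ 16 * max p (Real.log n / n) := by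
      apply max_le
      · have := le_max_left p (Real.log n / n)
        linarith
      · have := le_max_right p (Real.log n / n)
        linarith
    calc 45 * max (8 * (2 * p)) (Real.log n / n) ≤ 45 * (16 * max p (Real.log n / n)) :=
          mul_le_mul_of_nonneg_left h2 (by norm_num)
      _ = 720 * max p (Real.log n / n) := by ring
  · have h0 : H.copyCount F = 0 := by
      rw [copyCount_eq_zero]
      rintro ⟨f⟩
      exact hac (hH.comap f.toHom f.injective)
    rw [h0]
    have hx0 : (0 : ℝ) ≤ min 1 (720 * max p (Real.log n / n)) :=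
      le_min zero_le_one (mul_nonneg (by norm_num) hL0)
    simp only [Nat.cast_zero]
    positivity

/-- Forest hosts, the uniform form: if all subgraphs of the forest `H` have expected count at
least `1/2` at density `p`, then every graph `F` satisfies
`N(H,F) <= N(K_n,F) min(1, 170000 sqrt(log n) p)^(e(F))`.  For `n p <= sqrt(log n)` this is
the bound linear in `n p` (helper8), and otherwise it is `forest_threshold_any`. -/
theorem forest_sqrt {n : ℕ} (H : SimpleGraph (Fin n)) (hH : H.IsAcyclic) (p : ℝ)
    (hp : 0 ≤ p)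
    (h : ∀ F' : SimpleGraph (Fin n), F' ≤ H →
      1 / 2 ≤ ((⊤ : SimpleGraph (Fin n)).copyCount F' : ℝ) * p ^ F'.edgeSet.ncard)
    {v : ℕ} (F : SimpleGraph (Fin v)) :
    (H.copyCount F : ℝ) ≤ ((⊤ : SimpleGraph (Fin n)).copyCount F : ℝ)
      * (min 1 (170000 * Real.sqrt (Real.log n) * p)) ^ F.edgeSet.ncard := by
  have hs0 : 0 ≤ Real.sqrt (Real.log n) := Real.sqrt_nonneg _
  have hx0 : (0 : ℝ) ≤ min 1 (170000 * Real.sqrt (Real.log n) * p) :=
    le_min zero_le_one (by positivity)
  rcases Nat.lt_or_ge n 2 with hn | hn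
  · -- fewer than two vertices: no graph with an edge has a copy
    rcases Nat.eq_zero_or_pos F.edgeSet.ncard with he | he
    · have hA := Vale.Agent.Helper8.KK.all_graphs_half H p hp h F
      rw [he, pow_zero] at hA ⊢
      exact hA
    · have h0 : H.copyCount F = 0 := by
        rw [copyCount_eq_zero]
        rintro ⟨f⟩
        have hne : F.edgeSet.Nonempty := by
          by_contra hE
          rw [Set.not_nonempty_iff_eq_empty] at hE
          rw [hE, Set.ncard_empty] at he
          exact absurd he (lt_irrefl 0)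
        obtain ⟨e, he'⟩ := hne
        induction e using Sym2.ind with
        | h a b =>
          rw [mem_edgeSet] at he'
          have hab : H.Adj (f a) (f b) := f.toHom.map_adj he'
          have hsub : ∀ x y : Fin n, x = y := by
            intro x y
            apply Fin.ext
            have hx := x.isLt
            have hy := y.isLt
            omega
          exact hab.ne (hsub _ _)
      rw [h0]
      simp only [Nat.cast_zero]
      positivity
  · have hn2 : (2 : ℝ) ≤ (n : ℝ) := by exact_mod_cast hn
    have hn0 : (0 : ℝ) < (n : ℝ) := by linarith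
    have hlog : Real.log 2 ≤ Real.log n := Real.log_le_log (by norm_num) hn2
    have hl2 : (0.6931471803 : ℝ) < Real.log 2 := Real.log_two_gt_d9
    have hlogpos : 0 ≤ Real.log n := by linarith
    have hs2 : Real.sqrt (Real.log n) ^ 2 = Real.log n := Real.sq_sqrt hlogpos
    set s := Real.sqrt (Real.log n) with hs
    have hs83 : (0.83 : ℝ) ≤ s := by
      by_contra hlt
      rw [not_le] at hlt
      have h1 : s ^ 2 < 0.83 ^ 2 := by nlinarith
      have h2 : (0.83 : ℝ) ^ 2 < 0.6931471803 := by norm_num
      linarith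
    rcases le_or_gt ((n : ℝ) * p) s with hcase | hcase
    · have hA := Vale.Agent.Helper8.KK.all_graphs_half H p hp h F
      refine hA.trans ?_
      apply mul_le_mul_of_nonneg_left _ (Nat.cast_nonneg _)
      have hnp : (0 : ℝ) ≤ (n : ℝ) * p := by positivity
      apply pow_le_pow_left₀ (le_min zero_le_one (by positivity))
      apply min_le_min le_rfl
      have h1 : 76896 * (1 + (n : ℝ) * p) ≤ 170000 * s := by linarith
      exact mul_le_mul_of_nonneg_right h1 hp
    · have hB := forest_threshold_any H hH p hp h F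
      refine hB.trans ?_
      apply mul_le_mul_of_nonneg_left _ (Nat.cast_nonneg _)
      have hL0 : 0 ≤ max p (Real.log n / n) := le_trans hp (le_max_left _ _)
      apply pow_le_pow_left₀ (le_min zero_le_one (by positivity))
      apply min_le_min le_rfl
      have hsp : 0 ≤ s * p := mul_nonneg hs0 hp
      have h1 : p ≤ 2 * (s * p) := by nlinarith
      have h2 : Real.log n / n ≤ 2 * (s * p) := by
        rw [div_le_iff₀ hn0, ← hs2]
        nlinarith
      have h3 : max p (Real.log n / n) ≤ 2 * (s * p) := max_le h1 h2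
      calc 720 * max p (Real.log n / n) ≤ 720 * (2 * (s * p)) :=
            mul_le_mul_of_nonneg_left h3 (by norm_num)
        _ ≤ 170000 * s * p := by nlinarith

end Vale.Agent.Helper25.KKThreshold
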