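import Mathlib
import Vale.Agent.Helper8.KK.Half
import Vale.Agent.Helper25.KKThreshold

/-!
Comparison of the two expectation thresholds of a graph `H` on `[n]`:
the least `p` in `[0,1]` with `N(K_n,F) p^(e(F)) >= 1/2` for all `F <= H`, and the least
`p` in `[0,1]` with `N(K_n,F) p^(e(F)) >= N(H,F)/2` for all `F <= H`.
-/

namespace Vale.Agent.Helper25.KKDirect

open SimpleGraph

/-- A graph below `H` has at least one copy in `H`. -/
theorem one_le_copyCount {n : ℕ} (H F : SimpleGraph (Fin n)) (hF : F ≤ H) :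
    (1 : ℝ) ≤ (H.copyCount F : ℝ) := by
  have h : 0 < H.copyCount F := copyCount_pos.mpr (IsContained.of_le hF)
  exact_mod_cast h

/-- A density at which the counting inequality holds lies in the second set. -/
theorem mem_second {n : ℕ} (H : SimpleGraph (Fin n)) (x : ℝ) (hx0 : 0 ≤ x)
    (hx : ∀ F : SimpleGraph (Fin n),
      (H.copyCount F : ℝ) ≤ ((⊤ : SimpleGraph (Fin n)).copyCount F : ℝ)
        * (min 1 x) ^ F.edgeSet.ncard) :
    min 1 x ∈ {p : ℝ | 0 ≤ p ∧ p ≤ 1 ∧ ∀ F : SimpleGraph (Fin n), F ≤ H →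
      (H.copyCount F : ℝ) / 2 ≤
        ((⊤ : SimpleGraph (Fin n)).copyCount F : ℝ) * p ^ F.edgeSet.ncard} := by
  refine ⟨le_min zero_le_one hx0, min_le_left _ _, ?_⟩
  intro F _
  have h0 : (0 : ℝ) ≤ (H.copyCount F : ℝ) := Nat.cast_nonneg _
  have h1 := hx F
  linarith

theorem compare {n : ℕ} (H : SimpleGraph (Fin n)) (pE pEt : ℝ)
    (hE : IsLeast {p : ℝ | 0 ≤ p ∧ p ≤ 1 ∧ ∀ F : SimpleGraph (Fin n), F ≤ H →
      1 / 2 ≤ ((⊤ : SimpleGraph (Fin n)).copyCount F : ℝ) * p ^ F.edgeSet.ncard} pE)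
    (hT : IsLeast {p : ℝ | 0 ≤ p ∧ p ≤ 1 ∧ ∀ F : SimpleGraph (Fin n), F ≤ H →
      (H.copyCount F : ℝ) / 2 ≤
        ((⊤ : SimpleGraph (Fin n)).copyCount F : ℝ) * p ^ F.edgeSet.ncard} pEt) :
    pE ≤ pEt ∧ pEt ≤ 76896 * (1 + (n : ℝ) * pE) * pE ∧
      (H.IsAcyclic → pEt ≤ 720 * max pE (Real.log n / n)) ∧
      (H.IsAcyclic → pEt ≤ 170000 * Real.sqrt (Real.log n) * pE) := by
  obtain ⟨⟨hE0, hE1, hEhyp⟩, hEleast⟩ := hE
  obtain ⟨⟨hT0, hT1, hThyp⟩, hTleast⟩ := hT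
  have hnE : (0 : ℝ) ≤ (n : ℝ) * pE := mul_nonneg (Nat.cast_nonneg _) hE0
  refine ⟨?_, ?_, ?_, ?_⟩
  · apply hEleast
    refine ⟨hT0, hT1, ?_⟩
    intro F hF
    have h1 := one_le_copyCount H F hF
    have h2 := hThyp F hF
    linarith
  · have hx0 : (0 : ℝ) ≤ 76896 * (1 + (n : ℝ) * pE) * pE := by positivity
    have hmem := mem_second H (76896 * (1 + (n : ℝ) * pE) * pE) hx0
      (fun F => Vale.Agent.Helper8.KK.all_graphs_half H pE hE0 hEhyp F)
    exact (hTleast hmem).trans (min_le_right _ _)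
  · intro hH
    have hx0 : (0 : ℝ) ≤ 720 * max pE (Real.log n / n) :=
      mul_nonneg (by norm_num) (le_trans hE0 (le_max_left _ _))
    have hmem := mem_second H (720 * max pE (Real.log n / n)) hx0
      (fun F => Vale.Agent.Helper25.KKThreshold.forest_threshold_any H hH pE hE0 hEhyp F)
    exact (hTleast hmem).trans (min_le_right _ _)
  · intro hH
    have hx0 : (0 : ℝ) ≤ 170000 * Real.sqrt (Real.log n) * pE :=
      mul_nonneg (mul_nonneg (by norm_num) (Real.sqrt_nonneg _)) hE0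
    have hmem := mem_second H (170000 * Real.sqrt (Real.log n) * pE) hx0
      (fun F => Vale.Agent.Helper25.KKThreshold.forest_sqrt H hH pE hE0 hEhyp F)
    exact (hTleast hmem).trans (min_le_right _ _)

/-- A closed condition of the form `c F <= N(K_n,F) p^(e(F))` for all `F <= H`, which holds at
`p = 1`, has a least solution in `[0,1]`. -/
theorem exists_least {n : ℕ} (H : SimpleGraph (Fin n)) (c : SimpleGraph (Fin n) → ℝ)
    (hc : ∀ F : SimpleGraph (Fin n), F ≤ H →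
      c F ≤ ((⊤ : SimpleGraph (Fin n)).copyCount F : ℝ)) :
    ∃ p0 : ℝ, IsLeast {p : ℝ | 0 ≤ p ∧ p ≤ 1 ∧ ∀ F : SimpleGraph (Fin n), F ≤ H →
      c F ≤ ((⊤ : SimpleGraph (Fin n)).copyCount F : ℝ) * p ^ F.edgeSet.ncard} p0 := by
  have hset : {p : ℝ | 0 ≤ p ∧ p ≤ 1 ∧ ∀ F : SimpleGraph (Fin n), F ≤ H →
      c F ≤ ((⊤ : SimpleGraph (Fin n)).copyCount F : ℝ) * p ^ F.edgeSet.ncard}
      = Set.Icc (0 : ℝ) 1 ∩ ⋂ F : SimpleGraph (Fin n), {p : ℝ | F ≤ H →
        c F ≤ ((⊤ : SimpleGraph (Fin n)).copyCount F : ℝ) * p ^ F.edgeSet.ncard} := by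
    ext p
    simp only [Set.mem_ofPred_eq, Set.mem_inter_iff, Set.mem_Icc, Set.mem_iInter]
    tauto
  rw [hset]
  have hclosed : IsClosed (Set.Icc (0 : ℝ) 1 ∩ ⋂ F : SimpleGraph (Fin n), {p : ℝ | F ≤ H →
        c F ≤ ((⊤ : SimpleGraph (Fin n)).copyCount F : ℝ) * p ^ F.edgeSet.ncard}) := by
    apply isClosed_Icc.inter
    apply isClosed_iInter
    intro F
    by_cases hF : F ≤ H
    · have e : {p : ℝ | F ≤ H →
          c F ≤ ((⊤ : SimpleGraph (Fin n)).copyCount F : ℝ) * p ^ F.edgeSet.ncard}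
          = {p : ℝ | c F ≤ ((⊤ : SimpleGraph (Fin n)).copyCount F : ℝ) * p ^ F.edgeSet.ncard} := by
        ext p
        simp only [Set.mem_ofPred_eq]
        exact ⟨fun h => h hF, fun h _ => h⟩
      rw [e]
      exact isClosed_le continuous_const (continuous_const.mul (continuous_pow _))
    · have e : {p : ℝ | F ≤ H →
          c F ≤ ((⊤ : SimpleGraph (Fin n)).copyCount F : ℝ) * p ^ F.edgeSet.ncard}
          = Set.univ := by
        ext p
        simp only [Set.mem_ofPred_eq, Set.mem_univ, iff_true]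
        exact fun h => absurd h hF
      rw [e]
      exact isClosed_univ
  have hcomp : IsCompact (Set.Icc (0 : ℝ) 1 ∩ ⋂ F : SimpleGraph (Fin n), {p : ℝ | F ≤ H →
        c F ≤ ((⊤ : SimpleGraph (Fin n)).copyCount F : ℝ) * p ^ F.edgeSet.ncard}) :=
    isCompact_Icc.of_isClosed_subset hclosed Set.inter_subset_left
  have hne : (Set.Icc (0 : ℝ) 1 ∩ ⋂ F : SimpleGraph (Fin n), {p : ℝ | F ≤ H →
        c F ≤ ((⊤ : SimpleGraph (Fin n)).copyCount F : ℝ) * p ^ F.edgeSet.ncard}).Nonempty := by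
    refine ⟨1, ⟨zero_le_one, le_refl _⟩, ?_⟩
    simp only [Set.mem_iInter, Set.mem_ofPred_eq]
    intro F hF
    rw [one_pow, mul_one]
    exact hc F hF
  exact hcomp.exists_isLeast hne

theorem exists_pE {n : ℕ} (H : SimpleGraph (Fin n)) :
    ∃ pE : ℝ, IsLeast {p : ℝ | 0 ≤ p ∧ p ≤ 1 ∧ ∀ F : SimpleGraph (Fin n), F ≤ H →
      1 / 2 ≤ ((⊤ : SimpleGraph (Fin n)).copyCount F : ℝ) * p ^ F.edgeSet.ncard} pE := by
  apply exists_least H (fun _ => (1 / 2 : ℝ))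
  intro F _
  have h := one_le_copyCount (⊤ : SimpleGraph (Fin n)) F le_top
  linarith

theorem exists_pEt {n : ℕ} (H : SimpleGraph (Fin n)) :
    ∃ pEt : ℝ, IsLeast {p : ℝ | 0 ≤ p ∧ p ≤ 1 ∧ ∀ F : SimpleGraph (Fin n), F ≤ H →
      (H.copyCount F : ℝ) / 2 ≤
        ((⊤ : SimpleGraph (Fin n)).copyCount F : ℝ) * p ^ F.edgeSet.ncard} pEt := by
  apply exists_least H (fun F => (H.copyCount F : ℝ) / 2)
  intro F _
  have h : (H.copyCount F : ℝ) ≤ ((⊤ : SimpleGraph (Fin n)).copyCount F : ℝ) := by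
    exact_mod_cast Vale.Agent.Helper8.KK.copyCount_mono' (le_top : H ≤ ⊤) F
  have h0 : (0 : ℝ) ≤ (H.copyCount F : ℝ) := Nat.cast_nonneg _
  linarith

end Vale.Agent.Helper25.KKDirect
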