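import Mathlib
import Vale.Agent.Results.P064.StarForests
import Vale.Agent.Helper25.KKAllGraphs
import Vale.Agent.Helper8.KK.PairFacts

/-!
P064 (helper25, for the version with a polynomial constant): under the hypothesis that every
subgraph of `H` has expected count at least one at density `q`, with `q ^ 2 * n <= 1` and
`q < 1`, every vertex set `τ` spans at most `2 |τ|` edges of `H`; hence at most `4 ^ |τ|`
copies of a graph have vertex set `τ`.
-/

namespace Vale.Agent.Helper25.KKInner

open Finset SimpleGraph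
open Vale.Agent.Results.P064.StarForests
open Vale.Agent.Helper25.KKAllGraphs
open Vale.Agent.Helper8.KK

/-- The graph on all vertices whose edges are the edges of `H` inside `τ`. -/
def inner {n : ℕ} (H : SimpleGraph (Fin n)) (τ : Finset (Fin n)) : SimpleGraph (Fin n) where
  Adj a b := H.Adj a b ∧ a ∈ τ ∧ b ∈ τ
  symm := ⟨fun _ _ h => ⟨h.1.symm, h.2.2, h.2.1⟩⟩
  loopless := ⟨fun a h => H.loopless.irrefl a h.1⟩

lemma inner_le {n : ℕ} (H : SimpleGraph (Fin n)) (τ : Finset (Fin n)) : inner H τ ≤ H :=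
  fun _ _ h => h.1

/-- A graph on `Fin n` all of whose edges lie inside `τ` has at least `(n - |τ|)!`
automorphisms. -/
lemma factorial_le_card_aut {n : ℕ} (F : SimpleGraph (Fin n)) (τ : Finset (Fin n))
    (hF : ∀ a b, F.Adj a b → a ∈ τ ∧ b ∈ τ) :
    (n - τ.card).factorial ≤ Nat.card (F ≃g F) := by
  classical
  have hfin := finite_aut F
  let Φ : Equiv.Perm {x : Fin n // x ∉ τ} → (F ≃g F) := fun σ =>
    { toEquiv := Equiv.Perm.ofSubtype σ
      map_rel_iff' := by
        intro a b
        show F.Adj (Equiv.Perm.ofSubtype σ a) (Equiv.Perm.ofSubtype σ b) ↔ F.Adj a b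
        constructor
        · intro h
          have h1 := hF _ _ h
          have ha : a ∈ τ := by
            by_contra hna
            exact (Equiv.Perm.ofSubtype_apply_mem_iff_mem σ a).mpr hna h1.1
          have hb : b ∈ τ := by
            by_contra hnb
            exact (Equiv.Perm.ofSubtype_apply_mem_iff_mem σ b).mpr hnb h1.2
          rw [Equiv.Perm.ofSubtype_apply_of_not_mem σ (not_not.mpr ha),
            Equiv.Perm.ofSubtype_apply_of_not_mem σ (not_not.mpr hb)] at h
          exact h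
        · intro h
          have h1 := hF _ _ h
          rw [Equiv.Perm.ofSubtype_apply_of_not_mem σ (not_not.mpr h1.1),
            Equiv.Perm.ofSubtype_apply_of_not_mem σ (not_not.mpr h1.2)]
          exact h }
  have hΦ : Function.Injective Φ := by
    intro σ σ' h
    apply Equiv.Perm.ofSubtype_injective
    exact congrArg RelIso.toEquiv h
  have h1 := Nat.card_le_card_of_injective Φ hΦ
  rw [Nat.card_eq_fintype_card, Fintype.card_perm, Fintype.card_subtype_compl,
    Fintype.card_fin] at h1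
  have h2 : Fintype.card {x : Fin n // x ∈ τ} = τ.card := by
    rw [Fintype.card_subtype]
    simp
  rw [h2] at h1
  exact h1

/-- A graph on `Fin n` all of whose edges lie inside `τ` has at most `n ^ |τ|` copies in the
complete graph. -/
lemma copyCount_top_le_pow {n : ℕ} (F : SimpleGraph (Fin n)) (τ : Finset (Fin n))
    (hF : ∀ a b, F.Adj a b → a ∈ τ ∧ b ∈ τ) :
    (⊤ : SimpleGraph (Fin n)).copyCount F ≤ n ^ τ.card := by
  classical
  have hv : τ.card ≤ n := by
    have := Finset.card_le_univ τ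
    rwa [Fintype.card_fin] at this
  have h1 := labelled_eq (⊤ : SimpleGraph (Fin n)) F
  rw [labelled_top, Fintype.card_fin, Nat.descFactorial_self] at h1
  have h2 := factorial_le_card_aut F τ hF
  have h3 := Nat.factorial_mul_descFactorial hv
  have h4 : (⊤ : SimpleGraph (Fin n)).copyCount F * (n - τ.card).factorial
      ≤ n.descFactorial τ.card * (n - τ.card).factorial := by
    calc (⊤ : SimpleGraph (Fin n)).copyCount F * (n - τ.card).factorial
        ≤ (⊤ : SimpleGraph (Fin n)).copyCount F * Nat.card (F ≃g F) :=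
          Nat.mul_le_mul_left _ h2
      _ = n.factorial := h1.symm
      _ = n.descFactorial τ.card * (n - τ.card).factorial := by rw [← h3, mul_comm]
  exact (Nat.le_of_mul_le_mul_right h4 (Nat.factorial_pos _)).trans
    (Nat.descFactorial_le_pow n τ.card)

/-- Under the expectation hypothesis with `q ^ 2 * n <= 1` and `q < 1`, every vertex set `τ`
spans at most `2 |τ|` edges of `H`. -/
theorem inner_edges_le {n : ℕ} (H : SimpleGraph (Fin n)) (q : ℝ) (hq0 : 0 ≤ q) (hq1 : q < 1)
    (hqn : q ^ 2 * n ≤ 1)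
    (hyp : ∀ F' : SimpleGraph (Fin n), F' ≤ H →
      1 ≤ ((⊤ : SimpleGraph (Fin n)).copyCount F' : ℝ) * q ^ F'.edgeSet.ncard)
    (τ : Finset (Fin n)) : (inner H τ).edgeSet.ncard ≤ 2 * τ.card := by
  by_contra hcon
  have hlt : 2 * τ.card + 1 ≤ (inner H τ).edgeSet.ncard := by omega
  have h1 := hyp (inner H τ) (inner_le H τ)
  have h2 : (((⊤ : SimpleGraph (Fin n)).copyCount (inner H τ) : ℕ) : ℝ) ≤ (n : ℝ) ^ τ.card := by
    exact_mod_cast copyCount_top_le_pow (inner H τ) τ (fun a b h => h.2)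
  have h3 : q ^ (inner H τ).edgeSet.ncard ≤ q ^ (2 * τ.card + 1) :=
    pow_le_pow_of_le_one hq0 hq1.le hlt
  have h4 : (n : ℝ) ^ τ.card * q ^ (2 * τ.card + 1) ≤ q := by
    have h5 : (n : ℝ) ^ τ.card * q ^ (2 * τ.card + 1) = (q ^ 2 * n) ^ τ.card * q := by
      rw [mul_pow, ← pow_mul, pow_succ]
      ring
    rw [h5]
    have h6 : (q ^ 2 * n) ^ τ.card ≤ 1 := pow_le_one₀ (by positivity) hqn
    calc (q ^ 2 * n) ^ τ.card * q ≤ 1 * q := mul_le_mul_of_nonneg_right h6 hq0
      _ = q := one_mul q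
  have h7 : ((⊤ : SimpleGraph (Fin n)).copyCount (inner H τ) : ℝ)
      * q ^ (inner H τ).edgeSet.ncard ≤ (n : ℝ) ^ τ.card * q ^ (2 * τ.card + 1) :=
    mul_le_mul h2 h3 (pow_nonneg hq0 _) (by positivity)
  linarith

/-- The pairs (vertex set, edge set) of copies with a given vertex set `τ` number at most
`2 ^ e(H[τ])`. -/
theorem card_fiber_le_inner {n v : ℕ} (H : SimpleGraph (Fin n)) (F : SimpleGraph (Fin v))
    (τ : Finset (Fin n)) (P : Finset (Finset (Fin n) × Finset (Sym2 (Fin n))))
    (hP : ∀ x ∈ P, x ∈ pairs H F ∧ x.1 = τ) : P.card ≤ 2 ^ (inner H τ).edgeSet.ncard := by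
  classical
  have hcard : (inner H τ).edgeSet.ncard = (inner H τ).edgeFinset.card := by
    rw [← Set.ncard_coe_finset, coe_edgeFinset]
  rw [hcard, ← Finset.card_powerset]
  apply Finset.card_le_card_of_injOn (fun x => x.2)
  · intro x hx
    have h := hP x (Finset.mem_coe.mp hx)
    rw [Finset.mem_coe, Finset.mem_powerset]
    obtain ⟨f, -, hhom, hpr⟩ := mem_pairs.mp h.1
    intro z hz
    have hz' : z ∈ (pr F f).2 := by rw [hpr]; exact hz
    rw [prSnd, Finset.mem_image] at hz'
    have hz := hz'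
    obtain ⟨w, hw, rfl⟩ := hz
    rw [mem_edgeFinset] at hw
    have hτ : ∀ a : Fin v, f a ∈ τ := by
      intro a
      rw [← h.2, ← hpr, prFst]
      exact Finset.mem_image_of_mem f (Finset.mem_univ a)
    induction w using Sym2.ind with
    | _ a b =>
      rw [mem_edgeSet] at hw
      rw [mem_edgeFinset, Sym2.map_mk, mem_edgeSet]
      exact ⟨hhom a b hw, hτ a, hτ b⟩
  · intro x hx y hy hxy
    have h1 := (hP x (Finset.mem_coe.mp hx)).2
    have h2 := (hP y (Finset.mem_coe.mp hy)).2
    exact Prod.ext (h1.trans h2.symm) hxy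

/-- Under the expectation hypothesis with `q ^ 2 * n <= 1` and `q < 1`, at most `4 ^ |τ|`
pairs (vertex set, edge set) of copies of `F` in `H` have vertex set `τ`. -/
theorem card_fiber_le_four_pow {n v : ℕ} (H : SimpleGraph (Fin n)) (q : ℝ) (hq0 : 0 ≤ q)
    (hq1 : q < 1) (hqn : q ^ 2 * n ≤ 1)
    (hyp : ∀ F' : SimpleGraph (Fin n), F' ≤ H →
      1 ≤ ((⊤ : SimpleGraph (Fin n)).copyCount F' : ℝ) * q ^ F'.edgeSet.ncard)
    (F : SimpleGraph (Fin v)) (τ : Finset (Fin n))
    (P : Finset (Finset (Fin n) × Finset (Sym2 (Fin n))))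
    (hP : ∀ x ∈ P, x ∈ pairs H F ∧ x.1 = τ) : P.card ≤ 4 ^ τ.card := by
  have h1 := card_fiber_le_inner H F τ P hP
  have h2 := inner_edges_le H q hq0 hq1 hqn hyp τ
  calc P.card ≤ 2 ^ (inner H τ).edgeSet.ncard := h1
    _ ≤ 2 ^ (2 * τ.card) := Nat.pow_le_pow_right (by norm_num) h2
    _ = 4 ^ τ.card := by rw [pow_mul]; norm_num

end Vale.Agent.Helper25.KKInner

namespace Vale.Agent.Helper8.KK

open Finset SimpleGraph

/-- In the range `n q^2 <= 1`, `q < 1`, at most `4 ^ v` copies of `F` (on `v` vertices) in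
`H` have a given vertex set `τ` (the shape requested by helper8). -/
theorem fiber_le_four_pow {n v : ℕ} (H : SimpleGraph (Fin n)) (F : SimpleGraph (Fin v)) (q : ℝ)
    (hq : 0 ≤ q) (hq1 : q < 1) (hnq : (n : ℝ) * q ^ 2 ≤ 1)
    (hyp : ∀ F' : SimpleGraph (Fin n), F' ≤ H →
      1 ≤ ((⊤ : SimpleGraph (Fin n)).copyCount F' : ℝ) * q ^ F'.edgeSet.ncard)
    (τ : Finset (Fin n)) (P : Finset (Finset (Fin n) × Finset (Sym2 (Fin n))))
    (hP : ∀ x ∈ P, x ∈ pairs H F ∧ x.1 = τ) : P.card ≤ 4 ^ v := by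
  rcases P.eq_empty_or_nonempty with h0 | ⟨x, hx⟩
  · rw [h0, Finset.card_empty]
    exact Nat.zero_le _
  · have hv : τ.card = v := by
      rw [← (hP x hx).2]
      exact pairCardFst H F x (hP x hx).1
    have hqn : q ^ 2 * n ≤ 1 := by rw [mul_comm]; exact hnq
    have h := Vale.Agent.Helper25.KKInner.card_fiber_le_four_pow H q hq hq1 hqn hyp F τ P hP
    rw [hv] at h
    exact h

end Vale.Agent.Helper8.KK
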