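import Vale.Agent.Helper8.KK.PairFacts

/-!
P064 (helper25, for the version with a polynomial constant): the plain packing lemma.
Pairwise disjoint vertex sets of copies of `F` in `H` number at most `3 N(K_n,F) q^e`.
-/

namespace Vale.Agent.Helper25.KKPlain

open Finset SimpleGraph
open Vale.Agent.Helper8.KK

/-- The endpoints of the edges of a copy lie in its vertex set. -/
lemma mem_fst_of_mem_snd {n v : ℕ} (H : SimpleGraph (Fin n)) (F : SimpleGraph (Fin v))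
    (x : Finset (Fin n) × Finset (Sym2 (Fin n))) (hx : x ∈ pairs H F)
    {a b : Fin n} (hz : s(a, b) ∈ x.2) : a ∈ x.1 ∧ b ∈ x.1 := by
  classical
  obtain ⟨f, -, -, rfl⟩ := mem_pairs.mp hx
  rw [prSnd, Finset.mem_image] at hz
  obtain ⟨z0, -, hz0⟩ := hz
  have hmem : ∀ c : Fin v, f c ∈ (pr F f).1 := by
    intro c
    rw [prFst]
    exact Finset.mem_image_of_mem f (Finset.mem_univ c)
  induction z0 using Sym2.ind with
  | _ c d =>
    rw [Sym2.map_mk, Sym2.eq_iff] at hz0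
    rcases hz0 with ⟨h1, h2⟩ | ⟨h1, h2⟩
    · exact ⟨h1 ▸ hmem c, h2 ▸ hmem d⟩
    · exact ⟨h2 ▸ hmem d, h1 ▸ hmem c⟩

/-- The graph formed by the edges of `H` lying in one of the edge sets `Ech τ`, `τ ∈ D`. -/
def sub {n : ℕ} (H : SimpleGraph (Fin n)) (D : Finset (Finset (Fin n)))
    (Ech : Finset (Fin n) → Finset (Sym2 (Fin n))) : SimpleGraph (Fin n) where
  Adj a b := H.Adj a b ∧ ∃ τ ∈ D, s(a, b) ∈ Ech τ
  symm := ⟨fun a b h => ⟨h.1.symm, by
    obtain ⟨τ, hτ, hm⟩ := h.2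
    exact ⟨τ, hτ, Sym2.eq_swap ▸ hm⟩⟩⟩
  loopless := ⟨fun a h => H.loopless.irrefl a h.1⟩

lemma sub_le {n : ℕ} (H : SimpleGraph (Fin n)) (D : Finset (Finset (Fin n)))
    (Ech : Finset (Fin n) → Finset (Sym2 (Fin n))) : sub H D Ech ≤ H :=
  fun _ _ h => h.1

/-- **Plain packing lemma.**  Pairwise disjoint vertex sets of copies of `F` in `H` are few:
at most `3 N(K_n,F) q^e`. -/
theorem packing_plain {n v : ℕ} (H : SimpleGraph (Fin n)) (F : SimpleGraph (Fin v)) (q : ℝ)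
    (hq : 0 ≤ q)
    (hyp : ∀ F' : SimpleGraph (Fin n), F' ≤ H →
        1 ≤ ((⊤ : SimpleGraph (Fin n)).copyCount F' : ℝ) * q ^ F'.edgeSet.ncard)
    (e : ℕ) (he : F.edgeSet.ncard = e) (he1 : 1 ≤ e)
    (D : Finset (Finset (Fin n)))
    (hD : ∀ τ ∈ D, ∃ E, (τ, E) ∈ pairs H F)
    (hdis : ∀ τ ∈ D, ∀ τ' ∈ D, τ ≠ τ' → Disjoint τ τ') :
    (D.card : ℝ) ≤ 3 * ((⊤ : SimpleGraph (Fin n)).copyCount F : ℝ) * q ^ e := by
  classical
  let Ech : Finset (Fin n) → Finset (Sym2 (Fin n)) :=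
    fun τ => if h : τ ∈ D then Classical.choose (hD τ h) else ∅
  have hEch : ∀ τ ∈ D, (τ, Ech τ) ∈ pairs H F := by
    intro τ hτ
    have h := Classical.choose_spec (hD τ hτ)
    have h2 : Ech τ = Classical.choose (hD τ hτ) := dif_pos hτ
    rw [h2]
    exact h
  set H' := sub H D Ech with hH'
  -- endpoints
  have hend : ∀ τ ∈ D, ∀ a b : Fin n, s(a, b) ∈ Ech τ → a ∈ τ ∧ b ∈ τ := by
    intro τ hτ a b hz
    exact mem_fst_of_mem_snd H F (τ, Ech τ) (hEch τ hτ) hz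
  have huniq : ∀ τ ∈ D, ∀ τ' ∈ D, ∀ a : Fin n, a ∈ τ → a ∈ τ' → τ = τ' := by
    intro τ hτ τ' hτ' a ha ha'
    by_contra hne
    exact Finset.disjoint_left.mp (hdis τ hτ τ' hτ' hne) ha ha'
  -- the copies are copies in H'
  have hpairs : ∀ τ ∈ D, (τ, Ech τ) ∈ pairs H' F := by
    intro τ hτ
    obtain ⟨f, hinj, hhom, hpr⟩ := mem_pairs.mp (hEch τ hτ)
    refine mem_pairs.mpr ⟨f, hinj, ?_, hpr⟩
    intro a b hab
    refine ⟨hhom a b hab, τ, hτ, ?_⟩
    have h2 : Ech τ = (pr F f).2 := by rw [hpr]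
    rw [h2, prSnd, Finset.mem_image]
    exact ⟨s(a, b), by rw [mem_edgeFinset, mem_edgeSet]; exact hab, rfl⟩
  have hbd : ∀ τ ∈ D, bd H' τ = Ech τ := by
    intro τ hτ
    apply Finset.Subset.antisymm
    · intro z hz
      induction z using Sym2.ind with
      | _ a b =>
        rw [mem_bd] at hz
        obtain ⟨⟨-, τ', hτ', hm⟩, hor⟩ := hz
        have h3 := hend τ' hτ' a b hm
        have heq : τ = τ' := by
          rcases hor with ha | hb
          · exact huniq τ hτ τ' hτ' a ha h3.1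
          · exact huniq τ hτ τ' hτ' b hb h3.2
        rw [heq]
        exact hm
    · exact pairSndSubset H' F (τ, Ech τ) (hpairs τ hτ)
  have hs : ∀ τ ∈ D, (bd H' τ).card = e + 0 := by
    intro τ hτ
    rw [hbd τ hτ, add_zero, ← he]
    exact pairCardSnd H F (τ, Ech τ) (hEch τ hτ)
  have hfar : ∀ τ ∈ D, ∀ τ' ∈ D, τ ≠ τ' → Far H' τ τ' := by
    intro τ hτ τ' hτ' hne
    refine ⟨hdis τ hτ τ' hτ' hne, ?_⟩
    intro a ha b hb hadj
    obtain ⟨-, τ'', hτ'', hm⟩ := hadj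
    have h3 := hend τ'' hτ'' a b hm
    have h4 : τ = τ'' := huniq τ hτ τ'' hτ'' a ha h3.1
    have h5 : τ' = τ'' := huniq τ' hτ' τ'' hτ'' b hb h3.2
    exact hne (h4.trans h5.symm)
  have hyp' : ∀ F' : SimpleGraph (Fin n), F' ≤ H' →
      1 ≤ ((⊤ : SimpleGraph (Fin n)).copyCount F' : ℝ) * q ^ F'.edgeSet.ncard :=
    fun F' hF' => hyp F' (hF'.trans (sub_le H D Ech))
  have h := packing H' F q hq hyp' e 0 he he1 D (fun τ hτ => ⟨Ech τ, hpairs τ hτ⟩) hfar hs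
  simpa using h

end Vale.Agent.Helper25.KKPlain
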