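import Mathlib

/-!
Structure lemma for P329 (task T3 of helper10): a finite group whose quotient by a
normal subgroup `N` is commutative of exponent `p` admits a homomorphism onto an
elementary abelian `p`-group `(ZMod p)^n` (written multiplicatively) with kernel `N`.
-/

namespace Vale.Agent.Helper25.P329

/-- A finite module over `ZMod p` is linearly isomorphic to some `(ZMod p)^n`. -/
theorem exists_equivFun (p : ℕ) [Fact p.Prime] (M : Type) [AddCommGroup M] [Module (ZMod p) M]
    [Finite M] : ∃ n : ℕ, Nonempty (M ≃+ (Fin n → ZMod p)) := by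
  have : Module.Finite (ZMod p) M := Module.Finite.of_finite
  exact ⟨Module.finrank (ZMod p) M, ⟨(Module.finBasis (ZMod p) M).equivFun.toAddEquiv⟩⟩

/-- General form with surjectivity. -/
theorem exists_hom_of_elementary_surj {G : Type} [Group G] [Finite G] (p : ℕ) [Fact p.Prime]
    (N : Subgroup G) [N.Normal]
    (hcomm : ∀ g h : G, g * h * g⁻¹ * h⁻¹ ∈ N) (hexp : ∀ g : G, g ^ p ∈ N) :
    ∃ (n : ℕ) (ψ : G →* Multiplicative (Fin n → ZMod p)),
      (∀ g, ψ g = 1 ↔ g ∈ N) ∧ Function.Surjective ψ := by
  classical
  let cg : CommGroup (G ⧸ N) :=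
    { (inferInstance : Group (G ⧸ N)) with
      mul_comm := by
        intro a b
        induction a using QuotientGroup.induction_on with
        | H a =>
          induction b using QuotientGroup.induction_on with
          | H b =>
            rw [← QuotientGroup.mk_mul, ← QuotientGroup.mk_mul, QuotientGroup.eq]
            have h := hcomm b⁻¹ a⁻¹
            simpa [mul_assoc] using h }
  have hM : ∀ x : Additive (G ⧸ N), p • x = 0 := by
    intro x
    induction x using Additive.rec with
    | ofMul q =>
      induction q using QuotientGroup.induction_on with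
      | H g =>
        rw [← ofMul_pow, ← QuotientGroup.mk_pow, (QuotientGroup.eq_one_iff (g ^ p)).2 (hexp g)]
        rfl
  have hfin : Finite (Additive (G ⧸ N)) := inferInstanceAs (Finite (G ⧸ N))
  obtain ⟨n, ⟨e⟩⟩ := @exists_equivFun p _ (Additive (G ⧸ N)) _ (AddCommGroup.zmodModule hM) hfin
  refine ⟨n,
    { toFun := fun g => Multiplicative.ofAdd (e (Additive.ofMul (g : G ⧸ N)))
      map_one' := by
        rw [QuotientGroup.mk_one, ofMul_one, map_zero]; rfl
      map_mul' := by
        intro x y
        rw [QuotientGroup.mk_mul, ofMul_mul, map_add]; rfl }, ?_, ?_⟩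
  · intro g
    change Multiplicative.ofAdd (e (Additive.ofMul (g : G ⧸ N))) = 1 ↔ g ∈ N
    rw [← QuotientGroup.eq_one_iff (N := N) g]
    constructor
    · intro h
      have h1 : e (Additive.ofMul (g : G ⧸ N)) = 0 := h
      have h2 : Additive.ofMul (g : G ⧸ N) = 0 := by
        simpa using h1
      exact h2
    · intro h
      rw [h, ofMul_one, map_zero]; rfl
  · intro y
    obtain ⟨x, hx⟩ := e.surjective (Multiplicative.toAdd y)
    induction x using Additive.rec with
    | ofMul q =>
      induction q using QuotientGroup.induction_on with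
      | H g =>
        refine ⟨g, ?_⟩
        change Multiplicative.ofAdd (e (Additive.ofMul (g : G ⧸ N))) = y
        rw [hx]; rfl

/-- Task T3, exact statement requested by helper10. -/
theorem exists_hom_of_elementary {G : Type} [Group G] [Finite G] (p : ℕ) [Fact p.Prime]
    (N : Subgroup G) [N.Normal]
    (hcomm : ∀ g h : G, g * h * g⁻¹ * h⁻¹ ∈ N) (hexp : ∀ g : G, g ^ p ∈ N) :
    ∃ (n : ℕ) (ψ : G →* Multiplicative (Fin n → ZMod p)), ∀ g, ψ g = 1 ↔ g ∈ N := by
  obtain ⟨n, ψ, h, -⟩ := exists_hom_of_elementary_surj p N hcomm hexp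
  exact ⟨n, ψ, h⟩

/-- Task T3, special case of a normal subgroup of prime index. -/
theorem exists_hom_of_prime_index {G : Type} [Group G] [Finite G] (p : ℕ) [Fact p.Prime]
    (N : Subgroup G) [N.Normal] (hidx : N.index = p) :
    ∃ ψ : G →* Multiplicative (ZMod p), ∀ g, ψ g = 1 ↔ g ∈ N := by
  subst hidx
  have hc : IsCyclic (G ⧸ N) := isCyclic_of_prime_card (p := N.index) rfl
  let e : Multiplicative (ZMod N.index) ≃* G ⧸ N := zmodCyclicMulEquiv hc
  refine ⟨e.symm.toMonoidHom.comp (QuotientGroup.mk' N), ?_⟩
  intro g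
  change e.symm (g : G ⧸ N) = 1 ↔ g ∈ N
  rw [MulEquiv.map_eq_one_iff, QuotientGroup.eq_one_iff]

end Vale.Agent.Helper25.P329
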