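import Mathlib

/-!
# Single-fold Diophantine representations: closure lemmas (helper file for P345)

`SF S` says that `S ⊆ ℕ^n` has a single-fold Diophantine representation whose witness variables
are indexed by an arbitrary finite type.  The lemmas here build such representations for
intersections, disjoint unions and the atomic sets `p = 0`, `p ≠ 0`, `0 ≤ p`, `p < 0`,
`p ∣ q`, `p ∤ q`.
-/

namespace Vale.Agent.Helper25.SingleFold

open MvPolynomial

/-- The evaluation point `(a, w)`. -/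
def pt {n : ℕ} {ι : Type} (a : Fin n → ℕ) (w : ι → ℕ) : Fin n ⊕ ι → ℤ :=
  Sum.elim (fun i => (a i : ℤ)) (fun j => (w j : ℤ))

/-- Single-fold representability with witness variables indexed by a finite type. -/
def SF {n : ℕ} (S : Set (Fin n → ℕ)) : Prop :=
  ∃ (ι : Type) (_ : Fintype ι) (P : MvPolynomial (Fin n ⊕ ι) ℤ),
    (∀ a, a ∈ S ↔ ∃ w : ι → ℕ, eval (pt a w) P = 0) ∧
    (∀ a (w w' : ι → ℕ), eval (pt a w) P = 0 → eval (pt a w') P = 0 → w = w')

theorem pt_comp_map {n : ℕ} {ι κ : Type} (a : Fin n → ℕ) (w : κ → ℕ) (f : ι → κ) :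
    pt a w ∘ Sum.map id f = pt a (w ∘ f) := by
  funext x
  cases x <;> rfl

theorem pt_comp_inl {n : ℕ} {ι : Type} (a : Fin n → ℕ) (w : ι → ℕ) :
    pt a w ∘ Sum.inl = fun i => (a i : ℤ) := by
  funext x
  rfl

theorem eval_lift {n : ℕ} {ι : Type} (a : Fin n → ℕ) (w : ι → ℕ) (p : MvPolynomial (Fin n) ℤ) :
    eval (pt a w) (rename Sum.inl p) = eval (fun i => (a i : ℤ)) p := by
  rw [eval_rename, pt_comp_inl]

theorem eval_map {n : ℕ} {ι κ : Type} (a : Fin n → ℕ) (w : κ → ℕ) (f : ι → κ)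
    (P : MvPolynomial (Fin n ⊕ ι) ℤ) :
    eval (pt a w) (rename (Sum.map id f) P) = eval (pt a (w ∘ f)) P := by
  rw [eval_rename, pt_comp_map]

theorem SF.inter {n : ℕ} {S T : Set (Fin n → ℕ)} (hS : SF S) (hT : SF T) : SF (S ∩ T) := by
  obtain ⟨ι, hι, P, h1, h2⟩ := hS
  obtain ⟨κ, hκ, Q, k1, k2⟩ := hT
  have key : ∀ (a : Fin n → ℕ) (w : ι ⊕ κ → ℕ),
      eval (pt a w) ((rename (Sum.map id Sum.inl) P) ^ 2 + (rename (Sum.map id Sum.inr) Q) ^ 2) = 0
        ↔ eval (pt a (w ∘ Sum.inl)) P = 0 ∧ eval (pt a (w ∘ Sum.inr)) Q = 0 := by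
    intro a w
    rw [map_add, map_pow, map_pow, eval_map, eval_map]
    constructor
    · intro h
      constructor <;> nlinarith [sq_nonneg (eval (pt a (w ∘ Sum.inl)) P),
        sq_nonneg (eval (pt a (w ∘ Sum.inr)) Q)]
    · rintro ⟨h, h'⟩
      rw [h, h']
      ring
  refine ⟨ι ⊕ κ, inferInstance,
    (rename (Sum.map id Sum.inl) P) ^ 2 + (rename (Sum.map id Sum.inr) Q) ^ 2, ?_, ?_⟩
  · intro a
    constructor
    · rintro ⟨ha, hb⟩
      obtain ⟨w, hw⟩ := (h1 a).1 ha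
      obtain ⟨v, hv⟩ := (k1 a).1 hb
      refine ⟨Sum.elim w v, ?_⟩
      rw [key]
      exact ⟨hw, hv⟩
    · rintro ⟨w, hw⟩
      rw [key] at hw
      exact ⟨(h1 a).2 ⟨_, hw.1⟩, (k1 a).2 ⟨_, hw.2⟩⟩
  · intro a w w' hw hw'
    rw [key] at hw hw'
    have e1 := h2 a _ _ hw.1 hw'.1
    have e2 := k2 a _ _ hw.2 hw'.2
    funext x
    cases x with
    | inl i => exact congrFun e1 i
    | inr j => exact congrFun e2 j

theorem SF.disjUnion {n : ℕ} {S T : Set (Fin n → ℕ)} (hS : SF S) (hT : SF T)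
    (hdisj : ∀ a, a ∈ S → a ∈ T → False) : SF (S ∪ T) := by
  classical
  obtain ⟨ι, hι, P, h1, h2⟩ := hS
  obtain ⟨κ, hκ, Q, k1, k2⟩ := hT
  set R : MvPolynomial (Fin n ⊕ (ι ⊕ κ)) ℤ :=
    ((rename (Sum.map id Sum.inl) P) ^ 2 + ∑ j : κ, (X (Sum.inr (Sum.inr j))) ^ 2) *
      ((rename (Sum.map id Sum.inr) Q) ^ 2 + ∑ i : ι, (X (Sum.inr (Sum.inl i))) ^ 2) with hR
  have key : ∀ (a : Fin n → ℕ) (w : ι ⊕ κ → ℕ), eval (pt a w) R = 0 ↔
      (eval (pt a (w ∘ Sum.inl)) P = 0 ∧ ∀ j, w (Sum.inr j) = 0) ∨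
      (eval (pt a (w ∘ Sum.inr)) Q = 0 ∧ ∀ i, w (Sum.inl i) = 0) := by
    intro a w
    have hA : eval (pt a w) ((rename (Sum.map id Sum.inl) P) ^ 2 +
        ∑ j : κ, (X (Sum.inr (Sum.inr j))) ^ 2) = 0 ↔
        (eval (pt a (w ∘ Sum.inl)) P = 0 ∧ ∀ j, w (Sum.inr j) = 0) := by
      rw [map_add, map_pow, eval_map, map_sum]
      simp only [map_pow, eval_X]
      have hs : (0 : ℤ) ≤ ∑ j : κ, (pt a w (Sum.inr (Sum.inr j))) ^ 2 :=
        Finset.sum_nonneg (fun j _ => sq_nonneg _)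
      constructor
      · intro h
        have h0 : eval (pt a (w ∘ Sum.inl)) P = 0 := by
          nlinarith [sq_nonneg (eval (pt a (w ∘ Sum.inl)) P)]
        have hs0 : ∑ j : κ, (pt a w (Sum.inr (Sum.inr j))) ^ 2 = 0 := by
          nlinarith [sq_nonneg (eval (pt a (w ∘ Sum.inl)) P)]
        refine ⟨h0, fun j => ?_⟩
        have := (Finset.sum_eq_zero_iff_of_nonneg (fun j _ => sq_nonneg _)).1 hs0 j
          (Finset.mem_univ j)
        have h3 : pt a w (Sum.inr (Sum.inr j)) = 0 := by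
          simpa using this
        have h4 : ((w (Sum.inr j) : ℕ) : ℤ) = 0 := h3
        exact_mod_cast h4
      · rintro ⟨h0, hj⟩
        rw [h0]
        have : ∑ j : κ, (pt a w (Sum.inr (Sum.inr j))) ^ 2 = 0 := by
          apply Finset.sum_eq_zero
          intro j _
          have h4 : pt a w (Sum.inr (Sum.inr j)) = ((w (Sum.inr j) : ℕ) : ℤ) := rfl
          rw [h4, hj j]
          simp
        rw [this]
        ring
    have hB : eval (pt a w) ((rename (Sum.map id Sum.inr) Q) ^ 2 +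
        ∑ i : ι, (X (Sum.inr (Sum.inl i))) ^ 2) = 0 ↔
        (eval (pt a (w ∘ Sum.inr)) Q = 0 ∧ ∀ i, w (Sum.inl i) = 0) := by
      rw [map_add, map_pow, eval_map, map_sum]
      simp only [map_pow, eval_X]
      have hs : (0 : ℤ) ≤ ∑ i : ι, (pt a w (Sum.inr (Sum.inl i))) ^ 2 :=
        Finset.sum_nonneg (fun j _ => sq_nonneg _)
      constructor
      · intro h
        have h0 : eval (pt a (w ∘ Sum.inr)) Q = 0 := by
          nlinarith [sq_nonneg (eval (pt a (w ∘ Sum.inr)) Q)]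
        have hs0 : ∑ i : ι, (pt a w (Sum.inr (Sum.inl i))) ^ 2 = 0 := by
          nlinarith [sq_nonneg (eval (pt a (w ∘ Sum.inr)) Q)]
        refine ⟨h0, fun j => ?_⟩
        have := (Finset.sum_eq_zero_iff_of_nonneg (fun j _ => sq_nonneg _)).1 hs0 j
          (Finset.mem_univ j)
        have h3 : pt a w (Sum.inr (Sum.inl j)) = 0 := by
          simpa using this
        have h4 : ((w (Sum.inl j) : ℕ) : ℤ) = 0 := h3
        exact_mod_cast h4
      · rintro ⟨h0, hj⟩
        rw [h0]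
        have : ∑ i : ι, (pt a w (Sum.inr (Sum.inl i))) ^ 2 = 0 := by
          apply Finset.sum_eq_zero
          intro j _
          have h4 : pt a w (Sum.inr (Sum.inl j)) = ((w (Sum.inl j) : ℕ) : ℤ) := rfl
          rw [h4, hj j]
          simp
        rw [this]
        ring
    rw [hR, map_mul, mul_eq_zero, hA, hB]
  refine ⟨ι ⊕ κ, inferInstance, R, ?_, ?_⟩
  · intro a
    constructor
    · rintro (ha | hb)
      · obtain ⟨w, hw⟩ := (h1 a).1 ha
        refine ⟨Sum.elim w (fun _ => 0), ?_⟩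
        rw [key]
        left
        exact ⟨hw, fun j => rfl⟩
      · obtain ⟨v, hv⟩ := (k1 a).1 hb
        refine ⟨Sum.elim (fun _ => 0) v, ?_⟩
        rw [key]
        right
        exact ⟨hv, fun j => rfl⟩
    · rintro ⟨w, hw⟩
      rw [key] at hw
      rcases hw with hw | hw
      · exact Or.inl ((h1 a).2 ⟨_, hw.1⟩)
      · exact Or.inr ((k1 a).2 ⟨_, hw.1⟩)
  · intro a w w' hw hw'
    rw [key] at hw hw'
    rcases hw with hw | hw <;> rcases hw' with hw' | hw'
    · have e1 := h2 a _ _ hw.1 hw'.1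
      funext x
      cases x with
      | inl i => exact congrFun e1 i
      | inr j => rw [hw.2 j, hw'.2 j]
    · exact (hdisj a ((h1 a).2 ⟨_, hw.1⟩) ((k1 a).2 ⟨_, hw'.1⟩)).elim
    · exact (hdisj a ((h1 a).2 ⟨_, hw'.1⟩) ((k1 a).2 ⟨_, hw.1⟩)).elim
    · have e1 := k2 a _ _ hw.1 hw'.1
      funext x
      cases x with
      | inl i => rw [hw.2 i, hw'.2 i]
      | inr j => exact congrFun e1 j

/-! ### Atoms -/

theorem sf_eqZero {n : ℕ} (p : MvPolynomial (Fin n) ℤ) :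
    SF {a : Fin n → ℕ | eval (fun i => (a i : ℤ)) p = 0} := by
  refine ⟨Empty, inferInstance, rename Sum.inl p, ?_, ?_⟩
  · intro a
    simp only [Set.mem_ofPred_eq, eval_lift]
    exact ⟨fun h => ⟨fun e => e.elim, h⟩, fun ⟨_, h⟩ => h⟩
  · intro a w w' _ _
    funext x
    exact x.elim

theorem eval_X_wit {n : ℕ} {ι : Type} (a : Fin n → ℕ) (w : ι → ℕ) (j : ι) :
    eval (pt a w) (X (Sum.inr j)) = (w j : ℤ) := by
  rw [eval_X]
  rfl

theorem sf_neZero {n : ℕ} (p : MvPolynomial (Fin n) ℤ) :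
    SF {a : Fin n → ℕ | ¬ eval (fun i => (a i : ℤ)) p = 0} := by
  refine ⟨Unit, inferInstance, (rename Sum.inl p) ^ 2 - X (Sum.inr ()) - 1, ?_, ?_⟩
  · intro a
    simp only [Set.mem_ofPred_eq, map_sub, map_pow, map_one, eval_lift, eval_X_wit]
    constructor
    · intro h
      have hpos : 0 < (eval (fun i => (a i : ℤ)) p) ^ 2 := by positivity
      refine ⟨fun _ => ((eval (fun i => (a i : ℤ)) p) ^ 2 - 1).toNat, ?_⟩
      rw [Int.toNat_of_nonneg (by omega)]
      ring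
    · rintro ⟨w, hw⟩ h0
      rw [h0] at hw
      have : (0 : ℤ) ≤ (w () : ℤ) := Int.natCast_nonneg _
      nlinarith
  · intro a w w' hw hw'
    simp only [map_sub, map_pow, map_one, eval_lift, eval_X_wit] at hw hw'
    funext x
    cases x
    have : (w () : ℤ) = (w' () : ℤ) := by linarith
    exact_mod_cast this

theorem sf_nonneg {n : ℕ} (p : MvPolynomial (Fin n) ℤ) :
    SF {a : Fin n → ℕ | 0 ≤ eval (fun i => (a i : ℤ)) p} := by
  refine ⟨Unit, inferInstance, (rename Sum.inl p) - X (Sum.inr ()), ?_, ?_⟩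
  · intro a
    simp only [Set.mem_ofPred_eq, map_sub, eval_lift, eval_X_wit]
    constructor
    · intro h
      refine ⟨fun _ => (eval (fun i => (a i : ℤ)) p).toNat, ?_⟩
      rw [Int.toNat_of_nonneg h]
      ring
    · rintro ⟨w, hw⟩
      have : (0 : ℤ) ≤ (w () : ℤ) := Int.natCast_nonneg _
      linarith
  · intro a w w' hw hw'
    simp only [map_sub, eval_lift, eval_X_wit] at hw hw'
    funext x
    cases x
    have : (w () : ℤ) = (w' () : ℤ) := by linarith
    exact_mod_cast this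

theorem sf_negative {n : ℕ} (p : MvPolynomial (Fin n) ℤ) :
    SF {a : Fin n → ℕ | ¬ 0 ≤ eval (fun i => (a i : ℤ)) p} := by
  refine ⟨Unit, inferInstance, (rename Sum.inl p) + X (Sum.inr ()) + 1, ?_, ?_⟩
  · intro a
    simp only [Set.mem_ofPred_eq, map_add, map_one, eval_lift, eval_X_wit]
    constructor
    · intro h
      refine ⟨fun _ => (- eval (fun i => (a i : ℤ)) p - 1).toNat, ?_⟩
      rw [Int.toNat_of_nonneg (by omega)]
      ring
    · rintro ⟨w, hw⟩
      have : (0 : ℤ) ≤ (w () : ℤ) := Int.natCast_nonneg _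
      linarith
  · intro a w w' hw hw'
    simp only [map_add, map_one, eval_lift, eval_X_wit] at hw hw'
    funext x
    cases x
    have : (w () : ℤ) = (w' () : ℤ) := by linarith
    exact_mod_cast this

theorem three_sq_zero {x y z : ℤ} (h : x ^ 2 + y ^ 2 + z ^ 2 = 0) : x = 0 ∧ y = 0 ∧ z = 0 := by
  refine ⟨?_, ?_, ?_⟩ <;> nlinarith [sq_nonneg x, sq_nonneg y, sq_nonneg z]

theorem nat_pair_unique {z1 z2 y1 y2 : ℕ} (h1 : (z1 : ℤ) * z2 = 0) (h2 : (y1 : ℤ) * y2 = 0)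
    (h : (z1 : ℤ) - z2 = (y1 : ℤ) - y2) : z1 = y1 ∧ z2 = y2 := by
  have h1' : z1 = 0 ∨ z2 = 0 := by
    rcases mul_eq_zero.1 h1 with h | h
    · left; exact_mod_cast h
    · right; exact_mod_cast h
  have h2' : y1 = 0 ∨ y2 = 0 := by
    rcases mul_eq_zero.1 h2 with h | h
    · left; exact_mod_cast h
    · right; exact_mod_cast h
  rcases h1' with h1' | h1' <;> rcases h2' with h2' | h2' <;> omega

/-- `p(a) ≠ 0` and `p(a) ∣ q(a)`: witnesses `u, z1, z2` with `p^2 = u + 1`, `z1 z2 = 0`,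
`q = p (z1 - z2)`. -/
theorem sf_dvd_ne {n : ℕ} (p q : MvPolynomial (Fin n) ℤ) :
    SF {a : Fin n → ℕ | ¬ eval (fun i => (a i : ℤ)) p = 0 ∧
      eval (fun i => (a i : ℤ)) p ∣ eval (fun i => (a i : ℤ)) q} := by
  refine ⟨Fin 3, inferInstance,
    ((rename Sum.inl p) ^ 2 - X (Sum.inr 0) - 1) ^ 2 + (X (Sum.inr 1) * X (Sum.inr 2)) ^ 2 +
      ((rename Sum.inl q) - (rename Sum.inl p) * (X (Sum.inr 1) - X (Sum.inr 2))) ^ 2, ?_, ?_⟩
  · intro a
    simp only [Set.mem_ofPred_eq, map_add, map_sub, map_mul, map_pow, map_one, eval_lift,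
      eval_X_wit]
    constructor
    · rintro ⟨h0, z, hz⟩
      have hpos : 0 < (eval (fun i => (a i : ℤ)) p) ^ 2 := by positivity
      refine ⟨![((eval (fun i => (a i : ℤ)) p) ^ 2 - 1).toNat, z.toNat, (-z).toNat], ?_⟩
      simp only [Matrix.cons_val_zero, Matrix.cons_val_one, Matrix.cons_val_two,
        Matrix.head_cons, Matrix.tail_cons]
      rw [Int.toNat_of_nonneg (by omega), Int.toNat_sub_toNat_neg, hz]
      have hz0 : ((z.toNat : ℤ)) * ((-z).toNat : ℤ) = 0 := by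
        rcases le_total 0 z with h | h
        · have : (-z).toNat = 0 := by omega
          rw [this]; simp
        · have : z.toNat = 0 := by omega
          rw [this]; simp
      rw [hz0]
      ring
    · rintro ⟨w, hw⟩
      obtain ⟨e1, e2, e3⟩ := three_sq_zero hw
      refine ⟨?_, ?_⟩
      · intro h0
        rw [h0] at e1
        have : (0 : ℤ) ≤ (w 0 : ℤ) := Int.natCast_nonneg _
        nlinarith
      · exact ⟨(w 1 : ℤ) - (w 2 : ℤ), by linarith⟩
  · intro a w w' hw hw'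
    simp only [map_add, map_sub, map_mul, map_pow, map_one, eval_lift, eval_X_wit] at hw hw'
    obtain ⟨e1, e2, e3⟩ := three_sq_zero hw
    obtain ⟨f1, f2, f3⟩ := three_sq_zero hw'
    have hp : eval (fun i => (a i : ℤ)) p ≠ 0 := by
      intro h0
      rw [h0] at e1
      have : (0 : ℤ) ≤ (w 0 : ℤ) := Int.natCast_nonneg _
      nlinarith
    have h0 : w 0 = w' 0 := by
      have : (w 0 : ℤ) = (w' 0 : ℤ) := by linarith
      exact_mod_cast this
    have hz : (w 1 : ℤ) - (w 2 : ℤ) = (w' 1 : ℤ) - (w' 2 : ℤ) := by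
      have : eval (fun i => (a i : ℤ)) p * ((w 1 : ℤ) - (w 2 : ℤ)) =
          eval (fun i => (a i : ℤ)) p * ((w' 1 : ℤ) - (w' 2 : ℤ)) := by linarith
      exact mul_left_cancel₀ hp this
    obtain ⟨h1, h2⟩ := nat_pair_unique e2 f2 hz
    funext x
    fin_cases x
    · exact h0
    · exact h1
    · exact h2

/-- `p(a) ≠ 0` and `p(a) ∤ q(a)`: witnesses `z1, z2, r, s` with `z1 z2 = 0`,
`q = p (z1 - z2) + r + 1`, `(r + s + 2)^2 = p^2`. -/
theorem sf_ndvd_ne {n : ℕ} (p q : MvPolynomial (Fin n) ℤ) :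
    SF {a : Fin n → ℕ | ¬ eval (fun i => (a i : ℤ)) p = 0 ∧
      ¬ eval (fun i => (a i : ℤ)) p ∣ eval (fun i => (a i : ℤ)) q} := by
  refine ⟨Fin 4, inferInstance,
    (X (Sum.inr 0) * X (Sum.inr 1)) ^ 2 +
      ((rename Sum.inl q) - (rename Sum.inl p) * (X (Sum.inr 0) - X (Sum.inr 1))
        - X (Sum.inr 2) - 1) ^ 2 +
      ((X (Sum.inr 2) + X (Sum.inr 3) + 2) ^ 2 - (rename Sum.inl p) ^ 2) ^ 2, ?_, ?_⟩
  · intro a
    simp only [Set.mem_ofPred_eq, map_add, map_sub, map_mul, map_pow, map_one, eval_lift,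
      eval_X_wit, map_ofNat]
    set P := eval (fun i => (a i : ℤ)) p with hP
    set Q := eval (fun i => (a i : ℤ)) q with hQ
    constructor
    · rintro ⟨h0, hnd⟩
      have hr0 : 0 ≤ Q % P := Int.emod_nonneg _ h0
      have hr1 : Q % P < |P| := Int.emod_lt_abs _ h0
      have hr2 : Q % P ≠ 0 := fun h => hnd (Int.dvd_of_emod_eq_zero h)
      have hdiv : P * (Q / P) + Q % P = Q := Int.mul_ediv_add_emod Q P
      refine ⟨![(Q / P).toNat, (-(Q / P)).toNat, (Q % P - 1).toNat, (|P| - Q % P - 1).toNat], ?_⟩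
      simp only [Matrix.cons_val_zero, Matrix.cons_val_one, Matrix.cons_val_two,
        Matrix.cons_val_three, Matrix.head_cons, Matrix.tail_cons]
      rw [Int.toNat_sub_toNat_neg, Int.toNat_of_nonneg (by omega : 0 ≤ Q % P - 1),
        Int.toNat_of_nonneg (by omega : 0 ≤ |P| - Q % P - 1)]
      have hz0 : (((Q / P).toNat : ℤ)) * ((-(Q / P)).toNat : ℤ) = 0 := by
        rcases le_total 0 (Q / P) with h | h
        · have : (-(Q / P)).toNat = 0 := by omega
          rw [this]; simp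
        · have : (Q / P).toNat = 0 := by omega
          rw [this]; simp
      rw [hz0]
      have h1 : Q - P * (Q / P) - (Q % P - 1) - 1 = 0 := by linarith
      have h2 : (Q % P - 1 + (|P| - Q % P - 1) + 2) ^ 2 - P ^ 2 = 0 := by
        have : Q % P - 1 + (|P| - Q % P - 1) + 2 = |P| := by ring
        rw [this, sq_abs]
        ring
      rw [h1, h2]
      ring
    · rintro ⟨w, hw⟩
      obtain ⟨e1, e2, e3⟩ := three_sq_zero hw
      have hw2 : (0 : ℤ) ≤ (w 2 : ℤ) := Int.natCast_nonneg _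
      have hw3 : (0 : ℤ) ≤ (w 3 : ℤ) := Int.natCast_nonneg _
      have habs : |P| = (w 2 : ℤ) + (w 3 : ℤ) + 2 := by
        have h1 : ((w 2 : ℤ) + (w 3 : ℤ) + 2) ^ 2 = P ^ 2 := by linarith
        have h2 := (sq_eq_sq_iff_abs_eq_abs _ _).1 h1
        rw [abs_of_nonneg (by linarith)] at h2
        exact h2.symm
      have hp : P ≠ 0 := by
        intro h0
        rw [h0] at habs
        simp at habs
        linarith
      refine ⟨hp, ?_⟩
      intro hdvd
      have h3 : P ∣ (w 2 : ℤ) + 1 := by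
        have h4 : (w 2 : ℤ) + 1 = Q - P * ((w 0 : ℤ) - (w 1 : ℤ)) := by linarith
        rw [h4]
        exact Dvd.dvd.sub hdvd (Dvd.intro _ rfl)
      have h5 : |P| ∣ (w 2 : ℤ) + 1 := (abs_dvd _ _).2 h3
      have h6 := Int.eq_zero_of_abs_lt_dvd h5 (by rw [abs_of_nonneg (by linarith), habs]; linarith)
      linarith
  · intro a w w' hw hw'
    simp only [map_add, map_sub, map_mul, map_pow, map_one, eval_lift, eval_X_wit,
      map_ofNat] at hw hw'
    set P := eval (fun i => (a i : ℤ)) p with hP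
    set Q := eval (fun i => (a i : ℤ)) q with hQ
    obtain ⟨e1, e2, e3⟩ := three_sq_zero hw
    obtain ⟨f1, f2, f3⟩ := three_sq_zero hw'
    have hw2 : (0 : ℤ) ≤ (w 2 : ℤ) := Int.natCast_nonneg _
    have hw3 : (0 : ℤ) ≤ (w 3 : ℤ) := Int.natCast_nonneg _
    have hv2 : (0 : ℤ) ≤ (w' 2 : ℤ) := Int.natCast_nonneg _
    have hv3 : (0 : ℤ) ≤ (w' 3 : ℤ) := Int.natCast_nonneg _
    have habs : |P| = (w 2 : ℤ) + (w 3 : ℤ) + 2 := by
      have h1 : ((w 2 : ℤ) + (w 3 : ℤ) + 2) ^ 2 = P ^ 2 := by linarith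
      have h2 := (sq_eq_sq_iff_abs_eq_abs _ _).1 h1
      rw [abs_of_nonneg (by linarith)] at h2
      exact h2.symm
    have habs' : |P| = (w' 2 : ℤ) + (w' 3 : ℤ) + 2 := by
      have h1 : ((w' 2 : ℤ) + (w' 3 : ℤ) + 2) ^ 2 = P ^ 2 := by linarith
      have h2 := (sq_eq_sq_iff_abs_eq_abs _ _).1 h1
      rw [abs_of_nonneg (by linarith)] at h2
      exact h2.symm
    have hp : P ≠ 0 := by
      intro h0
      rw [h0] at habs
      simp at habs
      linarith
    -- the remainders agree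
    have hdiff : P * (((w 0 : ℤ) - (w 1 : ℤ)) - ((w' 0 : ℤ) - (w' 1 : ℤ))) =
        (w' 2 : ℤ) - (w 2 : ℤ) := by linarith
    have h5 : |P| ∣ (w' 2 : ℤ) - (w 2 : ℤ) := (abs_dvd _ _).2 (Dvd.intro _ hdiff)
    have h6 := Int.eq_zero_of_abs_lt_dvd h5 (by
      rw [abs_lt]
      constructor <;> linarith)
    have hr : (w 2 : ℤ) = (w' 2 : ℤ) := by linarith
    have hs : (w 3 : ℤ) = (w' 3 : ℤ) := by linarith
    have hz : (w 0 : ℤ) - (w 1 : ℤ) = (w' 0 : ℤ) - (w' 1 : ℤ) := by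
      have : P * (((w 0 : ℤ) - (w 1 : ℤ)) - ((w' 0 : ℤ) - (w' 1 : ℤ))) = 0 := by
        rw [hdiff]; linarith
      have := (mul_eq_zero.1 this).resolve_left hp
      linarith
    obtain ⟨h1, h2⟩ := nat_pair_unique e1 f1 hz
    funext x
    fin_cases x
    · exact h1
    · exact h2
    · exact_mod_cast hr
    · exact_mod_cast hs

theorem sf_dvd {n : ℕ} (p q : MvPolynomial (Fin n) ℤ) :
    SF {a : Fin n → ℕ | eval (fun i => (a i : ℤ)) p ∣ eval (fun i => (a i : ℤ)) q} := by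
  have h := SF.disjUnion (SF.inter (sf_eqZero p) (sf_eqZero q)) (sf_dvd_ne p q)
    (fun a ha hb => hb.1 ha.1)
  have heq : {a : Fin n → ℕ | eval (fun i => (a i : ℤ)) p ∣ eval (fun i => (a i : ℤ)) q} =
      ({a : Fin n → ℕ | eval (fun i => (a i : ℤ)) p = 0} ∩
        {a : Fin n → ℕ | eval (fun i => (a i : ℤ)) q = 0}) ∪
      {a : Fin n → ℕ | ¬ eval (fun i => (a i : ℤ)) p = 0 ∧
        eval (fun i => (a i : ℤ)) p ∣ eval (fun i => (a i : ℤ)) q} := by
    ext a
    simp only [Set.mem_ofPred_eq, Set.mem_union, Set.mem_inter_iff]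
    constructor
    · intro hd
      by_cases h0 : eval (fun i => (a i : ℤ)) p = 0
      · left
        refine ⟨h0, ?_⟩
        rw [h0] at hd
        exact zero_dvd_iff.1 hd
      · right
        exact ⟨h0, hd⟩
    · rintro (⟨h0, h1⟩ | ⟨_, hd⟩)
      · rw [h0, h1]
      · exact hd
  rw [heq]
  exact h

theorem sf_ndvd {n : ℕ} (p q : MvPolynomial (Fin n) ℤ) :
    SF {a : Fin n → ℕ | ¬ eval (fun i => (a i : ℤ)) p ∣ eval (fun i => (a i : ℤ)) q} := by
  have h := SF.disjUnion (SF.inter (sf_eqZero p) (sf_neZero q)) (sf_ndvd_ne p q)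
    (fun a ha hb => hb.1 ha.1)
  have heq : {a : Fin n → ℕ | ¬ eval (fun i => (a i : ℤ)) p ∣ eval (fun i => (a i : ℤ)) q} =
      ({a : Fin n → ℕ | eval (fun i => (a i : ℤ)) p = 0} ∩
        {a : Fin n → ℕ | ¬ eval (fun i => (a i : ℤ)) q = 0}) ∪
      {a : Fin n → ℕ | ¬ eval (fun i => (a i : ℤ)) p = 0 ∧
        ¬ eval (fun i => (a i : ℤ)) p ∣ eval (fun i => (a i : ℤ)) q} := by
    ext a
    simp only [Set.mem_ofPred_eq, Set.mem_union, Set.mem_inter_iff]
    constructor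
    · intro hd
      by_cases h0 : eval (fun i => (a i : ℤ)) p = 0
      · left
        refine ⟨h0, ?_⟩
        intro h1
        apply hd
        rw [h0, h1]
      · right
        exact ⟨h0, hd⟩
    · rintro (⟨h0, h1⟩ | ⟨_, hd⟩)
      · rw [h0]
        intro hd
        exact h1 (zero_dvd_iff.1 hd)
      · exact hd
  rw [heq]
  exact h

end Vale.Agent.Helper25.SingleFold
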