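import Mathlib
import Vale.Agent.Helper25.TrilinearCov1
import Vale.Agent.Helper25.TrilinearCov2
import Vale.Agent.Helper25.TrilinearCov3
import Vale.Agent.Helper25.TrilinearCov4
import Vale.Agent.Helper25.TrilinearCov5
import Vale.Agent.Helper25.TrilinearCov6

/-!
# Helper file for P141: six certificates cover every Hölder tuple with `r ≤ 37/80`

Each of the files `TrilinearCov1`, …, `TrilinearCov6` proves that the trilinear Hilbert transform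
is unbounded at the Hölder tuples in an open half-space of `(1/p₁, 1/p₂, 1/p₃)` with integer
coefficients.  Here we check, by linear arithmetic, that these six half-spaces cover all tuples
with `1/p₁ + 1/p₂ + 1/p₃ ≥ 80/37` and `1/pᵢ < 1`.
-/

namespace Vale.Agent.Helper25.TrilinearCover

open MeasureTheory

theorem unbounded_of_le (p₁ p₂ p₃ r : ℝ) (h₁ : 1 < p₁) (h₂ : 1 < p₂) (h₃ : 1 < p₃) (hr : 0 < r)
    (hH : 1 / r = 1 / p₁ + 1 / p₂ + 1 / p₃) (hsmall : r ≤ 37 / 80) :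
    ¬ ∃ Cst : ℝ, ∀ (f₁ f₂ f₃ : SchwartzMap ℝ ℂ) (g : ℝ → ℂ),
      (∀ x : ℝ, Filter.Tendsto (fun q : ℝ × ℝ => ∫ t in {t : ℝ | q.1 < |t| ∧ |t| < q.2},
          f₁ (x - t) * f₂ (x - 2 * t) * f₃ (x - 3 * t) / (t : ℂ))
        ((nhdsWithin 0 (Set.Ioi 0)) ×ˢ Filter.atTop) (nhds (g x))) →
      eLpNorm g (ENNReal.ofReal r) volume ≤ ENNReal.ofReal Cst *
        eLpNorm f₁ (ENNReal.ofReal p₁) volume * eLpNorm f₂ (ENNReal.ofReal p₂) volume *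
        eLpNorm f₃ (ENNReal.ofReal p₃) volume := by
  have x1 : 1 / p₁ < 1 := by
    rw [div_lt_one (by linarith)]
    exact h₁
  have x2 : 1 / p₂ < 1 := by
    rw [div_lt_one (by linarith)]
    exact h₂
  have x3 : 1 / p₃ < 1 := by
    rw [div_lt_one (by linarith)]
    exact h₃
  have hR : 80 / 37 ≤ 1 / r := by
    rw [le_div_iff₀ hr]
    linarith
  have hr1 : r ≤ 1 := by linarith
  by_cases c1 : ((46430 : ℕ) : ℝ) + ((81427 : ℕ) : ℝ) + (1 / r - 1) * ((86614 : ℕ) : ℝ) <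
      1 / p₁ * ((105057 : ℕ) : ℝ) + 1 / p₂ * ((106621 : ℕ) : ℝ) + 1 / p₃ * ((105432 : ℕ) : ℝ)
  · exact Vale.Agent.Helper25.TrilinearCov1.unbounded p₁ p₂ p₃ r (by linarith) (by linarith)
      (by linarith) hr hr1 hH c1
  by_cases c2 : ((40875 : ℕ) : ℝ) + ((88519 : ℕ) : ℝ) + (1 / r - 1) * ((92120 : ℕ) : ℝ) <
      1 / p₁ * ((109768 : ℕ) : ℝ) + 1 / p₂ * ((107609 : ℕ) : ℝ) + 1 / p₃ * ((110345 : ℕ) : ℝ)
  · exact Vale.Agent.Helper25.TrilinearCov2.unbounded p₁ p₂ p₃ r (by linarith) (by linarith)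
      (by linarith) hr hr1 hH c2
  by_cases c3 : ((42467 : ℕ) : ℝ) + ((86061 : ℕ) : ℝ) + (1 / r - 1) * ((90511 : ℕ) : ℝ) <
      1 / p₁ * ((109668 : ℕ) : ℝ) + 1 / p₂ * ((107923 : ℕ) : ℝ) + 1 / p₃ * ((106367 : ℕ) : ℝ)
  · exact Vale.Agent.Helper25.TrilinearCov3.unbounded p₁ p₂ p₃ r (by linarith) (by linarith)
      (by linarith) hr hr1 hH c3
  by_cases c4 : ((43932 : ℕ) : ℝ) + ((84841 : ℕ) : ℝ) + (1 / r - 1) * ((89149 : ℕ) : ℝ) <
      1 / p₁ * ((107264 : ℕ) : ℝ) + 1 / p₂ * ((107264 : ℕ) : ℝ) + 1 / p₃ * ((107899 : ℕ) : ℝ)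
  · exact Vale.Agent.Helper25.TrilinearCov4.unbounded p₁ p₂ p₃ r (by linarith) (by linarith)
      (by linarith) hr hr1 hH c4
  by_cases c5 : ((41683 : ℕ) : ℝ) + ((87612 : ℕ) : ℝ) + (1 / r - 1) * ((91278 : ℕ) : ℝ) <
      1 / p₁ * ((109736 : ℕ) : ℝ) + 1 / p₂ * ((108565 : ℕ) : ℝ) + 1 / p₃ * ((108197 : ℕ) : ℝ)
  · exact Vale.Agent.Helper25.TrilinearCov5.unbounded p₁ p₂ p₃ r (by linarith) (by linarith)
      (by linarith) hr hr1 hH c5
  by_cases c6 : ((44586 : ℕ) : ℝ) + ((83760 : ℕ) : ℝ) + (1 / r - 1) * ((88434 : ℕ) : ℝ) <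
      1 / p₁ * ((107147 : ℕ) : ℝ) + 1 / p₂ * ((107435 : ℕ) : ℝ) + 1 / p₃ * ((106126 : ℕ) : ℝ)
  · exact Vale.Agent.Helper25.TrilinearCov6.unbounded p₁ p₂ p₃ r (by linarith) (by linarith)
      (by linarith) hr hr1 hH c6
  exfalso
  rw [hH] at c1 c2 c3 c4 c5 c6 hR
  push_cast at c1 c2 c3 c4 c5 c6
  linarith

end Vale.Agent.Helper25.TrilinearCover
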