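import Mathlib

/-!
# Helper file for P141: comb functions and a lower bound for the trilinear Hilbert transform

For a finite set `S` of integers, `comb S x = ∑ s ∈ S, φ (x - s)` where `φ` is a smooth bump
with `0 ≤ φ ≤ 1`, support in `(0, 1/4)` and `φ = 1` on `[1/16, 3/16]`.
-/

namespace Vale.Agent.Helper25.TrilinearHT

open MeasureTheory Set

/-- The basic bump: centre `1/8`, inner radius `1/16`, outer radius `1/8`. -/
noncomputable def bump : ContDiffBump (1 / 8 : ℝ) :=
  ⟨1 / 16, 1 / 8, by norm_num, by norm_num⟩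

theorem bump_nonneg (x : ℝ) : 0 ≤ bump x := bump.nonneg

theorem bump_le_one (x : ℝ) : bump x ≤ 1 := bump.le_one

theorem bump_eq_one {x : ℝ} (h1 : 1 / 16 ≤ x) (h2 : x ≤ 3 / 16) : bump x = 1 := by
  apply bump.one_of_mem_closedBall
  rw [Metric.mem_closedBall, Real.dist_eq, abs_le]
  have : bump.rIn = 1 / 16 := rfl
  rw [this]
  constructor <;> linarith

theorem bump_ne_zero {x : ℝ} (h : bump x ≠ 0) : 0 < x ∧ x < 1 / 4 := by
  have hx : x ∈ Function.support bump := h
  rw [bump.support_eq, Metric.mem_ball, Real.dist_eq, abs_lt] at hx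
  have : bump.rOut = 1 / 8 := rfl
  rw [this] at hx
  constructor <;> linarith [hx.1, hx.2]

/-- The comb function attached to a finite set of integers. -/
noncomputable def comb (S : Finset ℤ) (x : ℝ) : ℝ := ∑ s ∈ S, bump (x - s)

theorem comb_nonneg (S : Finset ℤ) (x : ℝ) : 0 ≤ comb S x :=
  Finset.sum_nonneg (fun _ _ => bump_nonneg _)

theorem comb_ne_zero {S : Finset ℤ} {x : ℝ} (h : comb S x ≠ 0) :
    ∃ s ∈ S, (s : ℝ) < x ∧ x < s + 1 / 4 := by
  obtain ⟨s, hs, hne⟩ := Finset.exists_ne_zero_of_sum_ne_zero h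
  have := bump_ne_zero hne
  exact ⟨s, hs, by linarith [this.1], by linarith [this.2]⟩

theorem comb_le_one (S : Finset ℤ) (x : ℝ) : comb S x ≤ 1 := by
  classical
  by_cases h : ∃ s ∈ S, bump (x - s) ≠ 0
  · obtain ⟨s, hs, hne⟩ := h
    have hsum : comb S x = bump (x - s) := by
      apply Finset.sum_eq_single_of_mem s hs
      intro s' hs' hne'
      by_contra h0
      have h1 := bump_ne_zero hne
      have h2 := bump_ne_zero h0
      apply hne'
      have h3 : ((s' : ℝ) - s) < 1 := by linarith [h1.1, h1.2, h2.1, h2.2]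
      have h4 : ((s : ℝ) - s') < 1 := by linarith [h1.1, h1.2, h2.1, h2.2]
      have h5 : (s' - s : ℤ) < 1 := by exact_mod_cast h3
      have h6 : (s - s' : ℤ) < 1 := by exact_mod_cast h4
      omega
    rw [hsum]
    exact bump_le_one _
  · have hsum : comb S x = 0 := by
      apply Finset.sum_eq_zero
      intro s hs
      by_contra h0
      exact h ⟨s, hs, h0⟩
    rw [hsum]
    exact zero_le_one

theorem one_le_comb {S : Finset ℤ} {s : ℤ} (hs : s ∈ S) {x : ℝ} (h1 : 1 / 16 ≤ x - s)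
    (h2 : x - s ≤ 3 / 16) : 1 ≤ comb S x := by
  have h := Finset.single_le_sum (f := fun s : ℤ => bump (x - s)) (fun i _ => bump_nonneg _) hs
  have h' : bump (x - s) = 1 := bump_eq_one h1 h2
  simp only [h'] at h
  exact h

theorem comb_continuous (S : Finset ℤ) : Continuous (comb S) := by
  unfold comb
  apply continuous_finsetSum
  intro s _
  exact bump.continuous.comp (continuous_id.sub continuous_const)

/-- The complex-valued comb function. -/
noncomputable def combC (S : Finset ℤ) (x : ℝ) : ℂ := (comb S x : ℂ)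

theorem combC_contDiff (S : Finset ℤ) : ContDiff ℝ (⊤ : ℕ∞) (combC S) := by
  unfold combC comb
  have h1 : ContDiff ℝ (⊤ : ℕ∞) (fun x : ℝ => ∑ s ∈ S, bump (x - s)) := by
    apply ContDiff.sum
    intro s _
    exact bump.contDiff.comp (contDiff_id.sub contDiff_const)
  exact Complex.ofRealCLM.contDiff.comp h1

theorem combC_hasCompactSupport (S : Finset ℤ) : HasCompactSupport (combC S) := by
  apply HasCompactSupport.of_support_subset_isCompact
    (K := ⋃ s ∈ S, Icc (s : ℝ) (s + 1 / 4))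
  · exact S.finite_toSet.isCompact_biUnion (fun s _ => isCompact_Icc)
  · intro x hx
    have hx' : comb S x ≠ 0 := by
      intro h0
      apply hx
      simp [combC, h0]
    obtain ⟨s, hs, h1, h2⟩ := comb_ne_zero hx'
    simp only [mem_iUnion]
    exact ⟨s, hs, h1.le, h2.le⟩

/-- The comb function as a Schwartz function. -/
noncomputable def combS (S : Finset ℤ) : SchwartzMap ℝ ℂ :=
  (combC_hasCompactSupport S).toSchwartzMap (combC_contDiff S)

theorem combS_apply (S : Finset ℤ) (x : ℝ) : combS S x = (comb S x : ℂ) := rfl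

/-! ### The `L^p` norm of a comb function -/

theorem eLpNorm_combS_le (S : Finset ℤ) {p : ENNReal} (hp0 : p ≠ 0) (hptop : p ≠ ⊤) :
    eLpNorm (combS S) p volume ≤ (S.card : ENNReal) ^ (1 / p.toReal) := by
  set U : Set ℝ := ⋃ s ∈ S, Icc (s : ℝ) (s + 1 / 4) with hU
  have hUm : MeasurableSet U :=
    Finset.measurableSet_biUnion S (fun s _ => measurableSet_Icc)
  have hbound : ∀ x, ‖combS S x‖ ≤ U.indicator (fun _ => (1 : ℝ)) x := by
    intro x
    rw [combS_apply, Complex.norm_real, Real.norm_of_nonneg (comb_nonneg S x)]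
    by_cases h0 : comb S x = 0
    · rw [h0]
      exact Set.indicator_nonneg (fun _ _ => zero_le_one) x
    · obtain ⟨s, hs, h1, h2⟩ := comb_ne_zero h0
      have hxU : x ∈ U := by
        simp only [hU, mem_iUnion]
        exact ⟨s, hs, h1.le, h2.le⟩
      rw [Set.indicator_of_mem hxU]
      exact comb_le_one S x
  have h1 := eLpNorm_mono_real (μ := volume) (p := p) hbound
  rw [eLpNorm_indicator_const hUm hp0 hptop] at h1
  have hμ : volume U ≤ (S.card : ENNReal) := by
    calc volume U ≤ ∑ s ∈ S, volume (Icc (s : ℝ) (s + 1 / 4)) := measure_biUnion_finset_le S _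
      _ ≤ ∑ s ∈ S, (1 : ENNReal) := by
          apply Finset.sum_le_sum
          intro s _
          rw [Real.volume_Icc]
          have : (s : ℝ) + 1 / 4 - s = 1 / 4 := by ring
          rw [this]
          exact ENNReal.ofReal_le_one.2 (by norm_num)
      _ = (S.card : ENNReal) := by simp
  calc eLpNorm (combS S) p volume ≤ ‖(1 : ℝ)‖ₑ * volume U ^ (1 / p.toReal) := h1
    _ = volume U ^ (1 / p.toReal) := by simp
    _ ≤ (S.card : ENNReal) ^ (1 / p.toReal) :=
        ENNReal.rpow_le_rpow hμ (by positivity)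

/-! ### The integrand of the trilinear Hilbert transform on comb functions -/

/-- The real integrand `comb A (x - t) * comb B (x - 2 t) * comb C (x - 3 t) / t`. -/
noncomputable def kern (A B C : Finset ℤ) (x t : ℝ) : ℝ :=
  comb A (x - t) * comb B (x - 2 * t) * comb C (x - 3 * t) / t

section kern

variable {A B C : Finset ℤ} {D : ℤ}

theorem kern_ne_zero (hAB : ∀ a ∈ A, ∀ b ∈ B, 1 ≤ a - b ∧ a - b ≤ D) {x t : ℝ}
    (h : kern A B C x t ≠ 0) : 3 / 4 < t ∧ t < D + 1 / 4 := by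
  unfold kern at h
  have hA : comb A (x - t) ≠ 0 := by
    intro h0
    apply h
    rw [h0]
    ring
  have hB : comb B (x - 2 * t) ≠ 0 := by
    intro h0
    apply h
    rw [h0]
    ring
  obtain ⟨a, ha, a1, a2⟩ := comb_ne_zero hA
  obtain ⟨b, hb, b1, b2⟩ := comb_ne_zero hB
  obtain ⟨h1, h2⟩ := hAB a ha b hb
  have h1' : (1 : ℝ) ≤ (a : ℝ) - b := by exact_mod_cast h1
  have h2' : (a : ℝ) - b ≤ D := by exact_mod_cast h2
  constructor <;> linarith

theorem kern_nonneg (hAB : ∀ a ∈ A, ∀ b ∈ B, 1 ≤ a - b ∧ a - b ≤ D) (x t : ℝ) :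
    0 ≤ kern A B C x t := by
  by_cases h : kern A B C x t = 0
  · rw [h]
  · have ht := (kern_ne_zero hAB h).1
    unfold kern
    apply div_nonneg _ (by linarith)
    exact mul_nonneg (mul_nonneg (comb_nonneg _ _) (comb_nonneg _ _)) (comb_nonneg _ _)

theorem kern_le (hAB : ∀ a ∈ A, ∀ b ∈ B, 1 ≤ a - b ∧ a - b ≤ D) (x t : ℝ) :
    kern A B C x t ≤ 4 / 3 := by
  by_cases h : kern A B C x t = 0
  · rw [h]
    norm_num
  · have ht := (kern_ne_zero hAB h).1
    unfold kern
    rw [div_le_iff₀ (by linarith)]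
    have h1 : comb A (x - t) * comb B (x - 2 * t) * comb C (x - 3 * t) ≤ 1 := by
      have hA := comb_le_one A (x - t)
      have hB := comb_le_one B (x - 2 * t)
      have hC := comb_le_one C (x - 3 * t)
      have hA0 := comb_nonneg A (x - t)
      have hB0 := comb_nonneg B (x - 2 * t)
      have hC0 := comb_nonneg C (x - 3 * t)
      calc comb A (x - t) * comb B (x - 2 * t) * comb C (x - 3 * t)
          ≤ 1 * 1 * 1 := by
            apply mul_le_mul (mul_le_mul hA hB hB0 zero_le_one) hC hC0 (by norm_num)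
        _ = 1 := by norm_num
    linarith

theorem kern_measurable (x : ℝ) : Measurable (kern A B C x) := by
  unfold kern
  apply Measurable.div
  · apply Measurable.mul
    · apply Measurable.mul
      · exact ((comb_continuous A).comp (continuous_const.sub continuous_id)).measurable
      · exact ((comb_continuous B).comp
          (continuous_const.sub (continuous_const.mul continuous_id))).measurable
    · exact ((comb_continuous C).comp
        (continuous_const.sub (continuous_const.mul continuous_id))).measurable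
  · exact measurable_id

theorem kern_integrable (hAB : ∀ a ∈ A, ∀ b ∈ B, 1 ≤ a - b ∧ a - b ≤ D) (x : ℝ) :
    Integrable (kern A B C x) volume := by
  have hint : Integrable ((Icc (3 / 4 : ℝ) (D + 1 / 4)).indicator (fun _ => (4 / 3 : ℝ)))
      volume := by
    rw [integrable_indicator_iff measurableSet_Icc]
    exact integrableOn_const (by simp)
  refine hint.mono' (kern_measurable x).aestronglyMeasurable (Filter.Eventually.of_forall ?_)
  intro t
  rw [Real.norm_of_nonneg (kern_nonneg hAB x t)]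
  by_cases h : kern A B C x t = 0
  · rw [h]
    exact Set.indicator_nonneg (fun _ _ => by norm_num) t
  · have ht := kern_ne_zero hAB h
    rw [Set.indicator_of_mem (by exact ⟨ht.1.le, ht.2.le⟩)]
    exact kern_le hAB x t

/-- Key lower bound: near a point `2 a - b` the integral of the integrand is at least
`(1/48) / (D + 1)`. -/
theorem kern_integral_ge (hAB : ∀ a ∈ A, ∀ b ∈ B, 1 ≤ a - b ∧ a - b ≤ D)
    {a b : ℤ} (ha : a ∈ A) (hb : b ∈ B) (hc : 2 * b - a ∈ C) {x : ℝ}
    (hx1 : 1 / 8 ≤ x - (2 * a - b)) (hx2 : x - (2 * a - b) ≤ 3 / 16) :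
    1 / 48 / ((D : ℝ) + 1) ≤ ∫ t, kern A B C x t := by
  obtain ⟨h1, h2⟩ := hAB a ha b hb
  have h1' : (1 : ℝ) ≤ (a : ℝ) - b := by exact_mod_cast h1
  have h2' : (a : ℝ) - b ≤ D := by exact_mod_cast h2
  set I : Set ℝ := Icc ((a : ℝ) - b) ((a : ℝ) - b + 1 / 48) with hI
  have hstep1 : ∫ t in I, kern A B C x t ≤ ∫ t, kern A B C x t :=
    setIntegral_le_integral (kern_integrable hAB x)
      (Filter.Eventually.of_forall (kern_nonneg hAB x))
  have hvol : volume.real I = 1 / 48 := by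
    rw [Measure.real, hI, Real.volume_Icc]
    have : (a : ℝ) - b + 1 / 48 - ((a : ℝ) - b) = 1 / 48 := by ring
    rw [this, ENNReal.toReal_ofReal (by norm_num)]
  have hstep2 : 1 / ((D : ℝ) + 1) * volume.real I ≤ ∫ t in I, kern A B C x t := by
    apply setIntegral_ge_of_const_le_real measurableSet_Icc
    · rw [Real.volume_Icc]
      exact ENNReal.ofReal_ne_top
    · intro t ht
      rw [mem_Icc] at ht
      have hcA : 1 ≤ comb A (x - t) := one_le_comb ha (by linarith [ht.2]) (by linarith [ht.1])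
      have hcB : 1 ≤ comb B (x - 2 * t) :=
        one_le_comb hb (by linarith [ht.2]) (by linarith [ht.1])
      have hcC : 1 ≤ comb C (x - 3 * t) := by
        apply one_le_comb hc
        · push_cast
          linarith [ht.2]
        · push_cast
          linarith [ht.1]
      have ht0 : 0 < t := by linarith [ht.1]
      have htD : t ≤ (D : ℝ) + 1 := by linarith [ht.2]
      unfold kern
      rw [div_le_div_iff₀ (by linarith) ht0]
      have hprod : 1 ≤ comb A (x - t) * comb B (x - 2 * t) * comb C (x - 3 * t) := by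
        calc (1 : ℝ) = 1 * 1 * 1 := by norm_num
          _ ≤ comb A (x - t) * comb B (x - 2 * t) * comb C (x - 3 * t) := by
            apply mul_le_mul (mul_le_mul hcA hcB zero_le_one (by linarith)) hcC zero_le_one
            exact mul_nonneg (comb_nonneg _ _) (comb_nonneg _ _)
      nlinarith
    · exact (kern_integrable hAB x).integrableOn
  rw [hvol] at hstep2
  calc 1 / 48 / ((D : ℝ) + 1) = 1 / ((D : ℝ) + 1) * (1 / 48) := by ring
    _ ≤ ∫ t in I, kern A B C x t := hstep2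
    _ ≤ ∫ t, kern A B C x t := hstep1

/-- The truncated integrals defining the trilinear Hilbert transform of three comb functions
converge (they are eventually constant) to the integral of `kern`. -/
theorem tendsto_truncated (hAB : ∀ a ∈ A, ∀ b ∈ B, 1 ≤ a - b ∧ a - b ≤ D) (x : ℝ) :
    Filter.Tendsto (fun q : ℝ × ℝ => ∫ t in {t : ℝ | q.1 < |t| ∧ |t| < q.2},
        combS A (x - t) * combS B (x - 2 * t) * combS C (x - 3 * t) / (t : ℂ))
      ((nhdsWithin 0 (Set.Ioi 0)) ×ˢ Filter.atTop)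
      (nhds ((∫ t, kern A B C x t : ℝ) : ℂ)) := by
  have hpt : ∀ t : ℝ, combS A (x - t) * combS B (x - 2 * t) * combS C (x - 3 * t) / (t : ℂ) =
      ((kern A B C x t : ℝ) : ℂ) := by
    intro t
    simp only [combS_apply, kern]
    push_cast
    ring
  have hev : ∀ᶠ q : ℝ × ℝ in (nhdsWithin 0 (Set.Ioi 0)) ×ˢ Filter.atTop,
      ((∫ t, kern A B C x t : ℝ) : ℂ) = ∫ t in {t : ℝ | q.1 < |t| ∧ |t| < q.2},
        combS A (x - t) * combS B (x - 2 * t) * combS C (x - 3 * t) / (t : ℂ) := by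
    have h1 : ∀ᶠ e : ℝ in nhdsWithin 0 (Set.Ioi 0), e < 3 / 4 :=
      nhdsWithin_le_nhds (Iio_mem_nhds (by norm_num))
    have h2 : ∀ᶠ R : ℝ in Filter.atTop, (D : ℝ) + 1 / 4 < R := Filter.eventually_gt_atTop _
    filter_upwards [h1.prod_mk h2] with q hq
    simp only [hpt]
    rw [setIntegral_eq_integral_of_forall_compl_eq_zero]
    · exact (integral_ofReal (𝕜 := ℂ)).symm
    intro t ht
    by_contra h0
    have h0' : kern A B C x t ≠ 0 := by
      intro h00
      apply h0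
      rw [h00]
      simp
    have hk := kern_ne_zero hAB h0'
    apply ht
    have htpos : 0 < t := by linarith [hk.1]
    rw [Set.mem_ofPred_eq, abs_of_pos htpos]
    exact ⟨by linarith [hq.1, hk.1], by linarith [hq.2, hk.2]⟩
  exact tendsto_const_nhds.congr' hev

end kern

/-! ### The digit sets -/

/-- One more base-16 digit: `{16 s + d : s ∈ S, d ∈ dig}`. -/
def next (S dig : Finset ℤ) : Finset ℤ := (S ×ˢ dig).image (fun p => 16 * p.1 + p.2)

theorem mem_next {S dig : Finset ℤ} {x : ℤ} :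
    x ∈ next S dig ↔ ∃ s ∈ S, ∃ d ∈ dig, x = 16 * s + d := by
  unfold next
  simp only [Finset.mem_image, Finset.mem_product, Prod.exists]
  constructor
  · rintro ⟨s, d, ⟨hs, hd⟩, rfl⟩
    exact ⟨s, hs, d, hd, rfl⟩
  · rintro ⟨s, hs, d, hd, rfl⟩
    exact ⟨s, d, ⟨hs, hd⟩, rfl⟩

theorem card_next_le (S dig : Finset ℤ) : (next S dig).card ≤ S.card * dig.card := by
  unfold next
  calc ((S ×ˢ dig).image (fun p => 16 * p.1 + p.2)).card ≤ (S ×ˢ dig).card := Finset.card_image_le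
    _ = S.card * dig.card := Finset.card_product S dig

def digA : Finset ℤ := {0, 2, 4, 6}
def digB : Finset ℤ := {0, 1, 2, 3}
def digC : Finset ℤ := {-6, -4, -2, 0, 2, 4, 6}

def setA : ℕ → Finset ℤ
  | 0 => {1}
  | L + 1 => next (setA L) digA

def setB : ℕ → Finset ℤ
  | 0 => {0}
  | L + 1 => next (setB L) digB

def setC : ℕ → Finset ℤ
  | 0 => {-1}
  | L + 1 => next (setC L) digC

def lo : ℕ → ℤ
  | 0 => 2
  | L + 1 => 16 * lo L - 3

def hi : ℕ → ℤ
  | 0 => 2
  | L + 1 => 16 * hi L + 12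

theorem card_setA (L : ℕ) : (setA L).card ≤ 4 ^ L := by
  induction L with
  | zero => simp [setA]
  | succ L ih =>
    calc (setA (L + 1)).card ≤ (setA L).card * digA.card := card_next_le _ _
      _ ≤ 4 ^ L * 4 := Nat.mul_le_mul ih (by decide)
      _ = 4 ^ (L + 1) := by ring

theorem card_setB (L : ℕ) : (setB L).card ≤ 4 ^ L := by
  induction L with
  | zero => simp [setB]
  | succ L ih =>
    calc (setB (L + 1)).card ≤ (setB L).card * digB.card := card_next_le _ _
      _ ≤ 4 ^ L * 4 := Nat.mul_le_mul ih (by decide)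
      _ = 4 ^ (L + 1) := by ring

theorem card_setC (L : ℕ) : (setC L).card ≤ 7 ^ L := by
  induction L with
  | zero => simp [setC]
  | succ L ih =>
    calc (setC (L + 1)).card ≤ (setC L).card * digC.card := card_next_le _ _
      _ ≤ 7 ^ L * 7 := Nat.mul_le_mul ih (by decide)
      _ = 7 ^ (L + 1) := by ring

theorem mem_digA {d : ℤ} : d ∈ digA ↔ d = 0 ∨ d = 2 ∨ d = 4 ∨ d = 6 := by
  simp [digA]

theorem mem_digB {d : ℤ} : d ∈ digB ↔ d = 0 ∨ d = 1 ∨ d = 2 ∨ d = 3 := by
  simp [digB]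

theorem mem_digC {d : ℤ} :
    d ∈ digC ↔ d = -6 ∨ d = -4 ∨ d = -2 ∨ d = 0 ∨ d = 2 ∨ d = 4 ∨ d = 6 := by
  simp [digC]

theorem diff_bounds (L : ℕ) : ∀ a ∈ setA L, ∀ b ∈ setB L,
    1 ≤ a - b ∧ a - b ≤ 2 * 16 ^ L - 1 := by
  induction L with
  | zero =>
    intro a ha b hb
    simp only [setA, setB, Finset.mem_singleton] at ha hb
    subst ha hb
    norm_num
  | succ L ih =>
    intro a ha b hb
    simp only [setA, setB] at ha hb
    obtain ⟨a', ha', d, hd, rfl⟩ := mem_next.1 ha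
    obtain ⟨b', hb', e, he, rfl⟩ := mem_next.1 hb
    obtain ⟨h1, h2⟩ := ih a' ha' b' hb'
    rw [mem_digA] at hd
    rw [mem_digB] at he
    rw [pow_succ]
    constructor
    · rcases hd with rfl | rfl | rfl | rfl <;> rcases he with rfl | rfl | rfl | rfl <;> omega
    · rcases hd with rfl | rfl | rfl | rfl <;> rcases he with rfl | rfl | rfl | rfl <;> omega

theorem ap_mem (L : ℕ) : ∀ a ∈ setA L, ∀ b ∈ setB L, 2 * b - a ∈ setC L := by
  induction L with
  | zero =>
    intro a ha b hb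
    simp only [setA, setB, Finset.mem_singleton] at ha hb
    subst ha hb
    simp [setC]
  | succ L ih =>
    intro a ha b hb
    simp only [setA, setB] at ha hb
    obtain ⟨a', ha', d, hd, rfl⟩ := mem_next.1 ha
    obtain ⟨b', hb', e, he, rfl⟩ := mem_next.1 hb
    have h := ih a' ha' b' hb'
    simp only [setC]
    rw [mem_next]
    refine ⟨2 * b' - a', h, 2 * e - d, ?_, by ring⟩
    rw [mem_digA] at hd
    rw [mem_digB] at he
    rw [mem_digC]
    rcases hd with rfl | rfl | rfl | rfl <;> rcases he with rfl | rfl | rfl | rfl <;> norm_num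

theorem hi_sub_lo (L : ℕ) : hi L - lo L + 1 = 16 ^ L := by
  induction L with
  | zero => simp [hi, lo]
  | succ L ih =>
    simp only [hi, lo]
    rw [pow_succ]
    omega

theorem rep (L : ℕ) : ∀ k : ℤ, lo L ≤ k → k ≤ hi L →
    ∃ a ∈ setA L, ∃ b ∈ setB L, k = 2 * a - b := by
  induction L with
  | zero =>
    intro k h1 h2
    simp only [lo, hi] at h1 h2
    refine ⟨1, by simp [setA], 0, by simp [setB], ?_⟩
    omega
  | succ L ih =>
    intro k h1 h2
    simp only [lo, hi] at h1 h2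
    obtain ⟨a, ha, b, hb, hk⟩ := ih ((k + 3) / 16) (by omega) (by omega)
    -- the last digit `d = k - 16 * ((k + 3) / 16) ∈ [-3, 12]` is `4 i - j`
    set k' := (k + 3) / 16 with hk'
    set i := (k - 16 * k' + 3) / 4 with hi'
    set j := 4 * i - (k - 16 * k') with hj'
    have hi0 : 0 ≤ i := by omega
    have hi3 : i ≤ 3 := by omega
    have hj0 : 0 ≤ j := by omega
    have hj3 : j ≤ 3 := by omega
    refine ⟨16 * a + 2 * i, ?_, 16 * b + j, ?_, ?_⟩
    · simp only [setA]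
      rw [mem_next]
      refine ⟨a, ha, 2 * i, ?_, rfl⟩
      rw [mem_digA]
      omega
    · simp only [setB]
      rw [mem_next]
      refine ⟨b, hb, j, ?_, rfl⟩
      rw [mem_digB]
      omega
    · omega

theorem card_Icc_lo_hi (L : ℕ) : (Finset.Icc (lo L) (hi L)).card = 16 ^ L := by
  rw [Int.card_Icc]
  have h := hi_sub_lo L
  have h2 : hi L + 1 - lo L = 16 ^ L := by omega
  rw [h2]
  exact_mod_cast Int.toNat_natCast (16 ^ L)

/-! ### The main inequality -/

/-- If the trilinear Hilbert transform is bounded with constant `Cst` at `(p₁, p₂, p₃; r)`, then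
every admissible configuration of finite sets of integers gives a numerical inequality. -/
theorem main_ineq {p₁ p₂ p₃ r : ℝ} (hp₁ : 0 < p₁) (hp₂ : 0 < p₂) (hp₃ : 0 < p₃) (hr : 0 < r)
    {Cst : ℝ}
    (hbd : ∀ (f₁ f₂ f₃ : SchwartzMap ℝ ℂ) (g : ℝ → ℂ),
      (∀ x : ℝ, Filter.Tendsto (fun q : ℝ × ℝ => ∫ t in {t : ℝ | q.1 < |t| ∧ |t| < q.2},
          f₁ (x - t) * f₂ (x - 2 * t) * f₃ (x - 3 * t) / (t : ℂ))
        ((nhdsWithin 0 (Set.Ioi 0)) ×ˢ Filter.atTop) (nhds (g x))) →
      eLpNorm g (ENNReal.ofReal r) volume ≤ ENNReal.ofReal Cst *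
        eLpNorm f₁ (ENNReal.ofReal p₁) volume * eLpNorm f₂ (ENNReal.ofReal p₂) volume *
        eLpNorm f₃ (ENNReal.ofReal p₃) volume)
    {A B C K : Finset ℤ} {D : ℤ} (hD : 0 ≤ D)
    (hAB : ∀ a ∈ A, ∀ b ∈ B, 1 ≤ a - b ∧ a - b ≤ D)
    (hC : ∀ a ∈ A, ∀ b ∈ B, 2 * b - a ∈ C)
    (hK : ∀ k ∈ K, ∃ a ∈ A, ∃ b ∈ B, k = 2 * a - b) :
    ENNReal.ofReal (1 / 48 / ((D : ℝ) + 1)) * (ENNReal.ofReal ((K.card : ℝ) / 16)) ^ (1 / r) ≤
      ENNReal.ofReal Cst * (A.card : ENNReal) ^ (1 / p₁) * (B.card : ENNReal) ^ (1 / p₂) *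
        (C.card : ENNReal) ^ (1 / p₃) := by
  set g : ℝ → ℂ := fun x => ((∫ t, kern A B C x t : ℝ) : ℂ) with hg
  have h := hbd (combS A) (combS B) (combS C) g (fun x => tendsto_truncated hAB x)
  have e1 : (ENNReal.ofReal p₁).toReal = p₁ := ENNReal.toReal_ofReal hp₁.le
  have e2 : (ENNReal.ofReal p₂).toReal = p₂ := ENNReal.toReal_ofReal hp₂.le
  have e3 : (ENNReal.ofReal p₃).toReal = p₃ := ENNReal.toReal_ofReal hp₃.le
  have er : (ENNReal.ofReal r).toReal = r := ENNReal.toReal_ofReal hr.le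
  have n1 : ENNReal.ofReal p₁ ≠ 0 := (ENNReal.ofReal_pos.2 hp₁).ne'
  have n2 : ENNReal.ofReal p₂ ≠ 0 := (ENNReal.ofReal_pos.2 hp₂).ne'
  have n3 : ENNReal.ofReal p₃ ≠ 0 := (ENNReal.ofReal_pos.2 hp₃).ne'
  have nr : ENNReal.ofReal r ≠ 0 := (ENNReal.ofReal_pos.2 hr).ne'
  have hA := eLpNorm_combS_le A n1 ENNReal.ofReal_ne_top
  have hB := eLpNorm_combS_le B n2 ENNReal.ofReal_ne_top
  have hC' := eLpNorm_combS_le C n3 ENNReal.ofReal_ne_top
  rw [e1] at hA
  rw [e2] at hB
  rw [e3] at hC'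
  set c : ℝ := 1 / 48 / ((D : ℝ) + 1) with hc
  have hD' : (0 : ℝ) ≤ (D : ℝ) := by exact_mod_cast hD
  have hc0 : 0 ≤ c := by positivity
  set E : Set ℝ := ⋃ k ∈ K, Icc ((k : ℝ) + 1 / 8) (k + 3 / 16) with hE
  have hEm : MeasurableSet E := Finset.measurableSet_biUnion K (fun k _ => measurableSet_Icc)
  have hlow : ∀ x, ‖E.indicator (fun _ => c) x‖ ≤ ‖g x‖ := by
    intro x
    have hgx : ‖g x‖ = ∫ t, kern A B C x t := by
      simp only [hg]
      rw [Complex.norm_real, Real.norm_of_nonneg (integral_nonneg (kern_nonneg hAB x))]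
    by_cases hx : x ∈ E
    · rw [Set.indicator_of_mem hx, Real.norm_of_nonneg hc0, hgx]
      simp only [hE, mem_iUnion] at hx
      obtain ⟨k, hk, hx1, hx2⟩ := hx
      obtain ⟨a, ha, b, hb, rfl⟩ := hK k hk
      apply kern_integral_ge hAB ha hb (hC a ha b hb)
      · push_cast at hx1
        linarith
      · push_cast at hx2
        linarith
    · rw [Set.indicator_of_notMem hx]
      simp
  have hmono : eLpNorm (E.indicator (fun _ => c)) (ENNReal.ofReal r) volume ≤
      eLpNorm g (ENNReal.ofReal r) volume := eLpNorm_mono hlow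
  rw [eLpNorm_indicator_const hEm nr ENNReal.ofReal_ne_top, er] at hmono
  have hvolE : volume E = ENNReal.ofReal ((K.card : ℝ) / 16) := by
    have hdisj : Set.PairwiseDisjoint (↑K : Set ℤ)
        (fun k : ℤ => Icc ((k : ℝ) + 1 / 8) (k + 3 / 16)) := by
      intro k _ k' _ hne
      apply Set.disjoint_left.2
      intro x hx hx'
      apply hne
      have h3 : ((k : ℝ) - k') < 1 := by linarith [hx.1, hx.2, hx'.1, hx'.2]
      have h4 : ((k' : ℝ) - k) < 1 := by linarith [hx.1, hx.2, hx'.1, hx'.2]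
      have h5 : (k - k' : ℤ) < 1 := by exact_mod_cast h3
      have h6 : (k' - k : ℤ) < 1 := by exact_mod_cast h4
      omega
    rw [hE, measure_biUnion_finset hdisj (fun k _ => measurableSet_Icc)]
    simp only [Real.volume_Icc]
    have hlen : ∀ k : ℤ, (k : ℝ) + 3 / 16 - (k + 1 / 8) = 1 / 16 := by
      intro k
      ring
    simp only [hlen, Finset.sum_const, nsmul_eq_mul]
    rw [← ENNReal.ofReal_natCast, ← ENNReal.ofReal_mul (by positivity)]
    congr 1
    ring
  rw [hvolE, Real.enorm_eq_ofReal hc0] at hmono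
  calc ENNReal.ofReal c * ENNReal.ofReal ((K.card : ℝ) / 16) ^ (1 / r)
      ≤ eLpNorm g (ENNReal.ofReal r) volume := hmono
    _ ≤ ENNReal.ofReal Cst * eLpNorm (combS A) (ENNReal.ofReal p₁) volume *
          eLpNorm (combS B) (ENNReal.ofReal p₂) volume *
          eLpNorm (combS C) (ENNReal.ofReal p₃) volume := h
    _ ≤ ENNReal.ofReal Cst * (A.card : ENNReal) ^ (1 / p₁) * (B.card : ENNReal) ^ (1 / p₂) *
          (C.card : ENNReal) ^ (1 / p₃) :=
        mul_le_mul' (mul_le_mul' (mul_le_mul' le_rfl hA) hB) hC'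

/-! ### The final contradiction -/

theorem unbounded_of_cond {p₁ p₂ p₃ r : ℝ} (hp₁ : 0 < p₁) (hp₂ : 0 < p₂) (hp₃ : 0 < p₃)
    (hr : 0 < r) (hH : 1 / r = 1 / p₁ + 1 / p₂ + 1 / p₃)
    (hcond : (7 : ℝ) ^ (1 / p₃) < 4 ^ (1 / r + 1 / p₃ - 2)) :
    ¬ ∃ Cst : ℝ, ∀ (f₁ f₂ f₃ : SchwartzMap ℝ ℂ) (g : ℝ → ℂ),
      (∀ x : ℝ, Filter.Tendsto (fun q : ℝ × ℝ => ∫ t in {t : ℝ | q.1 < |t| ∧ |t| < q.2},
          f₁ (x - t) * f₂ (x - 2 * t) * f₃ (x - 3 * t) / (t : ℂ))
        ((nhdsWithin 0 (Set.Ioi 0)) ×ˢ Filter.atTop) (nhds (g x))) →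
      eLpNorm g (ENNReal.ofReal r) volume ≤ ENNReal.ofReal Cst *
        eLpNorm f₁ (ENNReal.ofReal p₁) volume * eLpNorm f₂ (ENNReal.ofReal p₂) volume *
        eLpNorm f₃ (ENNReal.ofReal p₃) volume := by
  rintro ⟨Cst, hbd⟩
  have hr' : 0 ≤ 1 / r := by positivity
  have hq₁ : 0 ≤ 1 / p₁ := by positivity
  have hq₂ : 0 ≤ 1 / p₂ := by positivity
  have hq₃ : 0 ≤ 1 / p₃ := by positivity
  -- the real inequality for every level `L`
  have key : ∀ L : ℕ, 1 / 48 / (2 * (16 : ℝ) ^ L) * ((16 : ℝ) ^ L / 16) ^ (1 / r) ≤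
      max Cst 0 * ((4 : ℝ) ^ L) ^ (1 / p₁) * ((4 : ℝ) ^ L) ^ (1 / p₂) *
        ((7 : ℝ) ^ L) ^ (1 / p₃) := by
    intro L
    have hDnn : (0 : ℤ) ≤ 2 * 16 ^ L - 1 := by
      have h16 : (1 : ℤ) ≤ 16 ^ L := one_le_pow₀ (by norm_num)
      omega
    have h := main_ineq hp₁ hp₂ hp₃ hr hbd (D := 2 * 16 ^ L - 1) hDnn
      (diff_bounds L) (ap_mem L) (K := Finset.Icc (lo L) (hi L))
      (fun k hk => rep L k (Finset.mem_Icc.1 hk).1 (Finset.mem_Icc.1 hk).2)
    rw [card_Icc_lo_hi] at h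
    have hDcast : (((2 * 16 ^ L - 1 : ℤ)) : ℝ) + 1 = 2 * (16 : ℝ) ^ L := by
      push_cast
      ring
    rw [hDcast] at h
    have hKcast : (((16 ^ L : ℕ)) : ℝ) = (16 : ℝ) ^ L := by push_cast; ring
    rw [hKcast] at h
    have hA : ((setA L).card : ENNReal) ≤ ENNReal.ofReal ((4 : ℝ) ^ L) := by
      rw [← ENNReal.ofReal_natCast]
      apply ENNReal.ofReal_le_ofReal
      exact_mod_cast card_setA L
    have hB : ((setB L).card : ENNReal) ≤ ENNReal.ofReal ((4 : ℝ) ^ L) := by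
      rw [← ENNReal.ofReal_natCast]
      apply ENNReal.ofReal_le_ofReal
      exact_mod_cast card_setB L
    have hC : ((setC L).card : ENNReal) ≤ ENNReal.ofReal ((7 : ℝ) ^ L) := by
      rw [← ENNReal.ofReal_natCast]
      apply ENNReal.ofReal_le_ofReal
      exact_mod_cast card_setC L
    have hCst : ENNReal.ofReal Cst ≤ ENNReal.ofReal (max Cst 0) :=
      ENNReal.ofReal_le_ofReal (le_max_left _ _)
    have h' : ENNReal.ofReal (1 / 48 / (2 * (16 : ℝ) ^ L) * ((16 : ℝ) ^ L / 16) ^ (1 / r)) ≤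
        ENNReal.ofReal (max Cst 0 * ((4 : ℝ) ^ L) ^ (1 / p₁) * ((4 : ℝ) ^ L) ^ (1 / p₂) *
          ((7 : ℝ) ^ L) ^ (1 / p₃)) := by
      rw [ENNReal.ofReal_mul (by positivity),
        ← ENNReal.ofReal_rpow_of_nonneg (by positivity) hr',
        ENNReal.ofReal_mul (by positivity), ENNReal.ofReal_mul (by positivity),
        ENNReal.ofReal_mul (le_max_right _ _),
        ← ENNReal.ofReal_rpow_of_nonneg (by positivity) hq₁,
        ← ENNReal.ofReal_rpow_of_nonneg (by positivity) hq₂,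
        ← ENNReal.ofReal_rpow_of_nonneg (by positivity) hq₃]
      refine h.trans ?_
      exact mul_le_mul' (mul_le_mul' (mul_le_mul' hCst (ENNReal.rpow_le_rpow hA hq₁))
        (ENNReal.rpow_le_rpow hB hq₂)) (ENNReal.rpow_le_rpow hC hq₃)
    exact (ENNReal.ofReal_le_ofReal_iff (by positivity)).1 h'
  -- rewrite as `K0 * U ^ L ≤ C' * V ^ L`
  set U : ℝ := (16 : ℝ) ^ (1 / r) / 16 with hU
  set V : ℝ := (4 : ℝ) ^ (1 / p₁) * (4 : ℝ) ^ (1 / p₂) * (7 : ℝ) ^ (1 / p₃) with hV
  set K0 : ℝ := 1 / 96 * (1 / 16 : ℝ) ^ (1 / r) with hK0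
  have hK0pos : 0 < K0 := by positivity
  have hVpos : 0 < V := by positivity
  have key2 : ∀ L : ℕ, K0 * U ^ L ≤ max Cst 0 * V ^ L := by
    intro L
    have h := key L
    have e1 : ((16 : ℝ) ^ L / 16) ^ (1 / r) = (1 / 16 : ℝ) ^ (1 / r) * ((16 : ℝ) ^ (1 / r)) ^ L := by
      rw [Real.rpow_pow_comm (by norm_num), ← Real.mul_rpow (by norm_num) (by positivity)]
      congr 1
      ring
    have e2 : ((4 : ℝ) ^ L) ^ (1 / p₁) = ((4 : ℝ) ^ (1 / p₁)) ^ L :=
      (Real.rpow_pow_comm (by norm_num) _ _).symm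
    have e3 : ((4 : ℝ) ^ L) ^ (1 / p₂) = ((4 : ℝ) ^ (1 / p₂)) ^ L :=
      (Real.rpow_pow_comm (by norm_num) _ _).symm
    have e4 : ((7 : ℝ) ^ L) ^ (1 / p₃) = ((7 : ℝ) ^ (1 / p₃)) ^ L :=
      (Real.rpow_pow_comm (by norm_num) _ _).symm
    rw [e1, e2, e3, e4] at h
    have lhs : K0 * U ^ L =
        1 / 48 / (2 * (16 : ℝ) ^ L) * ((1 / 16 : ℝ) ^ (1 / r) * ((16 : ℝ) ^ (1 / r)) ^ L) := by
      rw [hK0, hU, div_pow]
      field_simp
      ring
    have rhs : max Cst 0 * V ^ L = max Cst 0 * ((4 : ℝ) ^ (1 / p₁)) ^ L *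
        ((4 : ℝ) ^ (1 / p₂)) ^ L * ((7 : ℝ) ^ (1 / p₃)) ^ L := by
      rw [hV, mul_pow, mul_pow]
      ring
    rw [lhs, rhs]
    exact h
  -- `V < U`
  have hVU : V < U := by
    have h4 : (0 : ℝ) < 4 := by norm_num
    have hV' : V = (4 : ℝ) ^ (1 / r - 1 / p₃) * (7 : ℝ) ^ (1 / p₃) := by
      rw [hV, ← Real.rpow_add h4]
      congr 2
      rw [hH]
      ring
    have hU' : U = (4 : ℝ) ^ (1 / r - 1 / p₃) * (4 : ℝ) ^ (1 / r + 1 / p₃ - 2) := by
      rw [hU, ← Real.rpow_add h4]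
      have h16 : (16 : ℝ) = (4 : ℝ) ^ (2 : ℝ) := by norm_num
      have e : 1 / r - 1 / p₃ + (1 / r + 1 / p₃ - 2) = 2 * (1 / r) - 2 := by ring
      rw [e, Real.rpow_sub h4, Real.rpow_mul h4.le, ← h16]
    rw [hV', hU']
    exact mul_lt_mul_of_pos_left hcond (by positivity)
  have hratio : 1 < U / V := by
    rw [lt_div_iff₀ hVpos]
    linarith
  obtain ⟨L, hL⟩ := pow_unbounded_of_one_lt (max Cst 0 / K0) hratio
  have h := key2 L
  rw [div_pow, lt_div_iff₀ (by positivity), div_mul_eq_mul_div, div_lt_iff₀ hK0pos] at hL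
  linarith

end Vale.Agent.Helper25.TrilinearHT
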