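import Mathlib
import Vale.Agent.Helper25.TrilinearHT

/-!
# Helper file for P141: weighted comb functions

For a finite set `S` of integers and weights `w : ℤ → ℝ`, `wcomb S w x = ∑ s ∈ S, w s * φ (x - s)`
with the bump `φ` of `Vale.Agent.Helper25.TrilinearHT`.  We prove the lower bound for the
trilinear Hilbert transform of three weighted combs that is used in the digit construction.
-/

namespace Vale.Agent.Helper25.TrilinearW

open MeasureTheory Set
open Vale.Agent.Helper25.TrilinearHT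

/-- The weighted comb function. -/
noncomputable def wcomb (S : Finset ℤ) (w : ℤ → ℝ) (x : ℝ) : ℝ := ∑ s ∈ S, w s * bump (x - s)

section basic

variable {S : Finset ℤ} {w : ℤ → ℝ}

theorem wcomb_nonneg (hw : ∀ s, 0 ≤ w s) (x : ℝ) : 0 ≤ wcomb S w x :=
  Finset.sum_nonneg (fun s _ => mul_nonneg (hw s) (bump_nonneg _))

theorem wcomb_ne_zero {x : ℝ} (h : wcomb S w x ≠ 0) :
    ∃ s ∈ S, (s : ℝ) < x ∧ x < s + 1 / 4 := by
  obtain ⟨s, hs, hne⟩ := Finset.exists_ne_zero_of_sum_ne_zero h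
  have hb : bump (x - s) ≠ 0 := fun h0 => hne (by rw [h0, mul_zero])
  have := bump_ne_zero hb
  exact ⟨s, hs, by linarith [this.1], by linarith [this.2]⟩

theorem wcomb_eq_single {s : ℤ} (hs : s ∈ S) {x : ℝ} (h1 : (s : ℝ) < x) (h2 : x < s + 1 / 4) :
    wcomb S w x = w s * bump (x - s) := by
  apply Finset.sum_eq_single_of_mem s hs
  intro s' _ hne
  have hb : bump (x - s') = 0 := by
    by_contra h0
    have h3 := bump_ne_zero h0
    apply hne
    have h4 : ((s' : ℝ) - s) < 1 := by linarith [h3.1, h3.2]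
    have h5 : ((s : ℝ) - s') < 1 := by linarith [h3.1, h3.2]
    have h6 : (s' - s : ℤ) < 1 := by exact_mod_cast h4
    have h7 : (s - s' : ℤ) < 1 := by exact_mod_cast h5
    omega
  rw [hb, mul_zero]

theorem wcomb_le_of_mem (hw : ∀ s, 0 ≤ w s) {s : ℤ} (hs : s ∈ S) {x : ℝ} (h1 : (s : ℝ) < x)
    (h2 : x < s + 1 / 4) : wcomb S w x ≤ w s := by
  rw [wcomb_eq_single hs h1 h2]
  exact mul_le_of_le_one_right (hw s) (bump_le_one _)

theorem le_wcomb (hw : ∀ s, 0 ≤ w s) (hw0 : ∀ s, s ∉ S → w s = 0) (s : ℤ) {x : ℝ}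
    (h1 : 1 / 16 ≤ x - s) (h2 : x - s ≤ 3 / 16) : w s ≤ wcomb S w x := by
  by_cases hs : s ∈ S
  · rw [wcomb_eq_single hs (by linarith) (by linarith), bump_eq_one h1 h2, mul_one]
  · rw [hw0 s hs]
    exact wcomb_nonneg hw x

theorem wcomb_le_sum (hw : ∀ s, 0 ≤ w s) (x : ℝ) : wcomb S w x ≤ ∑ s ∈ S, w s := by
  unfold wcomb
  apply Finset.sum_le_sum
  intro s _
  exact mul_le_of_le_one_right (hw s) (bump_le_one _)

theorem wcomb_continuous (S : Finset ℤ) (w : ℤ → ℝ) : Continuous (wcomb S w) := by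
  unfold wcomb
  apply continuous_finsetSum
  intro s _
  exact continuous_const.mul (bump.continuous.comp (continuous_id.sub continuous_const))

end basic

/-- The complex-valued weighted comb function. -/
noncomputable def wcombC (S : Finset ℤ) (w : ℤ → ℝ) (x : ℝ) : ℂ := (wcomb S w x : ℂ)

theorem wcombC_contDiff (S : Finset ℤ) (w : ℤ → ℝ) : ContDiff ℝ (⊤ : ℕ∞) (wcombC S w) := by
  unfold wcombC wcomb
  have h1 : ContDiff ℝ (⊤ : ℕ∞) (fun x : ℝ => ∑ s ∈ S, w s * bump (x - s)) := by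
    apply ContDiff.sum
    intro s _
    exact contDiff_const.mul (bump.contDiff.comp (contDiff_id.sub contDiff_const))
  exact Complex.ofRealCLM.contDiff.comp h1

theorem wcombC_hasCompactSupport (S : Finset ℤ) (w : ℤ → ℝ) :
    HasCompactSupport (wcombC S w) := by
  apply HasCompactSupport.of_support_subset_isCompact
    (K := ⋃ s ∈ S, Icc (s : ℝ) (s + 1 / 4))
  · exact S.finite_toSet.isCompact_biUnion (fun s _ => isCompact_Icc)
  · intro x hx
    have hx' : wcomb S w x ≠ 0 := by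
      intro h0
      apply hx
      simp [wcombC, h0]
    obtain ⟨s, hs, h1, h2⟩ := wcomb_ne_zero hx'
    simp only [mem_iUnion]
    exact ⟨s, hs, h1.le, h2.le⟩

/-- The weighted comb function as a Schwartz function. -/
noncomputable def wcombS (S : Finset ℤ) (w : ℤ → ℝ) : SchwartzMap ℝ ℂ :=
  (wcombC_hasCompactSupport S w).toSchwartzMap (wcombC_contDiff S w)

theorem wcombS_apply (S : Finset ℤ) (w : ℤ → ℝ) (x : ℝ) :
    wcombS S w x = (wcomb S w x : ℂ) := rfl

/-! ### The `L^p` norm of a weighted comb function -/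

theorem eLpNorm_wcombS_le (S : Finset ℤ) {w : ℤ → ℝ} (hw : ∀ s, 0 ≤ w s) {p : ℝ} (hp : 0 < p) :
    eLpNorm (wcombS S w) (ENNReal.ofReal p) volume ≤
      (∑ s ∈ S, ENNReal.ofReal (w s ^ p)) ^ (1 / p) := by
  have hp0 : ENNReal.ofReal p ≠ 0 := (ENNReal.ofReal_pos.2 hp).ne'
  rw [eLpNorm_eq_lintegral_rpow_enorm_toReal hp0 ENNReal.ofReal_ne_top, ENNReal.toReal_ofReal hp.le]
  apply ENNReal.rpow_le_rpow _ (by positivity)
  have hpt : ∀ x : ℝ, ‖wcombS S w x‖ₑ ^ p ≤
      ∑ s ∈ S, (Icc (s : ℝ) (s + 1 / 4)).indicator (fun _ => ENNReal.ofReal (w s ^ p)) x := by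
    intro x
    have hn : ‖wcombS S w x‖ₑ = ENNReal.ofReal (wcomb S w x) := by
      rw [wcombS_apply, ← ofReal_norm, Complex.norm_real, Real.norm_of_nonneg (wcomb_nonneg hw x)]
    rw [hn]
    by_cases h0 : wcomb S w x = 0
    · rw [h0, ENNReal.ofReal_zero, ENNReal.zero_rpow_of_pos hp]
      exact zero_le
    · obtain ⟨s, hs, h1, h2⟩ := wcomb_ne_zero h0
      have hle : wcomb S w x ≤ w s := wcomb_le_of_mem hw hs h1 h2
      calc ENNReal.ofReal (wcomb S w x) ^ p ≤ ENNReal.ofReal (w s) ^ p :=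
            ENNReal.rpow_le_rpow (ENNReal.ofReal_le_ofReal hle) hp.le
        _ = ENNReal.ofReal (w s ^ p) := ENNReal.ofReal_rpow_of_nonneg (hw s) hp.le
        _ = (Icc (s : ℝ) (s + 1 / 4)).indicator (fun _ => ENNReal.ofReal (w s ^ p)) x := by
            rw [Set.indicator_of_mem (show x ∈ Icc (s : ℝ) (s + 1 / 4) from ⟨h1.le, h2.le⟩)]
        _ ≤ ∑ s ∈ S, (Icc (s : ℝ) (s + 1 / 4)).indicator
              (fun _ => ENNReal.ofReal (w s ^ p)) x :=
            Finset.single_le_sum (f := fun s : ℤ => (Icc (s : ℝ) (s + 1 / 4)).indicator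
              (fun _ => ENNReal.ofReal (w s ^ p)) x) (fun _ _ => zero_le) hs
  calc ∫⁻ x, ‖wcombS S w x‖ₑ ^ p
      ≤ ∫⁻ x, ∑ s ∈ S, (Icc (s : ℝ) (s + 1 / 4)).indicator
          (fun _ => ENNReal.ofReal (w s ^ p)) x := lintegral_mono hpt
    _ = ∑ s ∈ S, ∫⁻ x, (Icc (s : ℝ) (s + 1 / 4)).indicator
          (fun _ => ENNReal.ofReal (w s ^ p)) x :=
        lintegral_finsetSum _ (fun s _ => measurable_const.indicator measurableSet_Icc)
    _ ≤ ∑ s ∈ S, ENNReal.ofReal (w s ^ p) := by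
        apply Finset.sum_le_sum
        intro s _
        rw [lintegral_indicator_const measurableSet_Icc, Real.volume_Icc]
        have : (s : ℝ) + 1 / 4 - s = 1 / 4 := by ring
        rw [this]
        exact mul_le_of_le_one_right zero_le (ENNReal.ofReal_le_one.2 (by norm_num))

/-! ### The integrand of the trilinear Hilbert transform on weighted comb functions -/

/-- The real integrand `wcomb A u (x - t) * wcomb B v (x - 2 t) * wcomb C w (x - 3 t) / t`. -/
noncomputable def wkern (A B C : Finset ℤ) (u v w : ℤ → ℝ) (x t : ℝ) : ℝ :=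
  wcomb A u (x - t) * wcomb B v (x - 2 * t) * wcomb C w (x - 3 * t) / t

section kern

variable {A B C : Finset ℤ} {u v w : ℤ → ℝ} {D : ℤ}

theorem wkern_ne_zero (hAB : ∀ a ∈ A, ∀ b ∈ B, 1 ≤ a - b ∧ a - b ≤ D) {x t : ℝ}
    (h : wkern A B C u v w x t ≠ 0) : 3 / 4 < t ∧ t < D + 1 / 4 := by
  unfold wkern at h
  have hA : wcomb A u (x - t) ≠ 0 := by
    intro h0
    apply h
    rw [h0]
    ring
  have hB : wcomb B v (x - 2 * t) ≠ 0 := by
    intro h0
    apply h
    rw [h0]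
    ring
  obtain ⟨a, ha, a1, a2⟩ := wcomb_ne_zero hA
  obtain ⟨b, hb, b1, b2⟩ := wcomb_ne_zero hB
  obtain ⟨h1, h2⟩ := hAB a ha b hb
  have h1' : (1 : ℝ) ≤ (a : ℝ) - b := by exact_mod_cast h1
  have h2' : (a : ℝ) - b ≤ D := by exact_mod_cast h2
  constructor <;> linarith

theorem wkern_nonneg (hu : ∀ s, 0 ≤ u s) (hv : ∀ s, 0 ≤ v s) (hw : ∀ s, 0 ≤ w s)
    (hAB : ∀ a ∈ A, ∀ b ∈ B, 1 ≤ a - b ∧ a - b ≤ D) (x t : ℝ) :
    0 ≤ wkern A B C u v w x t := by
  by_cases h : wkern A B C u v w x t = 0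
  · rw [h]
  · have ht := (wkern_ne_zero hAB h).1
    unfold wkern
    apply div_nonneg _ (by linarith)
    exact mul_nonneg (mul_nonneg (wcomb_nonneg hu _) (wcomb_nonneg hv _)) (wcomb_nonneg hw _)

theorem wkern_le (hu : ∀ s, 0 ≤ u s) (hv : ∀ s, 0 ≤ v s) (hw : ∀ s, 0 ≤ w s)
    (hAB : ∀ a ∈ A, ∀ b ∈ B, 1 ≤ a - b ∧ a - b ≤ D) (x t : ℝ) :
    wkern A B C u v w x t ≤
      4 / 3 * ((∑ a ∈ A, u a) * (∑ b ∈ B, v b) * (∑ c ∈ C, w c)) := by
  have hM : 0 ≤ (∑ a ∈ A, u a) * (∑ b ∈ B, v b) * (∑ c ∈ C, w c) :=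
    mul_nonneg (mul_nonneg (Finset.sum_nonneg (fun s _ => hu s))
      (Finset.sum_nonneg (fun s _ => hv s))) (Finset.sum_nonneg (fun s _ => hw s))
  by_cases h : wkern A B C u v w x t = 0
  · rw [h]
    positivity
  · have ht := (wkern_ne_zero hAB h).1
    unfold wkern
    rw [div_le_iff₀ (by linarith)]
    have h1 : wcomb A u (x - t) * wcomb B v (x - 2 * t) * wcomb C w (x - 3 * t) ≤
        (∑ a ∈ A, u a) * (∑ b ∈ B, v b) * (∑ c ∈ C, w c) := by
      apply mul_le_mul (mul_le_mul (wcomb_le_sum hu _) (wcomb_le_sum hv _)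
        (wcomb_nonneg hv _) (Finset.sum_nonneg (fun s _ => hu s))) (wcomb_le_sum hw _)
        (wcomb_nonneg hw _)
      exact mul_nonneg (Finset.sum_nonneg (fun s _ => hu s)) (Finset.sum_nonneg (fun s _ => hv s))
    nlinarith

theorem wkern_measurable (x : ℝ) : Measurable (wkern A B C u v w x) := by
  unfold wkern
  apply Measurable.div
  · apply Measurable.mul
    · apply Measurable.mul
      · exact ((wcomb_continuous A u).comp (continuous_const.sub continuous_id)).measurable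
      · exact ((wcomb_continuous B v).comp
          (continuous_const.sub (continuous_const.mul continuous_id))).measurable
    · exact ((wcomb_continuous C w).comp
        (continuous_const.sub (continuous_const.mul continuous_id))).measurable
  · exact measurable_id

theorem wkern_integrable (hu : ∀ s, 0 ≤ u s) (hv : ∀ s, 0 ≤ v s) (hw : ∀ s, 0 ≤ w s)
    (hAB : ∀ a ∈ A, ∀ b ∈ B, 1 ≤ a - b ∧ a - b ≤ D) (x : ℝ) :
    Integrable (wkern A B C u v w x) volume := by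
  set M : ℝ := 4 / 3 * ((∑ a ∈ A, u a) * (∑ b ∈ B, v b) * (∑ c ∈ C, w c)) with hM
  have hM0 : 0 ≤ M := by
    have := wkern_le (C := C) hu hv hw hAB x 0
    have h0 : wkern A B C u v w x 0 = 0 := by
      unfold wkern
      simp
    rw [h0] at this
    exact this
  have hint : Integrable ((Icc (3 / 4 : ℝ) (D + 1 / 4)).indicator (fun _ => M)) volume := by
    rw [integrable_indicator_iff measurableSet_Icc]
    exact integrableOn_const (by simp)
  refine hint.mono' (wkern_measurable x).aestronglyMeasurable (Filter.Eventually.of_forall ?_)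
  intro t
  rw [Real.norm_of_nonneg (wkern_nonneg hu hv hw hAB x t)]
  by_cases h : wkern A B C u v w x t = 0
  · rw [h]
    exact Set.indicator_nonneg (fun _ _ => hM0) t
  · have ht := wkern_ne_zero hAB h
    rw [Set.indicator_of_mem (by exact ⟨ht.1.le, ht.2.le⟩)]
    exact wkern_le hu hv hw hAB x t

/-- Key lower bound: near an integer point `k` the integral of the integrand is at least
`(1/48) / (D + 1)` times the sum over all lines through `k`. -/
theorem wkern_integral_ge (hu : ∀ s, 0 ≤ u s) (hv : ∀ s, 0 ≤ v s) (hw : ∀ s, 0 ≤ w s)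
    (hu0 : ∀ s, s ∉ A → u s = 0) (hv0 : ∀ s, s ∉ B → v s = 0) (hw0 : ∀ s, s ∉ C → w s = 0)
    (hAB : ∀ a ∈ A, ∀ b ∈ B, 1 ≤ a - b ∧ a - b ≤ D) (k : ℤ) {x : ℝ}
    (hx1 : 1 / 8 ≤ x - k) (hx2 : x - k ≤ 3 / 16) :
    1 / 48 / ((D : ℝ) + 1) * ∑ a ∈ A, u a * v (2 * a - k) * w (3 * a - 2 * k) ≤
      ∫ t, wkern A B C u v w x t := by
  set I : ℤ → Set ℝ := fun a => Icc ((k : ℝ) - a) ((k : ℝ) - a + 1 / 48) with hI
  have hint := wkern_integrable (C := C) hu hv hw hAB x
  have hvol : ∀ a : ℤ, volume.real (I a) = 1 / 48 := by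
    intro a
    rw [Measure.real, hI, Real.volume_Icc]
    have : (k : ℝ) - a + 1 / 48 - ((k : ℝ) - a) = 1 / 48 := by ring
    rw [this, ENNReal.toReal_ofReal (by norm_num)]
  have hterm : ∀ a ∈ A, 1 / 48 / ((D : ℝ) + 1) * (u a * v (2 * a - k) * w (3 * a - 2 * k)) ≤
      ∫ t in I a, wkern A B C u v w x t := by
    intro a ha
    set m : ℝ := u a * v (2 * a - k) * w (3 * a - 2 * k) with hm
    have hm0 : 0 ≤ m := mul_nonneg (mul_nonneg (hu _) (hv _)) (hw _)
    have hpt : ∀ t ∈ I a, m / ((D : ℝ) + 1) ≤ wkern A B C u v w x t := by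
      intro t ht
      rw [hI, mem_Icc] at ht
      have hcA : u a ≤ wcomb A u (x - t) :=
        le_wcomb hu hu0 a (by linarith [ht.2]) (by linarith [ht.1])
      have hcB : v (2 * a - k) ≤ wcomb B v (x - 2 * t) := by
        apply le_wcomb hv hv0 (2 * a - k)
        · push_cast
          linarith [ht.2]
        · push_cast
          linarith [ht.1]
      have hcC : w (3 * a - 2 * k) ≤ wcomb C w (x - 3 * t) := by
        apply le_wcomb hw hw0 (3 * a - 2 * k)
        · push_cast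
          linarith [ht.2]
        · push_cast
          linarith [ht.1]
      have hprod : m ≤ wcomb A u (x - t) * wcomb B v (x - 2 * t) * wcomb C w (x - 3 * t) := by
        rw [hm]
        apply mul_le_mul (mul_le_mul hcA hcB (hv _) (wcomb_nonneg hu _)) hcC (hw _)
        exact mul_nonneg (wcomb_nonneg hu _) (wcomb_nonneg hv _)
      by_cases hmz : m = 0
      · rw [hmz, zero_div]
        exact wkern_nonneg hu hv hw hAB x t
      · have hb : 2 * a - k ∈ B := by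
          by_contra hb
          apply hmz
          rw [hm, hv0 _ hb]
          ring
        obtain ⟨h1, h2⟩ := hAB a ha (2 * a - k) hb
        have h1' : (1 : ℝ) ≤ (a : ℝ) - (2 * a - k) := by exact_mod_cast h1
        have h2' : (a : ℝ) - (2 * a - k) ≤ D := by exact_mod_cast h2
        have ht0 : 1 ≤ t := by linarith [ht.1]
        have htD : t ≤ (D : ℝ) + 1 := by linarith [ht.2]
        have hD1 : (0 : ℝ) < (D : ℝ) + 1 := by linarith
        unfold wkern
        rw [div_le_div_iff₀ hD1 (by linarith)]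
        nlinarith [mul_le_mul_of_nonneg_left htD hm0, mul_le_mul_of_nonneg_right hprod hD1.le]
    have h := setIntegral_ge_of_const_le_real (μ := volume) (s := I a) (c := m / ((D : ℝ) + 1))
      measurableSet_Icc (by rw [hI, Real.volume_Icc]; exact ENNReal.ofReal_ne_top) hpt
      hint.integrableOn
    rw [hvol a] at h
    calc 1 / 48 / ((D : ℝ) + 1) * m = m / ((D : ℝ) + 1) * (1 / 48) := by ring
      _ ≤ ∫ t in I a, wkern A B C u v w x t := h
  have hdisj : Set.Pairwise (↑A : Set ℤ) (Function.onFun Disjoint I) := by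
    intro a _ a' _ hne
    apply Set.disjoint_left.2
    intro t ht ht'
    rw [hI, mem_Icc] at ht ht'
    apply hne
    have h3 : ((a : ℝ) - a') < 1 := by linarith [ht.1, ht.2, ht'.1, ht'.2]
    have h4 : ((a' : ℝ) - a) < 1 := by linarith [ht.1, ht.2, ht'.1, ht'.2]
    have h5 : (a - a' : ℤ) < 1 := by exact_mod_cast h3
    have h6 : (a' - a : ℤ) < 1 := by exact_mod_cast h4
    omega
  calc 1 / 48 / ((D : ℝ) + 1) * ∑ a ∈ A, u a * v (2 * a - k) * w (3 * a - 2 * k)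
      = ∑ a ∈ A, 1 / 48 / ((D : ℝ) + 1) * (u a * v (2 * a - k) * w (3 * a - 2 * k)) :=
        Finset.mul_sum _ _ _
    _ ≤ ∑ a ∈ A, ∫ t in I a, wkern A B C u v w x t := Finset.sum_le_sum hterm
    _ = ∫ t in ⋃ a ∈ A, I a, wkern A B C u v w x t :=
        (integral_biUnion_finset A (fun a _ => measurableSet_Icc) hdisj
          (fun a _ => hint.integrableOn)).symm
    _ ≤ ∫ t, wkern A B C u v w x t :=
        setIntegral_le_integral hint
          (Filter.Eventually.of_forall (wkern_nonneg hu hv hw hAB x))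

/-- The truncated integrals defining the trilinear Hilbert transform of three weighted comb
functions converge (they are eventually constant) to the integral of `wkern`. -/
theorem tendsto_truncated_w (hAB : ∀ a ∈ A, ∀ b ∈ B, 1 ≤ a - b ∧ a - b ≤ D) (x : ℝ) :
    Filter.Tendsto (fun q : ℝ × ℝ => ∫ t in {t : ℝ | q.1 < |t| ∧ |t| < q.2},
        wcombS A u (x - t) * wcombS B v (x - 2 * t) * wcombS C w (x - 3 * t) / (t : ℂ))
      ((nhdsWithin 0 (Set.Ioi 0)) ×ˢ Filter.atTop)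
      (nhds ((∫ t, wkern A B C u v w x t : ℝ) : ℂ)) := by
  have hpt : ∀ t : ℝ,
      wcombS A u (x - t) * wcombS B v (x - 2 * t) * wcombS C w (x - 3 * t) / (t : ℂ) =
      ((wkern A B C u v w x t : ℝ) : ℂ) := by
    intro t
    simp only [wcombS_apply, wkern]
    push_cast
    ring
  have hev : ∀ᶠ q : ℝ × ℝ in (nhdsWithin 0 (Set.Ioi 0)) ×ˢ Filter.atTop,
      ((∫ t, wkern A B C u v w x t : ℝ) : ℂ) = ∫ t in {t : ℝ | q.1 < |t| ∧ |t| < q.2},
        wcombS A u (x - t) * wcombS B v (x - 2 * t) * wcombS C w (x - 3 * t) / (t : ℂ) := by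
    have h1 : ∀ᶠ e : ℝ in nhdsWithin 0 (Set.Ioi 0), e < 3 / 4 :=
      nhdsWithin_le_nhds (Iio_mem_nhds (by norm_num))
    have h2 : ∀ᶠ R : ℝ in Filter.atTop, (D : ℝ) + 1 / 4 < R := Filter.eventually_gt_atTop _
    filter_upwards [h1.prod_mk h2] with q hq
    simp only [hpt]
    rw [setIntegral_eq_integral_of_forall_compl_eq_zero]
    · exact (integral_ofReal (𝕜 := ℂ)).symm
    intro t ht
    by_contra h0
    have h0' : wkern A B C u v w x t ≠ 0 := by
      intro h00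
      apply h0
      rw [h00]
      simp
    have hk := wkern_ne_zero hAB h0'
    apply ht
    have htpos : 0 < t := by linarith [hk.1]
    rw [Set.mem_ofPred_eq, abs_of_pos htpos]
    exact ⟨by linarith [hq.1, hk.1], by linarith [hq.2, hk.2]⟩
  exact tendsto_const_nhds.congr' hev

end kern

/-! ### The single-scale inequality -/

/-- If the trilinear Hilbert transform is bounded with constant `Cst` at `(p₁, p₂, p₃; r)`, then
every admissible configuration of weights on the integers gives a numerical inequality. -/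
theorem main_ineq_w {p₁ p₂ p₃ r : ℝ} (hp₁ : 0 < p₁) (hp₂ : 0 < p₂) (hp₃ : 0 < p₃) (hr : 0 < r)
    {Cst : ℝ}
    (hbd : ∀ (f₁ f₂ f₃ : SchwartzMap ℝ ℂ) (g : ℝ → ℂ),
      (∀ x : ℝ, Filter.Tendsto (fun q : ℝ × ℝ => ∫ t in {t : ℝ | q.1 < |t| ∧ |t| < q.2},
          f₁ (x - t) * f₂ (x - 2 * t) * f₃ (x - 3 * t) / (t : ℂ))
        ((nhdsWithin 0 (Set.Ioi 0)) ×ˢ Filter.atTop) (nhds (g x))) →
      eLpNorm g (ENNReal.ofReal r) volume ≤ ENNReal.ofReal Cst *
        eLpNorm f₁ (ENNReal.ofReal p₁) volume * eLpNorm f₂ (ENNReal.ofReal p₂) volume *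
        eLpNorm f₃ (ENNReal.ofReal p₃) volume)
    {A B C K : Finset ℤ} {u v w : ℤ → ℝ} {D : ℤ} (hD : 0 ≤ D)
    (hu : ∀ s, 0 ≤ u s) (hv : ∀ s, 0 ≤ v s) (hw : ∀ s, 0 ≤ w s)
    (hu0 : ∀ s, s ∉ A → u s = 0) (hv0 : ∀ s, s ∉ B → v s = 0) (hw0 : ∀ s, s ∉ C → w s = 0)
    (hAB : ∀ a ∈ A, ∀ b ∈ B, 1 ≤ a - b ∧ a - b ≤ D) :
    1 / 48 / ((D : ℝ) + 1) *
        ((1 / 16 : ℝ) * ∑ k ∈ K, (∑ a ∈ A, u a * v (2 * a - k) * w (3 * a - 2 * k)) ^ r) ^
          (1 / r) ≤
      max Cst 0 * (∑ a ∈ A, u a ^ p₁) ^ (1 / p₁) * (∑ b ∈ B, v b ^ p₂) ^ (1 / p₂) *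
        (∑ c ∈ C, w c ^ p₃) ^ (1 / p₃) := by
  set g : ℝ → ℂ := fun x => ((∫ t, wkern A B C u v w x t : ℝ) : ℂ) with hg
  have h := hbd (wcombS A u) (wcombS B v) (wcombS C w) g (fun x => tendsto_truncated_w hAB x)
  have hA := eLpNorm_wcombS_le A hu hp₁
  have hB := eLpNorm_wcombS_le B hv hp₂
  have hC := eLpNorm_wcombS_le C hw hp₃
  set c : ℝ := 1 / 48 / ((D : ℝ) + 1) with hc
  have hD' : (0 : ℝ) ≤ (D : ℝ) := by exact_mod_cast hD
  have hc0 : 0 ≤ c := by positivity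
  set Sf : ℤ → ℝ := fun k => ∑ a ∈ A, u a * v (2 * a - k) * w (3 * a - 2 * k) with hSf
  have hS0 : ∀ k, 0 ≤ Sf k := fun k =>
    Finset.sum_nonneg (fun a _ => mul_nonneg (mul_nonneg (hu _) (hv _)) (hw _))
  set E : ℤ → Set ℝ := fun k => Icc ((k : ℝ) + 1 / 8) (k + 3 / 16) with hE
  have hr0 : ENNReal.ofReal r ≠ 0 := (ENNReal.ofReal_pos.2 hr).ne'
  have hr' : 0 ≤ 1 / r := by positivity
  have hsum0 : 0 ≤ ∑ k ∈ K, (c * Sf k) ^ r * (1 / 16) :=
    Finset.sum_nonneg (fun k _ => mul_nonneg (Real.rpow_nonneg (mul_nonneg hc0 (hS0 k)) _)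
      (by norm_num))
  have hlow : ENNReal.ofReal (∑ k ∈ K, (c * Sf k) ^ r * (1 / 16)) ≤ ∫⁻ x, ‖g x‖ₑ ^ r := by
    have hdisj : Set.PairwiseDisjoint (↑K : Set ℤ) E := by
      intro k _ k' _ hne
      apply Set.disjoint_left.2
      intro x hx hx'
      rw [hE, mem_Icc] at hx hx'
      apply hne
      have h3 : ((k : ℝ) - k') < 1 := by linarith [hx.1, hx.2, hx'.1, hx'.2]
      have h4 : ((k' : ℝ) - k) < 1 := by linarith [hx.1, hx.2, hx'.1, hx'.2]
      have h5 : (k - k' : ℤ) < 1 := by exact_mod_cast h3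
      have h6 : (k' - k : ℤ) < 1 := by exact_mod_cast h4
      omega
    calc ENNReal.ofReal (∑ k ∈ K, (c * Sf k) ^ r * (1 / 16))
        = ∑ k ∈ K, ENNReal.ofReal ((c * Sf k) ^ r * (1 / 16)) :=
          ENNReal.ofReal_sum_of_nonneg (fun k _ =>
            mul_nonneg (Real.rpow_nonneg (mul_nonneg hc0 (hS0 k)) _) (by norm_num))
      _ = ∑ k ∈ K, ∫⁻ _ in E k, ENNReal.ofReal ((c * Sf k) ^ r) := by
          apply Finset.sum_congr rfl
          intro k _
          rw [setLIntegral_const, hE, Real.volume_Icc,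
            ← ENNReal.ofReal_mul (Real.rpow_nonneg (mul_nonneg hc0 (hS0 k)) _)]
          congr 1
          ring
      _ ≤ ∑ k ∈ K, ∫⁻ x in E k, ‖g x‖ₑ ^ r := by
          apply Finset.sum_le_sum
          intro k _
          apply setLIntegral_mono' measurableSet_Icc
          intro x hx
          rw [mem_Icc] at hx
          have hge : c * Sf k ≤ ∫ t, wkern A B C u v w x t :=
            wkern_integral_ge hu hv hw hu0 hv0 hw0 hAB k (by linarith [hx.1]) (by linarith [hx.2])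
          have hn : ‖g x‖ₑ = ENNReal.ofReal (∫ t, wkern A B C u v w x t) := by
            rw [hg, ← ofReal_norm, Complex.norm_real,
              Real.norm_of_nonneg (integral_nonneg (wkern_nonneg hu hv hw hAB x))]
          rw [hn, ← ENNReal.ofReal_rpow_of_nonneg (mul_nonneg hc0 (hS0 k)) hr.le]
          exact ENNReal.rpow_le_rpow (ENNReal.ofReal_le_ofReal hge) hr.le
      _ = ∫⁻ x in ⋃ k ∈ K, E k, ‖g x‖ₑ ^ r :=
          (lintegral_biUnion_finset hdisj (fun k _ => measurableSet_Icc) _).symm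
      _ ≤ ∫⁻ x, ‖g x‖ₑ ^ r := setLIntegral_le_lintegral _ _
  have hg_low : ENNReal.ofReal ((∑ k ∈ K, (c * Sf k) ^ r * (1 / 16)) ^ (1 / r)) ≤
      eLpNorm g (ENNReal.ofReal r) volume := by
    rw [eLpNorm_eq_lintegral_rpow_enorm_toReal hr0 ENNReal.ofReal_ne_top,
      ENNReal.toReal_ofReal hr.le, ← ENNReal.ofReal_rpow_of_nonneg hsum0 hr']
    exact ENNReal.rpow_le_rpow hlow hr'
  have nA : 0 ≤ ∑ a ∈ A, u a ^ p₁ := Finset.sum_nonneg (fun s _ => Real.rpow_nonneg (hu s) _)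
  have nB : 0 ≤ ∑ b ∈ B, v b ^ p₂ := Finset.sum_nonneg (fun s _ => Real.rpow_nonneg (hv s) _)
  have nC : 0 ≤ ∑ c ∈ C, w c ^ p₃ := Finset.sum_nonneg (fun s _ => Real.rpow_nonneg (hw s) _)
  have eA : (∑ s ∈ A, ENNReal.ofReal (u s ^ p₁)) ^ (1 / p₁) =
      ENNReal.ofReal ((∑ a ∈ A, u a ^ p₁) ^ (1 / p₁)) := by
    rw [← ENNReal.ofReal_sum_of_nonneg (fun s _ => Real.rpow_nonneg (hu s) _),
      ENNReal.ofReal_rpow_of_nonneg nA (by positivity)]
  have eB : (∑ s ∈ B, ENNReal.ofReal (v s ^ p₂)) ^ (1 / p₂) =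
      ENNReal.ofReal ((∑ b ∈ B, v b ^ p₂) ^ (1 / p₂)) := by
    rw [← ENNReal.ofReal_sum_of_nonneg (fun s _ => Real.rpow_nonneg (hv s) _),
      ENNReal.ofReal_rpow_of_nonneg nB (by positivity)]
  have eC : (∑ s ∈ C, ENNReal.ofReal (w s ^ p₃)) ^ (1 / p₃) =
      ENNReal.ofReal ((∑ c ∈ C, w c ^ p₃) ^ (1 / p₃)) := by
    rw [← ENNReal.ofReal_sum_of_nonneg (fun s _ => Real.rpow_nonneg (hw s) _),
      ENNReal.ofReal_rpow_of_nonneg nC (by positivity)]
  have qA : 0 ≤ (∑ a ∈ A, u a ^ p₁) ^ (1 / p₁) := Real.rpow_nonneg nA _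
  have qB : 0 ≤ (∑ b ∈ B, v b ^ p₂) ^ (1 / p₂) := Real.rpow_nonneg nB _
  have qC : 0 ≤ (∑ c ∈ C, w c ^ p₃) ^ (1 / p₃) := Real.rpow_nonneg nC _
  have hm0 : 0 ≤ max Cst 0 := le_max_right _ _
  have hup : eLpNorm g (ENNReal.ofReal r) volume ≤
      ENNReal.ofReal (max Cst 0 * (∑ a ∈ A, u a ^ p₁) ^ (1 / p₁) *
        (∑ b ∈ B, v b ^ p₂) ^ (1 / p₂) * (∑ c ∈ C, w c ^ p₃) ^ (1 / p₃)) := by
    rw [ENNReal.ofReal_mul (mul_nonneg (mul_nonneg hm0 qA) qB),
      ENNReal.ofReal_mul (mul_nonneg hm0 qA), ENNReal.ofReal_mul hm0, ← eA, ← eB, ← eC]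
    refine h.trans ?_
    exact mul_le_mul' (mul_le_mul' (mul_le_mul'
      (ENNReal.ofReal_le_ofReal (le_max_left _ _)) hA) hB) hC
  have hfin := (ENNReal.ofReal_le_ofReal_iff
    (mul_nonneg (mul_nonneg (mul_nonneg hm0 qA) qB) qC)).1 (hg_low.trans hup)
  have hrw : (∑ k ∈ K, (c * Sf k) ^ r * (1 / 16)) ^ (1 / r) =
      c * ((1 / 16 : ℝ) * ∑ k ∈ K, (Sf k) ^ r) ^ (1 / r) := by
    have h1 : ∑ k ∈ K, (c * Sf k) ^ r * (1 / 16) = c ^ r * ((1 / 16 : ℝ) * ∑ k ∈ K, (Sf k) ^ r) := by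
      rw [Finset.mul_sum, Finset.mul_sum]
      apply Finset.sum_congr rfl
      intro k _
      rw [Real.mul_rpow hc0 (hS0 k)]
      ring
    have hY : 0 ≤ (1 / 16 : ℝ) * ∑ k ∈ K, (Sf k) ^ r :=
      mul_nonneg (by norm_num) (Finset.sum_nonneg (fun k _ => Real.rpow_nonneg (hS0 k) _))
    rw [h1, Real.mul_rpow (Real.rpow_nonneg hc0 _) hY, ← Real.rpow_mul hc0,
      mul_one_div_cancel hr.ne', Real.rpow_one]
  rw [hrw] at hfin
  exact hfin

end Vale.Agent.Helper25.TrilinearW
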