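import Mathlib
import Vale.Agent.Helper25.TrilinearW

/-!
# Helper file for P141: the digit (self-similar) construction with weights

Given weights `u, v, w` on finite digit sets `A, B, C` (each inside a window of length `q`) we
build weights on the integers with base-`q` digits in these sets, as products over the digits.
The sum over lines `S k = ∑ a, u a * v (2a - k) * w (3a - 2k)` is super-multiplicative along the
construction, the `ℓ^p` sums are multiplicative; together with the single-scale inequality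
`main_ineq_w` this gives the principle `unbounded_of_gain`.
-/

namespace Vale.Agent.Helper25.TrilinearDigits

open MeasureTheory
open Vale.Agent.Helper25.TrilinearW

/-- One more base-`q` digit: `{q s + d : s ∈ S, d ∈ dig}`. -/
def nxt (q : ℤ) (S dig : Finset ℤ) : Finset ℤ := (S ×ˢ dig).image (fun p => q * p.1 + p.2)

theorem mem_nxt {q : ℤ} {S dig : Finset ℤ} {x : ℤ} :
    x ∈ nxt q S dig ↔ ∃ s ∈ S, ∃ d ∈ dig, x = q * s + d := by
  unfold nxt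
  simp only [Finset.mem_image, Finset.mem_product, Prod.exists]
  constructor
  · rintro ⟨s, d, ⟨hs, hd⟩, rfl⟩
    exact ⟨s, hs, d, hd, rfl⟩
  · rintro ⟨s, hs, d, hd, rfl⟩
    exact ⟨s, d, ⟨hs, hd⟩, rfl⟩

/-- The weight of `n = q n' + d` (digit `d` in the window `[o, o + q)`) is `F n' * u d`. -/
noncomputable def ext (q o : ℤ) (F u : ℤ → ℝ) (n : ℤ) : ℝ :=
  F ((n - o) / q) * u (o + (n - o) % q)

theorem ext_apply {q o : ℤ} (hq : 0 < q) (F u : ℤ → ℝ) (n d : ℤ) (h1 : o ≤ d)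
    (h2 : d < o + q) : ext q o F u (q * n + d) = F n * u d := by
  unfold ext
  have e0 : q * n + d - o = (d - o) + q * n := by ring
  have e1 : (q * n + d - o) / q = n := by
    rw [e0, Int.add_mul_ediv_left _ _ hq.ne', Int.ediv_eq_zero_of_lt (by omega) (by omega)]
    simp
  have e2 : (q * n + d - o) % q = d - o := by
    rw [e0, Int.add_mul_emod_self_left, Int.emod_eq_of_lt (by omega) (by omega)]
  rw [e1, e2]
  congr 2
  ring

/-- The level sets: `lvS q S0 dig L` consists of the numbers `q^L s + (L digits in dig)`. -/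
def lvS (q : ℤ) (S0 dig : Finset ℤ) : ℕ → Finset ℤ
  | 0 => S0
  | L + 1 => nxt q (lvS q S0 dig L) dig

/-- The level weights: products of the digit weights. -/
noncomputable def lvW (q o : ℤ) (u0 u : ℤ → ℝ) : ℕ → ℤ → ℝ
  | 0 => u0
  | L + 1 => ext q o (lvW q o u0 u L) u

section one

variable {q o : ℤ} {S0 dig : Finset ℤ} {u0 u : ℤ → ℝ}

theorem lvW_nonneg (hu : ∀ s, 0 ≤ u s) (hb : ∀ s, 0 ≤ u0 s) :
    ∀ (L : ℕ) (n : ℤ), 0 ≤ lvW q o u0 u L n := by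
  intro L
  induction L with
  | zero => exact hb
  | succ L ih =>
    intro n
    simp only [lvW, ext]
    exact mul_nonneg (ih _) (hu _)

theorem lvW_zero (hu0 : ∀ s, s ∉ dig → u s = 0) (hb0 : ∀ s, s ∉ S0 → u0 s = 0) :
    ∀ (L : ℕ) (n : ℤ), n ∉ lvS q S0 dig L → lvW q o u0 u L n = 0 := by
  intro L
  induction L with
  | zero => exact hb0
  | succ L ih =>
    intro n hn
    by_contra hne
    apply hn
    simp only [lvW, ext] at hne
    have h1 : lvW q o u0 u L ((n - o) / q) ≠ 0 := fun h0 => hne (by rw [h0, zero_mul])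
    have h2 : u (o + (n - o) % q) ≠ 0 := fun h0 => hne (by rw [h0, mul_zero])
    have m1 : (n - o) / q ∈ lvS q S0 dig L := by
      by_contra hm
      exact h1 (ih _ hm)
    have m2 : o + (n - o) % q ∈ dig := by
      by_contra hm
      exact h2 (hu0 _ hm)
    simp only [lvS]
    rw [mem_nxt]
    refine ⟨_, m1, _, m2, ?_⟩
    have := Int.mul_ediv_add_emod (n - o) q
    linarith

theorem lvW_succ_apply (hq : 0 < q) (hdig : ∀ d ∈ dig, o ≤ d ∧ d < o + q) (L : ℕ) (n : ℤ)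
    {d : ℤ} (hd : d ∈ dig) :
    lvW q o u0 u (L + 1) (q * n + d) = lvW q o u0 u L n * u d := by
  simp only [lvW]
  exact ext_apply hq _ _ n d (hdig d hd).1 (hdig d hd).2

theorem lvW_succ_ge (hq : 0 < q) (hdig : ∀ d ∈ dig, o ≤ d ∧ d < o + q)
    (hu : ∀ s, 0 ≤ u s) (hu0 : ∀ s, s ∉ dig → u s = 0) (hb : ∀ s, 0 ≤ u0 s) (L : ℕ) (n d : ℤ) :
    lvW q o u0 u L n * u d ≤ lvW q o u0 u (L + 1) (q * n + d) := by
  by_cases hd : d ∈ dig
  · rw [lvW_succ_apply hq hdig L n hd]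
  · rw [hu0 d hd, mul_zero]
    exact lvW_nonneg hu hb _ _

theorem nxt_inj (hq : 0 < q) (hdig : ∀ d ∈ dig, o ≤ d ∧ d < o + q) (S : Finset ℤ) :
    Set.InjOn (fun p : ℤ × ℤ => q * p.1 + p.2) (↑(S ×ˢ dig) : Set (ℤ × ℤ)) := by
  rintro ⟨n, d⟩ hp ⟨n', d'⟩ hp' h
  simp only [Finset.coe_product, Set.mem_prod, Finset.mem_coe] at hp hp'
  simp only at h
  obtain ⟨d1, d2⟩ := hdig d hp.2
  obtain ⟨d1', d2'⟩ := hdig d' hp'.2
  have hn : n = n' := by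
    by_contra hne
    rcases lt_or_gt_of_ne hne with hlt | hlt
    · have : q * (n + 1) ≤ q * n' := mul_le_mul_of_nonneg_left (by omega) hq.le
      nlinarith
    · have : q * (n' + 1) ≤ q * n := mul_le_mul_of_nonneg_left (by omega) hq.le
      nlinarith
  subst hn
  have hd : d = d' := by linarith
  rw [hd]

theorem sum_lvW_rpow_succ (hq : 0 < q) (hdig : ∀ d ∈ dig, o ≤ d ∧ d < o + q)
    (hu : ∀ s, 0 ≤ u s) (hb : ∀ s, 0 ≤ u0 s) (p : ℝ) (L : ℕ) :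
    ∑ n ∈ lvS q S0 dig (L + 1), lvW q o u0 u (L + 1) n ^ p =
      (∑ n ∈ lvS q S0 dig L, lvW q o u0 u L n ^ p) * ∑ d ∈ dig, u d ^ p := by
  simp only [lvS]
  unfold nxt
  rw [Finset.sum_image (nxt_inj hq hdig _), Finset.sum_product, Finset.sum_mul_sum]
  apply Finset.sum_congr rfl
  intro n _
  apply Finset.sum_congr rfl
  intro d hd
  rw [lvW_succ_apply hq hdig L n hd, Real.mul_rpow (lvW_nonneg hu hb _ _) (hu _)]

theorem sum_lvW_rpow (hq : 0 < q) (hdig : ∀ d ∈ dig, o ≤ d ∧ d < o + q)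
    (hu : ∀ s, 0 ≤ u s) (hb : ∀ s, 0 ≤ u0 s) (p : ℝ) (L : ℕ) :
    ∑ n ∈ lvS q S0 dig L, lvW q o u0 u L n ^ p =
      (∑ n ∈ S0, u0 n ^ p) * (∑ d ∈ dig, u d ^ p) ^ L := by
  induction L with
  | zero => simp [lvS, lvW]
  | succ L ih =>
    rw [sum_lvW_rpow_succ hq hdig hu hb, ih, pow_succ]
    ring

end one

/-- The indicator weight of a single integer. -/
noncomputable def ind (s0 : ℤ) (n : ℤ) : ℝ := if n = s0 then 1 else 0

theorem ind_nonneg (s0 n : ℤ) : 0 ≤ ind s0 n := by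
  unfold ind
  split_ifs <;> norm_num

theorem ind_zero (s0 : ℤ) : ∀ s, s ∉ ({s0} : Finset ℤ) → ind s0 s = 0 := by
  intro s hs
  unfold ind
  rw [if_neg]
  simpa using hs

theorem sum_ind_rpow (s0 : ℤ) (p : ℝ) : ∑ n ∈ ({s0} : Finset ℤ), ind s0 n ^ p = 1 := by
  simp [ind]

/-- The bound on the differences at level `L`. -/
def DL (q D : ℤ) : ℕ → ℤ
  | 0 => 1
  | L + 1 => q * DL q D L + D

theorem DL_le {q D : ℤ} (hq : 2 ≤ q) (hD : 0 ≤ D) (L : ℕ) :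
    1 ≤ DL q D L ∧ DL q D L ≤ (D + 1) * q ^ L - D := by
  induction L with
  | zero => simp [DL]
  | succ L ih =>
    obtain ⟨h1, h2⟩ := ih
    simp only [DL]
    rw [pow_succ]
    constructor
    · nlinarith
    · nlinarith

theorem pos_lv {q D : ℤ} (hq : 2 ≤ q) {A B : Finset ℤ}
    (hAB : ∀ a ∈ A, ∀ b ∈ B, 1 ≤ a - b ∧ a - b ≤ D) :
    ∀ (L : ℕ), ∀ n ∈ lvS q {1} A L, ∀ m ∈ lvS q {0} B L, 1 ≤ n - m ∧ n - m ≤ DL q D L := by
  intro L
  induction L with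
  | zero =>
    intro n hn m hm
    simp only [lvS, Finset.mem_singleton] at hn hm
    subst hn hm
    simp [DL]
  | succ L ih =>
    intro n hn m hm
    simp only [lvS] at hn hm
    obtain ⟨n', hn', a, ha, rfl⟩ := mem_nxt.1 hn
    obtain ⟨m', hm', b, hb, rfl⟩ := mem_nxt.1 hm
    obtain ⟨h1, h2⟩ := ih n' hn' m' hm'
    obtain ⟨h3, h4⟩ := hAB a ha b hb
    simp only [DL]
    constructor
    · nlinarith
    · nlinarith

/-- The sum over the lines through `k`. -/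
noncomputable def Sf (A : Finset ℤ) (u v w : ℤ → ℝ) (k : ℤ) : ℝ :=
  ∑ a ∈ A, u a * v (2 * a - k) * w (3 * a - 2 * k)

theorem Sf_nonneg {A : Finset ℤ} {u v w : ℤ → ℝ} (hu : ∀ s, 0 ≤ u s) (hv : ∀ s, 0 ≤ v s)
    (hw : ∀ s, 0 ≤ w s) (k : ℤ) : 0 ≤ Sf A u v w k :=
  Finset.sum_nonneg (fun _ _ => mul_nonneg (mul_nonneg (hu _) (hv _)) (hw _))

section three

variable {q oA oB oC oK : ℤ} {A B C K : Finset ℤ} {u v w : ℤ → ℝ}

theorem Sf_succ_ge (hq : 0 < q)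
    (hA : ∀ a ∈ A, oA ≤ a ∧ a < oA + q) (hB : ∀ b ∈ B, oB ≤ b ∧ b < oB + q)
    (hC : ∀ c ∈ C, oC ≤ c ∧ c < oC + q)
    (hu : ∀ s, 0 ≤ u s) (hv : ∀ s, 0 ≤ v s) (hw : ∀ s, 0 ≤ w s)
    (hv0 : ∀ s, s ∉ B → v s = 0) (hw0 : ∀ s, s ∉ C → w s = 0) (L : ℕ) (k' k : ℤ) :
    Sf (lvS q {1} A L) (lvW q oA (ind 1) u L) (lvW q oB (ind 0) v L)
        (lvW q oC (ind (-1)) w L) k' * Sf A u v w k ≤
      Sf (lvS q {1} A (L + 1)) (lvW q oA (ind 1) u (L + 1)) (lvW q oB (ind 0) v (L + 1))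
        (lvW q oC (ind (-1)) w (L + 1)) (q * k' + k) := by
  unfold Sf
  simp only [lvS]
  unfold nxt
  rw [Finset.sum_image (nxt_inj hq hA _), Finset.sum_product, Finset.sum_mul_sum]
  apply Finset.sum_le_sum
  intro n _
  apply Finset.sum_le_sum
  intro a ha
  have e1 : 2 * (q * n + a) - (q * k' + k) = q * (2 * n - k') + (2 * a - k) := by ring
  have e2 : 3 * (q * n + a) - 2 * (q * k' + k) = q * (3 * n - 2 * k') + (3 * a - 2 * k) := by
    ring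
  rw [e1, e2, lvW_succ_apply hq hA L n ha]
  have hvge := lvW_succ_ge hq hB hv hv0 (ind_nonneg 0) L (2 * n - k') (2 * a - k)
  have hwge := lvW_succ_ge hq hC hw hw0 (ind_nonneg (-1)) L (3 * n - 2 * k') (3 * a - 2 * k)
  have n1 := lvW_nonneg (q := q) (o := oA) hu (ind_nonneg 1) L n
  have n2 := lvW_nonneg (q := q) (o := oB) hv (ind_nonneg 0) L (2 * n - k')
  have n3 := lvW_nonneg (q := q) (o := oC) hw (ind_nonneg (-1)) L (3 * n - 2 * k')
  calc lvW q oA (ind 1) u L n * lvW q oB (ind 0) v L (2 * n - k') *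
        lvW q oC (ind (-1)) w L (3 * n - 2 * k') * (u a * v (2 * a - k) * w (3 * a - 2 * k))
      = (lvW q oA (ind 1) u L n * u a) * (lvW q oB (ind 0) v L (2 * n - k') * v (2 * a - k)) *
          (lvW q oC (ind (-1)) w L (3 * n - 2 * k') * w (3 * a - 2 * k)) := by ring
    _ ≤ (lvW q oA (ind 1) u L n * u a) *
          lvW q oB (ind 0) v (L + 1) (q * (2 * n - k') + (2 * a - k)) *
          lvW q oC (ind (-1)) w (L + 1) (q * (3 * n - 2 * k') + (3 * a - 2 * k)) := by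
        apply mul_le_mul (mul_le_mul_of_nonneg_left hvge (mul_nonneg n1 (hu _))) hwge
          (mul_nonneg n3 (hw _))
        exact mul_nonneg (mul_nonneg n1 (hu _)) (lvW_nonneg hv (ind_nonneg 0) _ _)

theorem sum_Sf_rpow_ge (hq : 0 < q)
    (hA : ∀ a ∈ A, oA ≤ a ∧ a < oA + q) (hB : ∀ b ∈ B, oB ≤ b ∧ b < oB + q)
    (hC : ∀ c ∈ C, oC ≤ c ∧ c < oC + q) (hK : ∀ k ∈ K, oK ≤ k ∧ k < oK + q)
    (hu : ∀ s, 0 ≤ u s) (hv : ∀ s, 0 ≤ v s) (hw : ∀ s, 0 ≤ w s)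
    (hv0 : ∀ s, s ∉ B → v s = 0) (hw0 : ∀ s, s ∉ C → w s = 0) {r : ℝ} (hr : 0 ≤ r) (L : ℕ) :
    (∑ k ∈ K, Sf A u v w k ^ r) ^ L ≤
      ∑ k ∈ lvS q {2} K L, Sf (lvS q {1} A L) (lvW q oA (ind 1) u L) (lvW q oB (ind 0) v L)
        (lvW q oC (ind (-1)) w L) k ^ r := by
  induction L with
  | zero =>
    simp only [lvS, lvW, pow_zero, Finset.sum_singleton, Sf]
    have : ind 1 1 * ind 0 (2 * 1 - 2) * ind (-1) (3 * 1 - 2 * 2) = 1 := by
      simp [ind]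
    rw [this, Real.one_rpow]
  | succ L ih =>
    have hS0 : ∀ k, 0 ≤ Sf A u v w k := Sf_nonneg hu hv hw
    have hSL : ∀ k, 0 ≤ Sf (lvS q {1} A L) (lvW q oA (ind 1) u L) (lvW q oB (ind 0) v L)
        (lvW q oC (ind (-1)) w L) k :=
      Sf_nonneg (lvW_nonneg hu (ind_nonneg 1) L) (lvW_nonneg hv (ind_nonneg 0) L)
        (lvW_nonneg hw (ind_nonneg (-1)) L)
    have hG0 : 0 ≤ ∑ k ∈ K, Sf A u v w k ^ r :=
      Finset.sum_nonneg (fun k _ => Real.rpow_nonneg (hS0 k) _)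
    calc (∑ k ∈ K, Sf A u v w k ^ r) ^ (L + 1)
        = (∑ k ∈ K, Sf A u v w k ^ r) ^ L * ∑ k ∈ K, Sf A u v w k ^ r := pow_succ _ _
      _ ≤ (∑ k ∈ lvS q {2} K L, Sf (lvS q {1} A L) (lvW q oA (ind 1) u L)
            (lvW q oB (ind 0) v L) (lvW q oC (ind (-1)) w L) k ^ r) *
            ∑ k ∈ K, Sf A u v w k ^ r := mul_le_mul_of_nonneg_right ih hG0
      _ ≤ _ := by
        rw [Finset.sum_mul_sum]
        simp only [lvS]
        conv_rhs => unfold nxt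
        rw [Finset.sum_image (nxt_inj hq hK _), Finset.sum_product]
        apply Finset.sum_le_sum
        intro k' _
        apply Finset.sum_le_sum
        intro k _
        rw [← Real.mul_rpow (hSL k') (hS0 k)]
        apply Real.rpow_le_rpow (mul_nonneg (hSL k') (hS0 k)) _ hr
        exact Sf_succ_ge hq hA hB hC hu hv hw hv0 hw0 L k' k

end three

/-! ### The principle -/

/-- **Digit principle.** If nonnegative weights `u, v, w` on digit sets `A, B, C` (each inside a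
window of length `q`, with `1 ≤ a - b` for all `a ∈ A`, `b ∈ B`) and a set `K` inside a window
of length `q` satisfy
`q * ‖u‖_{p₁} * ‖v‖_{p₂} * ‖w‖_{p₃} < (∑ k ∈ K, (∑ a, u a * v (2a - k) * w (3a - 2k)) ^ r) ^ (1/r)`,
then the trilinear Hilbert transform is not bounded at `(p₁, p₂, p₃; r)`. -/
theorem unbounded_of_gain {p₁ p₂ p₃ r : ℝ} (hp₁ : 0 < p₁) (hp₂ : 0 < p₂) (hp₃ : 0 < p₃)
    (hr : 0 < r) {q : ℤ} (hq : 2 ≤ q) {oA oB oC oK : ℤ} {A B C K : Finset ℤ} {u v w : ℤ → ℝ}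
    {D : ℤ}
    (hA : ∀ a ∈ A, oA ≤ a ∧ a < oA + q) (hB : ∀ b ∈ B, oB ≤ b ∧ b < oB + q)
    (hC : ∀ c ∈ C, oC ≤ c ∧ c < oC + q) (hK : ∀ k ∈ K, oK ≤ k ∧ k < oK + q)
    (hu : ∀ s, 0 ≤ u s) (hv : ∀ s, 0 ≤ v s) (hw : ∀ s, 0 ≤ w s)
    (hu0 : ∀ s, s ∉ A → u s = 0) (hv0 : ∀ s, s ∉ B → v s = 0) (hw0 : ∀ s, s ∉ C → w s = 0)
    (hAB : ∀ a ∈ A, ∀ b ∈ B, 1 ≤ a - b ∧ a - b ≤ D)
    (hgain : (q : ℝ) * (∑ a ∈ A, u a ^ p₁) ^ (1 / p₁) * (∑ b ∈ B, v b ^ p₂) ^ (1 / p₂) *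
        (∑ c ∈ C, w c ^ p₃) ^ (1 / p₃) <
      (∑ k ∈ K, (∑ a ∈ A, u a * v (2 * a - k) * w (3 * a - 2 * k)) ^ r) ^ (1 / r)) :
    ¬ ∃ Cst : ℝ, ∀ (f₁ f₂ f₃ : SchwartzMap ℝ ℂ) (g : ℝ → ℂ),
      (∀ x : ℝ, Filter.Tendsto (fun q : ℝ × ℝ => ∫ t in {t : ℝ | q.1 < |t| ∧ |t| < q.2},
          f₁ (x - t) * f₂ (x - 2 * t) * f₃ (x - 3 * t) / (t : ℂ))
        ((nhdsWithin 0 (Set.Ioi 0)) ×ˢ Filter.atTop) (nhds (g x))) →
      eLpNorm g (ENNReal.ofReal r) volume ≤ ENNReal.ofReal Cst *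
        eLpNorm f₁ (ENNReal.ofReal p₁) volume * eLpNorm f₂ (ENNReal.ofReal p₂) volume *
        eLpNorm f₃ (ENNReal.ofReal p₃) volume := by
  rintro ⟨Cst, hbd⟩
  have hq0 : 0 < q := by omega
  have hqR : (0 : ℝ) < (q : ℝ) := by exact_mod_cast hq0
  set D' : ℤ := max D 0 with hD'
  have hD0 : 0 ≤ D' := le_max_right _ _
  have hAB' : ∀ a ∈ A, ∀ b ∈ B, 1 ≤ a - b ∧ a - b ≤ D' := fun a ha b hb =>
    ⟨(hAB a ha b hb).1, (hAB a ha b hb).2.trans (le_max_left _ _)⟩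
  set G : ℝ := ∑ k ∈ K, Sf A u v w k ^ r with hG
  set N₁ : ℝ := ∑ a ∈ A, u a ^ p₁ with hN₁
  set N₂ : ℝ := ∑ b ∈ B, v b ^ p₂ with hN₂
  set N₃ : ℝ := ∑ c ∈ C, w c ^ p₃ with hN₃
  have hG0 : 0 ≤ G := Finset.sum_nonneg (fun k _ => Real.rpow_nonneg (Sf_nonneg hu hv hw k) _)
  have hN₁0 : 0 ≤ N₁ := Finset.sum_nonneg (fun s _ => Real.rpow_nonneg (hu s) _)
  have hN₂0 : 0 ≤ N₂ := Finset.sum_nonneg (fun s _ => Real.rpow_nonneg (hv s) _)
  have hN₃0 : 0 ≤ N₃ := Finset.sum_nonneg (fun s _ => Real.rpow_nonneg (hw s) _)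
  have hgain' : (q : ℝ) * N₁ ^ (1 / p₁) * N₂ ^ (1 / p₂) * N₃ ^ (1 / p₃) < G ^ (1 / r) := hgain
  have hr' : 0 ≤ 1 / r := by positivity
  -- the inequality at level `L`
  have key : ∀ L : ℕ, 1 / 48 / (((D' : ℝ) + 2) * (q : ℝ) ^ L) *
      ((1 / 16 : ℝ) ^ (1 / r) * (G ^ (1 / r)) ^ L) ≤
      max Cst 0 * ((N₁ ^ (1 / p₁)) ^ L * (N₂ ^ (1 / p₂)) ^ L * (N₃ ^ (1 / p₃)) ^ L) := by
    intro L
    have hDL := DL_le hq hD0 L
    have h := main_ineq_w hp₁ hp₂ hp₃ hr hbd (K := lvS q {2} K L) (D := DL q D' L)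
      (by omega)
      (A := lvS q {1} A L) (B := lvS q {0} B L) (C := lvS q {-1} C L)
      (u := lvW q oA (ind 1) u L) (v := lvW q oB (ind 0) v L) (w := lvW q oC (ind (-1)) w L)
      (lvW_nonneg hu (ind_nonneg 1) L) (lvW_nonneg hv (ind_nonneg 0) L)
      (lvW_nonneg hw (ind_nonneg (-1)) L)
      (lvW_zero hu0 (ind_zero 1) L) (lvW_zero hv0 (ind_zero 0) L)
      (lvW_zero hw0 (ind_zero (-1)) L) (pos_lv hq hAB' L)
    rw [sum_lvW_rpow hq0 hA hu (ind_nonneg 1), sum_lvW_rpow hq0 hB hv (ind_nonneg 0),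
      sum_lvW_rpow hq0 hC hw (ind_nonneg (-1)), sum_ind_rpow, sum_ind_rpow, sum_ind_rpow,
      one_mul, one_mul, one_mul] at h
    have hGL := sum_Sf_rpow_ge hq0 hA hB hC hK hu hv hw hv0 hw0 hr.le L
    have hDLR : ((DL q D' L : ℤ) : ℝ) + 1 ≤ ((D' : ℝ) + 2) * (q : ℝ) ^ L := by
      have h2 : ((DL q D' L : ℤ) : ℝ) ≤ ((D' : ℝ) + 1) * (q : ℝ) ^ L - D' := by
        exact_mod_cast hDL.2
      have h3 : (1 : ℝ) ≤ (q : ℝ) ^ L := one_le_pow₀ (by exact_mod_cast hq0)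
      have h4 : (0 : ℝ) ≤ (D' : ℝ) := by exact_mod_cast hD0
      nlinarith
    have hDLpos : (0 : ℝ) < ((DL q D' L : ℤ) : ℝ) + 1 := by
      have : (1 : ℝ) ≤ ((DL q D' L : ℤ) : ℝ) := by exact_mod_cast hDL.1
      linarith
    have e1 : ∀ (x y : ℝ), 0 ≤ x → (x ^ L) ^ y = (x ^ y) ^ L := fun x y hx =>
      (Real.rpow_pow_comm hx y L).symm
    rw [e1 _ _ hN₁0, e1 _ _ hN₂0, e1 _ _ hN₃0] at h
    have hlow : 1 / 48 / (((D' : ℝ) + 2) * (q : ℝ) ^ L) *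
        ((1 / 16 : ℝ) ^ (1 / r) * (G ^ (1 / r)) ^ L) ≤
        1 / 48 / (((DL q D' L : ℤ) : ℝ) + 1) *
          ((1 / 16 : ℝ) * ∑ k ∈ lvS q {2} K L, (∑ a ∈ lvS q {1} A L,
            lvW q oA (ind 1) u L a * lvW q oB (ind 0) v L (2 * a - k) *
              lvW q oC (ind (-1)) w L (3 * a - 2 * k)) ^ r) ^ (1 / r) := by
      have hX : (1 / 16 : ℝ) ^ (1 / r) * (G ^ (1 / r)) ^ L ≤
          ((1 / 16 : ℝ) * ∑ k ∈ lvS q {2} K L, (∑ a ∈ lvS q {1} A L,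
            lvW q oA (ind 1) u L a * lvW q oB (ind 0) v L (2 * a - k) *
              lvW q oC (ind (-1)) w L (3 * a - 2 * k)) ^ r) ^ (1 / r) := by
        rw [← e1 _ _ hG0, ← Real.mul_rpow (by norm_num) (pow_nonneg hG0 L)]
        apply Real.rpow_le_rpow (mul_nonneg (by norm_num) (pow_nonneg hG0 L)) _ hr'
        exact mul_le_mul_of_nonneg_left hGL (by norm_num)
      have hX0 : 0 ≤ (1 / 16 : ℝ) ^ (1 / r) * (G ^ (1 / r)) ^ L := by positivity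
      have hc : 1 / 48 / (((D' : ℝ) + 2) * (q : ℝ) ^ L) ≤
          1 / 48 / (((DL q D' L : ℤ) : ℝ) + 1) :=
        div_le_div_of_nonneg_left (by norm_num) hDLpos hDLR
      exact mul_le_mul hc hX hX0 (by positivity)
    calc 1 / 48 / (((D' : ℝ) + 2) * (q : ℝ) ^ L) *
          ((1 / 16 : ℝ) ^ (1 / r) * (G ^ (1 / r)) ^ L) ≤ _ := hlow
      _ ≤ _ := h
      _ = _ := by ring
  -- rewrite as `K0 * U ^ L ≤ C' * V ^ L`
  set U : ℝ := G ^ (1 / r) / q with hU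
  set V : ℝ := N₁ ^ (1 / p₁) * N₂ ^ (1 / p₂) * N₃ ^ (1 / p₃) with hV
  have hD'R : (0 : ℝ) ≤ (D' : ℝ) := by exact_mod_cast hD0
  set K0 : ℝ := 1 / 48 / ((D' : ℝ) + 2) * (1 / 16 : ℝ) ^ (1 / r) with hK0
  have hK0pos : 0 < K0 := by positivity
  have hV0 : 0 ≤ V := by positivity
  have hVU : V < U := by
    rw [hU, lt_div_iff₀ hqR]
    calc V * q = (q : ℝ) * N₁ ^ (1 / p₁) * N₂ ^ (1 / p₂) * N₃ ^ (1 / p₃) := by
          rw [hV]
          ring
      _ < G ^ (1 / r) := hgain'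
  have hU0 : 0 < U := lt_of_le_of_lt hV0 hVU
  have key2 : ∀ L : ℕ, K0 * U ^ L ≤ max Cst 0 * V ^ L := by
    intro L
    have h := key L
    have lhs : K0 * U ^ L = 1 / 48 / (((D' : ℝ) + 2) * (q : ℝ) ^ L) *
        ((1 / 16 : ℝ) ^ (1 / r) * (G ^ (1 / r)) ^ L) := by
      rw [hK0, hU, div_pow]
      field_simp
    have rhs : max Cst 0 * V ^ L =
        max Cst 0 * ((N₁ ^ (1 / p₁)) ^ L * (N₂ ^ (1 / p₂)) ^ L * (N₃ ^ (1 / p₃)) ^ L) := by
      rw [hV, mul_pow, mul_pow]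
    rw [lhs, rhs]
    exact h
  rcases eq_or_lt_of_le hV0 with hVz | hVpos
  · have h := key2 1
    rw [← hVz] at h
    simp only [pow_one, mul_zero] at h
    have : 0 < K0 * U := mul_pos hK0pos hU0
    linarith
  · have hratio : 1 < U / V := by
      rw [lt_div_iff₀ hVpos]
      linarith
    obtain ⟨L, hL⟩ := pow_unbounded_of_one_lt (max Cst 0 / K0) hratio
    have h := key2 L
    rw [div_pow, lt_div_iff₀ (by positivity), div_mul_eq_mul_div, div_lt_iff₀ hK0pos] at hL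
    linarith

/-- The digit principle without the sign condition `1 ≤ a - b`: the configuration is first
translated (`A` by `2τ`, `B` by `τ`, `K` by `3τ`), which does not change the sums. -/
theorem unbounded_of_gain' {p₁ p₂ p₃ r : ℝ} (hp₁ : 0 < p₁) (hp₂ : 0 < p₂) (hp₃ : 0 < p₃)
    (hr : 0 < r) {q : ℤ} (hq : 2 ≤ q) {oA oB oC oK : ℤ} {A B C K : Finset ℤ} {u v w : ℤ → ℝ}
    (hA : ∀ a ∈ A, oA ≤ a ∧ a < oA + q) (hB : ∀ b ∈ B, oB ≤ b ∧ b < oB + q)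
    (hC : ∀ c ∈ C, oC ≤ c ∧ c < oC + q) (hK : ∀ k ∈ K, oK ≤ k ∧ k < oK + q)
    (hu : ∀ s, 0 ≤ u s) (hv : ∀ s, 0 ≤ v s) (hw : ∀ s, 0 ≤ w s)
    (hu0 : ∀ s, s ∉ A → u s = 0) (hv0 : ∀ s, s ∉ B → v s = 0) (hw0 : ∀ s, s ∉ C → w s = 0)
    (hgain : (q : ℝ) * (∑ a ∈ A, u a ^ p₁) ^ (1 / p₁) * (∑ b ∈ B, v b ^ p₂) ^ (1 / p₂) *
        (∑ c ∈ C, w c ^ p₃) ^ (1 / p₃) <
      (∑ k ∈ K, (∑ a ∈ A, u a * v (2 * a - k) * w (3 * a - 2 * k)) ^ r) ^ (1 / r)) :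
    ¬ ∃ Cst : ℝ, ∀ (f₁ f₂ f₃ : SchwartzMap ℝ ℂ) (g : ℝ → ℂ),
      (∀ x : ℝ, Filter.Tendsto (fun q : ℝ × ℝ => ∫ t in {t : ℝ | q.1 < |t| ∧ |t| < q.2},
          f₁ (x - t) * f₂ (x - 2 * t) * f₃ (x - 3 * t) / (t : ℂ))
        ((nhdsWithin 0 (Set.Ioi 0)) ×ˢ Filter.atTop) (nhds (g x))) →
      eLpNorm g (ENNReal.ofReal r) volume ≤ ENNReal.ofReal Cst *
        eLpNorm f₁ (ENNReal.ofReal p₁) volume * eLpNorm f₂ (ENNReal.ofReal p₂) volume *
        eLpNorm f₃ (ENNReal.ofReal p₃) volume := by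
  set τ : ℤ := oB + q - oA + 1 with hτ
  have inj : ∀ c : ℤ, Function.Injective (fun n : ℤ => n + c) := fun c => add_left_injective c
  have sumA : ∑ a ∈ A.image (fun n => n + 2 * τ), (fun n => u (n - 2 * τ)) a ^ p₁ =
      ∑ a ∈ A, u a ^ p₁ := by
    rw [Finset.sum_image (fun x _ y _ h => inj _ h)]
    apply Finset.sum_congr rfl
    intro a _
    simp
  have sumB : ∑ b ∈ B.image (fun n => n + τ), (fun n => v (n - τ)) b ^ p₂ =
      ∑ b ∈ B, v b ^ p₂ := by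
    rw [Finset.sum_image (fun x _ y _ h => inj _ h)]
    apply Finset.sum_congr rfl
    intro a _
    simp
  have sumK : ∑ k ∈ K.image (fun n => n + 3 * τ), (∑ a ∈ A.image (fun n => n + 2 * τ),
        (fun n => u (n - 2 * τ)) a * (fun n => v (n - τ)) (2 * a - k) * w (3 * a - 2 * k)) ^ r =
      ∑ k ∈ K, (∑ a ∈ A, u a * v (2 * a - k) * w (3 * a - 2 * k)) ^ r := by
    rw [Finset.sum_image (fun x _ y _ h => inj _ h)]
    apply Finset.sum_congr rfl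
    intro k _
    congr 1
    rw [Finset.sum_image (fun x _ y _ h => inj _ h)]
    apply Finset.sum_congr rfl
    intro a _
    have e1 : a + 2 * τ - 2 * τ = a := by ring
    have e2 : 2 * (a + 2 * τ) - (k + 3 * τ) - τ = 2 * a - k := by ring
    have e3 : 3 * (a + 2 * τ) - 2 * (k + 3 * τ) = 3 * a - 2 * k := by ring
    simp only [e1, e2, e3]
  apply unbounded_of_gain hp₁ hp₂ hp₃ hr hq (oA := oA + 2 * τ) (oB := oB + τ) (oC := oC)
    (oK := oK + 3 * τ) (A := A.image (fun n => n + 2 * τ)) (B := B.image (fun n => n + τ))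
    (C := C) (K := K.image (fun n => n + 3 * τ)) (u := fun n => u (n - 2 * τ))
    (v := fun n => v (n - τ)) (w := w) (D := oA + 2 * τ + q - (oB + τ))
  · intro a ha
    obtain ⟨a', ha', rfl⟩ := Finset.mem_image.1 ha
    obtain ⟨h1, h2⟩ := hA a' ha'
    constructor <;> linarith
  · intro b hb
    obtain ⟨b', hb', rfl⟩ := Finset.mem_image.1 hb
    obtain ⟨h1, h2⟩ := hB b' hb'
    constructor <;> linarith
  · exact hC
  · intro k hk
    obtain ⟨k', hk', rfl⟩ := Finset.mem_image.1 hk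
    obtain ⟨h1, h2⟩ := hK k' hk'
    constructor <;> linarith
  · intro s
    exact hu _
  · intro s
    exact hv _
  · exact hw
  · intro s hs
    apply hu0
    intro hmem
    apply hs
    rw [Finset.mem_image]
    exact ⟨s - 2 * τ, hmem, by ring⟩
  · intro s hs
    apply hv0
    intro hmem
    apply hs
    rw [Finset.mem_image]
    exact ⟨s - τ, hmem, by ring⟩
  · exact hw0
  · intro a ha b hb
    obtain ⟨a', ha', rfl⟩ := Finset.mem_image.1 ha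
    obtain ⟨b', hb', rfl⟩ := Finset.mem_image.1 hb
    obtain ⟨h1, h2⟩ := hA a' ha'
    obtain ⟨h3, h4⟩ := hB b' hb'
    constructor <;> omega
  · rw [sumA, sumB, sumK]
    exact hgain

end Vale.Agent.Helper25.TrilinearDigits
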