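import Mathlib
import Vale.Agent.Helper25.TrilinearDigits

/-!
# Unweighted digit configurations near two faces of the exponent cube

Two explicit families of digit configurations for the trilinear Hilbert transform
`T(f₁, f₂, f₃)(x) = p.v. ∫ f₁(x - t) f₂(x - 2t) f₃(x - 3t) dt / t`, each with one progression
through every point of a full window:

* `A = 2 * {0, …, m - 1}`, `B = {0, 1, 2, 3}`, `C = 2 * {-(m - 1), …, 3}`, base `4 m`;
* `A = 2 * {0, …, m - 1}`, `B = {0, …, m + 1}`, `C = {0, 2, 4}`, base `3 m`.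

Fed into the digit criterion `Vale.Agent.Helper25.TrilinearDigits.unbounded_of_gain'` they give
unboundedness of `T` at Hölder tuples close to the faces `p₂ = 1` and `p₃ = 1` of the exponent
cube, all the way up to `r = 1/2`.
-/

namespace Vale.Agent.Helper25.TrilinearEdge

open MeasureTheory

/-- `T` is not bounded at `(p₁, p₂, p₃; r)`; `g` stands for the pointwise principal value. -/
def Unbdd (p₁ p₂ p₃ r : ℝ) : Prop :=
  ¬ ∃ Cst : ℝ, ∀ (f₁ f₂ f₃ : SchwartzMap ℝ ℂ) (g : ℝ → ℂ),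
      (∀ x : ℝ, Filter.Tendsto (fun q : ℝ × ℝ => ∫ t in {t : ℝ | q.1 < |t| ∧ |t| < q.2},
          f₁ (x - t) * f₂ (x - 2 * t) * f₃ (x - 3 * t) / (t : ℂ))
        ((nhdsWithin 0 (Set.Ioi 0)) ×ˢ Filter.atTop) (nhds (g x))) →
      eLpNorm g (ENNReal.ofReal r) volume ≤ ENNReal.ofReal Cst *
        eLpNorm f₁ (ENNReal.ofReal p₁) volume * eLpNorm f₂ (ENNReal.ofReal p₂) volume *
        eLpNorm f₃ (ENNReal.ofReal p₃) volume

/-- The digit criterion for indicator weights: every point of `K` lies on a progression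
`k, a, 2a - k, 3a - 2k` with `a ∈ A`, `2a - k ∈ B`, `3a - 2k ∈ C`. -/
theorem unbounded_of_sets {p₁ p₂ p₃ r : ℝ} (hp₁ : 0 < p₁) (hp₂ : 0 < p₂) (hp₃ : 0 < p₃)
    (hr : 0 < r) {q : ℤ} (hq : 2 ≤ q) {oA oB oC oK : ℤ} {A B C K : Finset ℤ}
    (hA : ∀ a ∈ A, oA ≤ a ∧ a < oA + q) (hB : ∀ b ∈ B, oB ≤ b ∧ b < oB + q)
    (hC : ∀ c ∈ C, oC ≤ c ∧ c < oC + q) (hK : ∀ k ∈ K, oK ≤ k ∧ k < oK + q)
    (hcov : ∀ k ∈ K, ∃ a ∈ A, 2 * a - k ∈ B ∧ 3 * a - 2 * k ∈ C)
    (hgain : (q : ℝ) * (A.card : ℝ) ^ (1 / p₁) * (B.card : ℝ) ^ (1 / p₂) *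
        (C.card : ℝ) ^ (1 / p₃) < (K.card : ℝ) ^ (1 / r)) :
    Unbdd p₁ p₂ p₃ r := by
  classical
  have key : ∀ (S : Finset ℤ) (p : ℝ),
      ∑ a ∈ S, (fun s : ℤ => if s ∈ S then (1 : ℝ) else 0) a ^ p = (S.card : ℝ) := by
    intro S p
    rw [Finset.sum_congr rfl (g := fun _ => (1 : ℝ))]
    · simp
    · intro a ha
      simp [ha]
  have ind_nonneg : ∀ (S : Finset ℤ) (s : ℤ), (0 : ℝ) ≤ if s ∈ S then (1 : ℝ) else 0 := by
    intro S s
    split_ifs <;> norm_num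
  refine Vale.Agent.Helper25.TrilinearDigits.unbounded_of_gain' hp₁ hp₂ hp₃ hr hq hA hB hC hK
    (u := fun s => if s ∈ A then (1 : ℝ) else 0) (v := fun s => if s ∈ B then (1 : ℝ) else 0)
    (w := fun s => if s ∈ C then (1 : ℝ) else 0) (ind_nonneg A) (ind_nonneg B) (ind_nonneg C)
    (fun s hs => by simp [hs]) (fun s hs => by simp [hs]) (fun s hs => by simp [hs]) ?_
  rw [key A p₁, key B p₂, key C p₃]
  refine lt_of_lt_of_le hgain ?_
  apply Real.rpow_le_rpow (Nat.cast_nonneg _) _ (by positivity)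
  have hone : ∀ k ∈ K, (1 : ℝ) ≤ (∑ a ∈ A, (if a ∈ A then (1 : ℝ) else 0) *
      (if 2 * a - k ∈ B then (1 : ℝ) else 0) * (if 3 * a - 2 * k ∈ C then (1 : ℝ) else 0)) ^ r := by
    intro k hk
    obtain ⟨a, ha, hb, hc⟩ := hcov k hk
    apply Real.one_le_rpow _ hr.le
    have hterm : (if a ∈ A then (1 : ℝ) else 0) *
        (if 2 * a - k ∈ B then (1 : ℝ) else 0) * (if 3 * a - 2 * k ∈ C then (1 : ℝ) else 0) = 1 := by
      simp [ha, hb, hc]
    calc (1 : ℝ) = _ := hterm.symm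
      _ ≤ _ := Finset.single_le_sum (f := fun a => (if a ∈ A then (1 : ℝ) else 0) *
        (if 2 * a - k ∈ B then (1 : ℝ) else 0) * (if 3 * a - 2 * k ∈ C then (1 : ℝ) else 0))
        (fun i _ => mul_nonneg (mul_nonneg (ind_nonneg A i) (ind_nonneg B _)) (ind_nonneg C _)) ha
  calc (K.card : ℝ) = ∑ _k ∈ K, (1 : ℝ) := by simp
    _ ≤ _ := Finset.sum_le_sum hone

/-- A product of real powers is below a real power as soon as the logarithms say so. -/
theorem lt_of_log_lt {a b c d e x1 x2 x3 S : ℝ} (ha : 0 < a) (hb : 0 < b) (hc : 0 < c)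
    (hd : 0 < d) (he : 0 < e)
    (h : Real.log a + Real.log b * x1 + Real.log c * x2 + Real.log d * x3 < Real.log e * S) :
    a * b ^ x1 * c ^ x2 * d ^ x3 < e ^ S := by
  rw [Real.rpow_def_of_pos hb, Real.rpow_def_of_pos hc, Real.rpow_def_of_pos hd,
    Real.rpow_def_of_pos he]
  nth_rewrite 1 [← Real.exp_log ha]
  rw [← Real.exp_add, ← Real.exp_add, ← Real.exp_add, Real.exp_lt_exp]
  exact h

/-- First family, near the face `p₂ = 1`. -/
theorem edge2_raw {p₁ p₂ p₃ r : ℝ} (hp₁ : 0 < p₁) (hp₂ : 0 < p₂) (hp₃ : 0 < p₃) (hr : 0 < r)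
    (m : ℕ) (hm : 3 ≤ m)
    (hgain : (4 * m : ℝ) * (m : ℝ) ^ (1 / p₁) * (4 : ℝ) ^ (1 / p₂) * ((m : ℝ) + 3) ^ (1 / p₃) <
      (4 * m : ℝ) ^ (1 / r)) :
    Unbdd p₁ p₂ p₃ r := by
  classical
  have hcardA : ((Finset.Ico (0 : ℤ) m).image (fun i : ℤ => 2 * i)).card = m := by
    rw [Finset.card_image_of_injective _ (fun x y h => by simpa using h)]
    simp
  have hcardC : ((Finset.Icc (-(m : ℤ) + 1) 3).image (fun i : ℤ => 2 * i)).card = m + 3 := by
    rw [Finset.card_image_of_injective _ (fun x y h => by simpa using h)]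
    simp
    omega
  have hcardK : (Finset.Icc (-3 : ℤ) (4 * m - 4)).card = 4 * m := by
    simp
    omega
  refine unbounded_of_sets hp₁ hp₂ hp₃ hr (q := 4 * (m : ℤ)) (by omega)
    (oA := 0) (oB := 0) (oC := -2 * (m : ℤ) + 2) (oK := -3)
    (A := (Finset.Ico (0 : ℤ) m).image (fun i : ℤ => 2 * i)) (B := Finset.Ico (0 : ℤ) 4)
    (C := (Finset.Icc (-(m : ℤ) + 1) 3).image (fun i : ℤ => 2 * i))
    (K := Finset.Icc (-3 : ℤ) (4 * m - 4)) ?_ ?_ ?_ ?_ ?_ ?_
  · intro a ha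
    simp only [Finset.mem_image, Finset.mem_Ico] at ha
    obtain ⟨i, hi, rfl⟩ := ha
    omega
  · intro b hb
    simp only [Finset.mem_Ico] at hb
    omega
  · intro c hc
    simp only [Finset.mem_image, Finset.mem_Icc] at hc
    obtain ⟨i, hi, rfl⟩ := hc
    omega
  · intro k hk
    simp only [Finset.mem_Icc] at hk
    omega
  · intro k hk
    simp only [Finset.mem_Icc] at hk
    refine ⟨2 * ((k + 3) / 4), ?_, ?_, ?_⟩
    · simp only [Finset.mem_image, Finset.mem_Ico]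
      exact ⟨(k + 3) / 4, by omega, rfl⟩
    · simp only [Finset.mem_Ico]
      omega
    · simp only [Finset.mem_image, Finset.mem_Icc]
      exact ⟨3 * ((k + 3) / 4) - k, by omega, by ring⟩
  · have hcardB : (Finset.Ico (0 : ℤ) 4).card = 4 := by simp
    rw [hcardA, hcardB, hcardC, hcardK]
    push_cast
    exact hgain

/-- Second family, near the face `p₃ = 1`. -/
theorem edge3_raw {p₁ p₂ p₃ r : ℝ} (hp₁ : 0 < p₁) (hp₂ : 0 < p₂) (hp₃ : 0 < p₃) (hr : 0 < r)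
    (m : ℕ) (hm : 2 ≤ m)
    (hgain : (3 * m : ℝ) * (m : ℝ) ^ (1 / p₁) * ((m : ℝ) + 2) ^ (1 / p₂) * (3 : ℝ) ^ (1 / p₃) <
      (3 * m : ℝ) ^ (1 / r)) :
    Unbdd p₁ p₂ p₃ r := by
  classical
  have hcardA : ((Finset.Ico (0 : ℤ) m).image (fun i : ℤ => 2 * i)).card = m := by
    rw [Finset.card_image_of_injective _ (fun x y h => by simpa using h)]
    simp
  have hcardB : (Finset.Ico (0 : ℤ) (m + 2)).card = m + 2 := by
    simp
    omega
  have hcardC : ((Finset.Ico (0 : ℤ) 3).image (fun i : ℤ => 2 * i)).card = 3 := by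
    rw [Finset.card_image_of_injective _ (fun x y h => by simpa using h)]
    simp
  have hcardK : (Finset.Icc (-2 : ℤ) (3 * m - 3)).card = 3 * m := by
    simp
    omega
  refine unbounded_of_sets hp₁ hp₂ hp₃ hr (q := 3 * (m : ℤ)) (by omega)
    (oA := 0) (oB := 0) (oC := 0) (oK := -2)
    (A := (Finset.Ico (0 : ℤ) m).image (fun i : ℤ => 2 * i)) (B := Finset.Ico (0 : ℤ) (m + 2))
    (C := (Finset.Ico (0 : ℤ) 3).image (fun i : ℤ => 2 * i))
    (K := Finset.Icc (-2 : ℤ) (3 * m - 3)) ?_ ?_ ?_ ?_ ?_ ?_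
  · intro a ha
    simp only [Finset.mem_image, Finset.mem_Ico] at ha
    obtain ⟨i, hi, rfl⟩ := ha
    omega
  · intro b hb
    simp only [Finset.mem_Ico] at hb
    omega
  · intro c hc
    simp only [Finset.mem_image, Finset.mem_Ico] at hc
    obtain ⟨i, hi, rfl⟩ := hc
    omega
  · intro k hk
    simp only [Finset.mem_Icc] at hk
    omega
  · intro k hk
    simp only [Finset.mem_Icc] at hk
    refine ⟨2 * ((k + 2) / 3), ?_, ?_, ?_⟩
    · simp only [Finset.mem_image, Finset.mem_Ico]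
      exact ⟨(k + 2) / 3, by omega, rfl⟩
    · simp only [Finset.mem_Ico]
      omega
    · simp only [Finset.mem_image, Finset.mem_Ico]
      exact ⟨3 * ((k + 2) / 3) - k, by omega, by ring⟩
  · rw [hcardA, hcardB, hcardC, hcardK]
    push_cast
    exact hgain

/-- First family in logarithmic form (for Hölder tuples). -/
theorem edge2_log {p₁ p₂ p₃ r : ℝ} (hp₁ : 0 < p₁) (hp₂ : 0 < p₂) (hp₃ : 0 < p₃) (hr : 0 < r)
    (hH : 1 / r = 1 / p₁ + 1 / p₂ + 1 / p₃) (m : ℕ) (hm : 3 ≤ m)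
    (hlog : (1 - 1 / p₂) * Real.log m + 1 / p₃ * Real.log (1 + 3 / m) <
      (1 / p₁ + 1 / p₃ - 1) * Real.log 4) :
    Unbdd p₁ p₂ p₃ r := by
  have hm3 : (3 : ℝ) ≤ m := by exact_mod_cast hm
  have hm0 : (0 : ℝ) < m := by linarith
  apply edge2_raw hp₁ hp₂ hp₃ hr m hm
  apply lt_of_log_lt (by positivity) hm0 (by norm_num) (by positivity) (by positivity)
  have h4m : Real.log (4 * (m : ℝ)) = Real.log 4 + Real.log m :=
    Real.log_mul (by norm_num) hm0.ne'
  have hm3' : Real.log ((m : ℝ) + 3) = Real.log m + Real.log (1 + 3 / m) := by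
    rw [← Real.log_mul hm0.ne' (by positivity)]
    congr 1
    field_simp
  rw [h4m, hm3', hH]
  linear_combination hlog

/-- Second family in logarithmic form (for Hölder tuples). -/
theorem edge3_log {p₁ p₂ p₃ r : ℝ} (hp₁ : 0 < p₁) (hp₂ : 0 < p₂) (hp₃ : 0 < p₃) (hr : 0 < r)
    (hH : 1 / r = 1 / p₁ + 1 / p₂ + 1 / p₃) (m : ℕ) (hm : 2 ≤ m)
    (hlog : (1 - 1 / p₃) * Real.log m + 1 / p₂ * Real.log (1 + 2 / m) <
      (1 / p₁ + 1 / p₂ - 1) * Real.log 3) :
    Unbdd p₁ p₂ p₃ r := by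
  have hm2 : (2 : ℝ) ≤ m := by exact_mod_cast hm
  have hm0 : (0 : ℝ) < m := by linarith
  apply edge3_raw hp₁ hp₂ hp₃ hr m hm
  apply lt_of_log_lt (by positivity) hm0 (by positivity) (by norm_num) (by positivity)
  have h3m : Real.log (3 * (m : ℝ)) = Real.log 3 + Real.log m :=
    Real.log_mul (by norm_num) hm0.ne'
  have hm2' : Real.log ((m : ℝ) + 2) = Real.log m + Real.log (1 + 2 / m) := by
    rw [← Real.log_mul hm0.ne' (by positivity)]
    congr 1
    field_simp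
  rw [h3m, hm2', hH]
  linear_combination hlog

/-- Near the faces `p₂ = 1` and `p₃ = 1` every Hölder tuple with `r ≤ 1/2 - ε` is a tuple of
unboundedness, uniformly. -/
theorem near_faces (ε : ℝ) (hε : 0 < ε) : ∃ δ : ℝ, 0 < δ ∧ ∀ p₁ p₂ p₃ r : ℝ,
    1 < p₁ → 1 < p₂ → 1 < p₃ → 0 < r → 1 / r = 1 / p₁ + 1 / p₂ + 1 / p₃ → r ≤ 1 / 2 - ε →
    (p₂ ≤ 1 + δ ∨ p₃ ≤ 1 + δ) → Unbdd p₁ p₂ p₃ r := by
  obtain ⟨m, hm3, hmε⟩ : ∃ m : ℕ, 3 ≤ m ∧ 6 / ε ≤ (m : ℝ) := by
    refine ⟨max 3 ⌈6 / ε⌉₊, le_max_left _ _, ?_⟩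
    calc 6 / ε ≤ (⌈6 / ε⌉₊ : ℝ) := Nat.le_ceil _
      _ ≤ ((max 3 ⌈6 / ε⌉₊ : ℕ) : ℝ) := by exact_mod_cast le_max_right _ _
  have hm3' : (3 : ℝ) ≤ m := by exact_mod_cast hm3
  have hm0 : (0 : ℝ) < m := by linarith
  have hL : 0 < Real.log m := Real.log_pos (by linarith)
  refine ⟨ε / (2 * Real.log m), by positivity, ?_⟩
  intro p₁ p₂ p₃ r h₁ h₂ h₃ hr hH hsmall hface
  have x1 : 1 / p₁ < 1 := by
    rw [div_lt_one (by linarith)]
    exact h₁
  have x2 : 1 / p₂ < 1 := by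
    rw [div_lt_one (by linarith)]
    exact h₂
  have x3 : 1 / p₃ < 1 := by
    rw [div_lt_one (by linarith)]
    exact h₃
  have y1 : 0 < 1 / p₁ := by positivity
  have y2 : 0 < 1 / p₂ := by positivity
  have y3 : 0 < 1 / p₃ := by positivity
  have hR : 2 + 4 * ε ≤ 1 / r := by
    rw [le_div_iff₀ hr]
    nlinarith [mul_le_mul_of_nonneg_left hsmall (by linarith : (0 : ℝ) ≤ 2 + 4 * ε), sq_nonneg ε]
  have h3m : 3 / (m : ℝ) ≤ ε / 2 := by
    rw [div_le_iff₀ hm0]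
    have := (div_le_iff₀ hε).mp hmε
    linarith
  have hlog2 : (1 : ℝ) / 2 ≤ Real.log 2 := by
    have := Real.log_two_gt_d9
    linarith
  have hlog3 : (1 : ℝ) / 2 ≤ Real.log 3 :=
    le_trans hlog2 (Real.log_le_log (by norm_num) (by norm_num))
  have hlog4 : (1 : ℝ) / 2 ≤ Real.log 4 :=
    le_trans hlog2 (Real.log_le_log (by norm_num) (by norm_num))
  have hface_est : ∀ p : ℝ, 1 < p → p ≤ 1 + ε / (2 * Real.log m) →
      (1 - 1 / p) * Real.log m ≤ ε / 2 := by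
    intro p hp hpδ
    have h1 : 1 - 1 / p ≤ ε / (2 * Real.log m) := by
      have : 1 - 1 / p = (p - 1) / p := by
        field_simp
      rw [this]
      calc (p - 1) / p ≤ p - 1 := div_le_self (by linarith) (by linarith)
        _ ≤ ε / (2 * Real.log m) := by linarith
    calc (1 - 1 / p) * Real.log m ≤ ε / (2 * Real.log m) * Real.log m :=
          mul_le_mul_of_nonneg_right h1 hL.le
      _ = ε / 2 := by
          field_simp
  have hlog_est : ∀ c : ℝ, 0 ≤ c → c ≤ 3 → ∀ x : ℝ, 0 < x → x < 1 →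
      x * Real.log (1 + c / m) ≤ ε / 2 := by
    intro c hc0 hc3 x hx0 hx1
    have hcm : 0 ≤ c / (m : ℝ) := by positivity
    have hcm3 : c / (m : ℝ) ≤ 3 / m := div_le_div_of_nonneg_right hc3 hm0.le
    have hl0 : 0 ≤ Real.log (1 + c / m) := Real.log_nonneg (by linarith)
    have hl1 : Real.log (1 + c / m) ≤ c / m := by
      have := Real.log_le_sub_one_of_pos (show (0 : ℝ) < 1 + c / m by linarith)
      linarith
    calc x * Real.log (1 + c / m) ≤ 1 * Real.log (1 + c / m) :=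
          mul_le_mul_of_nonneg_right hx1.le hl0
      _ ≤ ε / 2 := by linarith
  rcases hface with hf | hf
  · apply edge2_log (by linarith) (by linarith) (by linarith) hr hH m hm3
    have hA := hface_est p₂ h₂ hf
    have hB := hlog_est 3 (by norm_num) le_rfl (1 / p₃) y3 x3
    have hu : 4 * ε < 1 / p₁ + 1 / p₃ - 1 := by linarith
    have hC : 2 * ε < (1 / p₁ + 1 / p₃ - 1) * Real.log 4 := by
      nlinarith [mul_le_mul_of_nonneg_left hlog4 (by linarith : (0 : ℝ) ≤ 1 / p₁ + 1 / p₃ - 1)]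
    linarith
  · apply edge3_log (by linarith) (by linarith) (by linarith) hr hH m (by omega)
    have hA := hface_est p₃ h₃ hf
    have hB := hlog_est 2 (by norm_num) (by norm_num) (1 / p₂) y2 x2
    have hu : 4 * ε < 1 / p₁ + 1 / p₂ - 1 := by linarith
    have hC : 2 * ε < (1 / p₁ + 1 / p₂ - 1) * Real.log 3 := by
      nlinarith [mul_le_mul_of_nonneg_left hlog3 (by linarith : (0 : ℝ) ≤ 1 / p₁ + 1 / p₂ - 1)]
    linarith

/-- Explicit form of `near_faces`: the neighbourhood `p ≤ 1 + 2 ε / log (3 / ε)` of the faces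
`p₂ = 1` and `p₃ = 1` consists of tuples of unboundedness as long as `r ≤ 1/2 - ε`. -/
theorem near_faces_explicit (ε : ℝ) (hε : 0 < ε) (p₁ p₂ p₃ r : ℝ) (h₁ : 1 < p₁) (h₂ : 1 < p₂)
    (h₃ : 1 < p₃) (hr : 0 < r) (hH : 1 / r = 1 / p₁ + 1 / p₂ + 1 / p₃) (hsmall : r ≤ 1 / 2 - ε)
    (hface : p₂ ≤ 1 + 2 * ε / Real.log (3 / ε) ∨ p₃ ≤ 1 + 2 * ε / Real.log (3 / ε)) :
    Unbdd p₁ p₂ p₃ r := by
  have hε2 : ε < 1 / 2 := by linarith
  set m : ℕ := ⌈2 / ε⌉₊ with hm
  have hm_ge : 2 / ε ≤ (m : ℝ) := Nat.le_ceil _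
  have hm_lt : (m : ℝ) < 2 / ε + 1 := Nat.ceil_lt_add_one (by positivity)
  have h2ε : 4 < 2 / ε := by
    rw [lt_div_iff₀ hε]
    linarith
  have hm4 : (4 : ℝ) < m := by linarith
  have hm3 : 3 ≤ m := by
    have : 4 < m := by exact_mod_cast hm4
    omega
  have hm0 : (0 : ℝ) < m := by linarith
  have hm_le : (m : ℝ) ≤ 3 / ε := by
    have h1 : 1 ≤ 1 / ε := by
      rw [le_div_iff₀ hε]
      linarith
    have h3 : 3 / ε = 2 / ε + 1 / ε := by ring
    linarith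
  have hL : 0 < Real.log m := Real.log_pos (by linarith)
  have hLle : Real.log m ≤ Real.log (3 / ε) := Real.log_le_log hm0 hm_le
  have hL3 : 0 < Real.log (3 / ε) := lt_of_lt_of_le hL hLle
  have x1 : 1 / p₁ < 1 := by
    rw [div_lt_one (by linarith)]
    exact h₁
  have x2 : 1 / p₂ < 1 := by
    rw [div_lt_one (by linarith)]
    exact h₂
  have x3 : 1 / p₃ < 1 := by
    rw [div_lt_one (by linarith)]
    exact h₃
  have y1 : 0 < 1 / p₁ := by positivity
  have y2 : 0 < 1 / p₂ := by positivity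
  have y3 : 0 < 1 / p₃ := by positivity
  have hR : 2 + 4 * ε ≤ 1 / r := by
    rw [le_div_iff₀ hr]
    nlinarith [mul_le_mul_of_nonneg_left hsmall (by linarith : (0 : ℝ) ≤ 2 + 4 * ε), sq_nonneg ε]
  have hinv : 1 / (m : ℝ) ≤ ε / 2 := by
    rw [div_le_iff₀ hm0]
    have := (div_le_iff₀ hε).mp hm_ge
    linarith
  have hlog4 : (1 : ℝ) ≤ Real.log 4 := by
    have h4 : Real.log 4 = 2 * Real.log 2 := by
      rw [show (4 : ℝ) = 2 ^ 2 by norm_num, Real.log_pow]
      norm_num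
    have := Real.log_two_gt_d9
    linarith
  have hlog3 : (1 : ℝ) ≤ Real.log 3 := by
    have h : Real.exp 1 < 3 := lt_trans Real.exp_one_lt_d9 (by norm_num)
    exact ((Real.lt_log_iff_exp_lt (by norm_num : (0 : ℝ) < 3)).mpr h).le
  have hface_est : ∀ p : ℝ, 1 < p → p ≤ 1 + 2 * ε / Real.log (3 / ε) →
      (1 - 1 / p) * Real.log m ≤ 2 * ε := by
    intro p hp hpδ
    have h1 : 1 - 1 / p ≤ 2 * ε / Real.log (3 / ε) := by
      have : 1 - 1 / p = (p - 1) / p := by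
        field_simp
      rw [this]
      calc (p - 1) / p ≤ p - 1 := div_le_self (by linarith) (by linarith)
        _ ≤ 2 * ε / Real.log (3 / ε) := by linarith
    calc (1 - 1 / p) * Real.log m ≤ 2 * ε / Real.log (3 / ε) * Real.log m :=
          mul_le_mul_of_nonneg_right h1 hL.le
      _ ≤ 2 * ε / Real.log (3 / ε) * Real.log (3 / ε) :=
          mul_le_mul_of_nonneg_left hLle (by positivity)
      _ = 2 * ε := by
          field_simp
  have hlog_est : ∀ c : ℝ, 0 ≤ c → ∀ x : ℝ, 0 < x → x < 1 →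
      x * Real.log (1 + c / m) ≤ c * (ε / 2) := by
    intro c hc0 x hx0 hx1
    have hcm : 0 ≤ c / (m : ℝ) := by positivity
    have hcm' : c / (m : ℝ) ≤ c * (ε / 2) := by
      rw [div_eq_mul_one_div]
      exact mul_le_mul_of_nonneg_left hinv hc0
    have hl0 : 0 ≤ Real.log (1 + c / m) := Real.log_nonneg (by linarith)
    have hl1 : Real.log (1 + c / m) ≤ c / m := by
      have := Real.log_le_sub_one_of_pos (show (0 : ℝ) < 1 + c / m by linarith)
      linarith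
    calc x * Real.log (1 + c / m) ≤ 1 * Real.log (1 + c / m) :=
          mul_le_mul_of_nonneg_right hx1.le hl0
      _ ≤ c * (ε / 2) := by linarith
  rcases hface with hf | hf
  · apply edge2_log (by linarith) (by linarith) (by linarith) hr hH m hm3
    have hA := hface_est p₂ h₂ hf
    have hB := hlog_est 3 (by norm_num) (1 / p₃) y3 x3
    have hu : 4 * ε < 1 / p₁ + 1 / p₃ - 1 := by linarith
    have hC : 4 * ε < (1 / p₁ + 1 / p₃ - 1) * Real.log 4 := by
      nlinarith [mul_le_mul_of_nonneg_left hlog4 (by linarith : (0 : ℝ) ≤ 1 / p₁ + 1 / p₃ - 1)]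
    linarith
  · apply edge3_log (by linarith) (by linarith) (by linarith) hr hH m (by omega)
    have hA := hface_est p₃ h₃ hf
    have hB := hlog_est 2 (by norm_num) (1 / p₂) y2 x2
    have hu : 4 * ε < 1 / p₁ + 1 / p₂ - 1 := by linarith
    have hC : 4 * ε < (1 / p₁ + 1 / p₂ - 1) * Real.log 3 := by
      nlinarith [mul_le_mul_of_nonneg_left hlog3 (by linarith : (0 : ℝ) ≤ 1 / p₁ + 1 / p₂ - 1)]
    linarith

end Vale.Agent.Helper25.TrilinearEdge
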