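import Mathlib
import Vale.Agent.Helper25.TrilinearDigits

/-!
# Helper file for P141: a lower bound for the gain of a weighted digit configuration

`log_gain_ge` is a double application of Jensen's inequality for the logarithm: for lines
`i ∈ s` through the points `kOf i` with positive integer multiplicities `cnt i`, it bounds
`∑ k ∈ K, (∑ a ∈ A, F k a) ^ r` from below.
-/

namespace Vale.Agent.Helper25.TrilinearEntropy

/-- Jensen's inequality for the logarithm, with positive weights that need not sum to `1`. -/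
theorem sum_mul_log_le {ι : Type*} (t : Finset ι) (c z : ι → ℝ) (hc : ∀ i ∈ t, 0 < c i)
    (hz : ∀ i ∈ t, 0 < z i) (hne : t.Nonempty) :
    ∑ i ∈ t, c i * Real.log (z i) ≤
      (∑ i ∈ t, c i) * (Real.log (∑ i ∈ t, c i * z i) - Real.log (∑ i ∈ t, c i)) := by
  set T : ℝ := ∑ i ∈ t, c i with hT
  have hTpos : 0 < T := Finset.sum_pos hc hne
  have hJ := strictConcaveOn_log_Ioi.concaveOn.le_map_sum (t := t) (w := fun i => c i / T)
    (p := z) (fun i hi => (div_pos (hc i hi) hTpos).le)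
    (by rw [← Finset.sum_div]; exact div_self hTpos.ne') (fun i hi => hz i hi)
  simp only [smul_eq_mul] at hJ
  have hpos : 0 < ∑ i ∈ t, c i * z i :=
    Finset.sum_pos (fun i hi => mul_pos (hc i hi) (hz i hi)) hne
  have e1 : ∑ i ∈ t, c i / T * z i = (∑ i ∈ t, c i * z i) / T := by
    rw [Finset.sum_div]
    apply Finset.sum_congr rfl
    intro i _
    ring
  have e2 : ∑ i ∈ t, c i / T * Real.log (z i) = (∑ i ∈ t, c i * Real.log (z i)) / T := by
    rw [Finset.sum_div]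
    apply Finset.sum_congr rfl
    intro i _
    ring
  rw [e1, e2, Real.log_div hpos.ne' hTpos.ne', div_le_iff₀ hTpos] at hJ
  linarith

/-- The double Jensen bound. -/
theorem log_gain_ge {ι : Type*} (s : Finset ι) (kOf aOf : ι → ℤ) (cnt : ι → ℕ)
    (K A : Finset ℤ) (hne : s.Nonempty)
    (hcnt : ∀ i ∈ s, 0 < cnt i)
    (hinj : ∀ i ∈ s, ∀ j ∈ s, kOf i = kOf j → aOf i = aOf j → i = j)
    (hK : ∀ i ∈ s, kOf i ∈ K) (hA : ∀ i ∈ s, aOf i ∈ A)
    (F : ℤ → ℤ → ℝ) (hF : ∀ k a, 0 ≤ F k a) (hm : ∀ i ∈ s, 0 < F (kOf i) (aOf i))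
    {r : ℝ} (hr0 : 0 < r) :
    ∑ i ∈ s, (cnt i : ℝ) * (r * Real.log (F (kOf i) (aOf i)) - r * Real.log (cnt i)
        - (1 - r) * Real.log ((∑ j ∈ s.filter (fun j => kOf j = kOf i), cnt j : ℕ) : ℝ))
      + ((∑ i ∈ s, cnt i : ℕ) : ℝ) * Real.log ((∑ i ∈ s, cnt i : ℕ) : ℝ) ≤
      ((∑ i ∈ s, cnt i : ℕ) : ℝ) * Real.log (∑ k ∈ K, (∑ a ∈ A, F k a) ^ r) := by
  classical
  set K' : Finset ℤ := s.image kOf with hK'
  set fib : ℤ → Finset ι := fun k => s.filter (fun j => kOf j = k) with hfib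
  set nK : ℤ → ℝ := fun k => ((∑ j ∈ fib k, cnt j : ℕ) : ℝ) with hnK
  set N : ℝ := ((∑ i ∈ s, cnt i : ℕ) : ℝ) with hN
  set S : ℤ → ℝ := fun k => ∑ a ∈ A, F k a with hS
  set m : ι → ℝ := fun i => F (kOf i) (aOf i) with hmdef
  have hcntR : ∀ i ∈ s, (0 : ℝ) < (cnt i : ℝ) := fun i hi => by exact_mod_cast hcnt i hi
  have hfib_sub : ∀ k, fib k ⊆ s := fun k => Finset.filter_subset _ _
  have hfib_ne : ∀ k ∈ K', (fib k).Nonempty := by
    intro k hk
    obtain ⟨i, hi, rfl⟩ := Finset.mem_image.1 hk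
    exact ⟨i, Finset.mem_filter.2 ⟨hi, rfl⟩⟩
  have hnK_eq : ∀ k, nK k = ∑ j ∈ fib k, (cnt j : ℝ) := by
    intro k
    simp only [hnK]
    push_cast
    rfl
  have hnK_pos : ∀ k ∈ K', 0 < nK k := by
    intro k hk
    rw [hnK_eq]
    exact Finset.sum_pos (fun i hi => hcntR i (hfib_sub k hi)) (hfib_ne k hk)
  have hN_eq : N = ∑ i ∈ s, (cnt i : ℝ) := by
    simp only [hN]
    push_cast
    rfl
  have hNpos : 0 < N := by
    rw [hN_eq]
    exact Finset.sum_pos hcntR hne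
  have hmaps : ∀ i ∈ s, kOf i ∈ K' := fun i hi => Finset.mem_image_of_mem _ hi
  -- the fibre sums of `m` are at most `S k`
  have hfibS : ∀ k ∈ K', ∑ i ∈ fib k, m i ≤ S k := by
    intro k _
    have hinjk : Set.InjOn aOf (↑(fib k) : Set ι) := by
      intro i hi j hj hij
      have hi' := Finset.mem_filter.1 hi
      have hj' := Finset.mem_filter.1 hj
      exact hinj i hi'.1 j hj'.1 (hi'.2.trans hj'.2.symm) hij
    have e : ∑ i ∈ fib k, m i = ∑ a ∈ (fib k).image aOf, F k a := by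
      rw [Finset.sum_image hinjk]
      apply Finset.sum_congr rfl
      intro i hi
      simp only [hmdef, (Finset.mem_filter.1 hi).2]
    rw [e]
    apply Finset.sum_le_sum_of_subset_of_nonneg
    · intro a ha
      obtain ⟨i, hi, rfl⟩ := Finset.mem_image.1 ha
      exact hA i (hfib_sub k hi)
    · intro a _ _
      exact hF k a
  have hfibm_pos : ∀ k ∈ K', 0 < ∑ i ∈ fib k, m i := fun k hk =>
    Finset.sum_pos (fun i hi => hm i (hfib_sub k hi)) (hfib_ne k hk)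
  have hSpos : ∀ k ∈ K', 0 < S k := fun k hk => lt_of_lt_of_le (hfibm_pos k hk) (hfibS k hk)
  have hS0 : ∀ k, 0 ≤ S k := fun k => Finset.sum_nonneg (fun a _ => hF k a)
  -- inner Jensen
  have hI : ∀ k ∈ K', ∑ i ∈ fib k, (cnt i : ℝ) * (Real.log (m i) - Real.log (cnt i)) ≤
      nK k * (Real.log (S k) - Real.log (nK k)) := by
    intro k hk
    have h := sum_mul_log_le (fib k) (fun i => (cnt i : ℝ)) (fun i => m i / cnt i)
      (fun i hi => hcntR i (hfib_sub k hi))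
      (fun i hi => div_pos (hm i (hfib_sub k hi)) (hcntR i (hfib_sub k hi))) (hfib_ne k hk)
    have e1 : ∑ i ∈ fib k, (cnt i : ℝ) * (m i / cnt i) = ∑ i ∈ fib k, m i := by
      apply Finset.sum_congr rfl
      intro i hi
      have := (hcntR i (hfib_sub k hi)).ne'
      field_simp
    have e2 : ∑ i ∈ fib k, (cnt i : ℝ) * Real.log (m i / cnt i) =
        ∑ i ∈ fib k, (cnt i : ℝ) * (Real.log (m i) - Real.log (cnt i)) := by
      apply Finset.sum_congr rfl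
      intro i hi
      rw [Real.log_div (hm i (hfib_sub k hi)).ne' (hcntR i (hfib_sub k hi)).ne']
    rw [e1, e2, ← hnK_eq] at h
    have hlog : Real.log (∑ i ∈ fib k, m i) ≤ Real.log (S k) :=
      Real.log_le_log (hfibm_pos k hk) (hfibS k hk)
    have := hnK_pos k hk
    nlinarith
  -- outer Jensen
  have hne' : K'.Nonempty := hne.image _
  have hII : ∑ k ∈ K', nK k * (r * Real.log (S k) - Real.log (nK k)) ≤
      N * (Real.log (∑ k ∈ K, S k ^ r) - Real.log N) := by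
    have h := sum_mul_log_le K' nK (fun k => S k ^ r / nK k) hnK_pos
      (fun k hk => div_pos (Real.rpow_pos_of_pos (hSpos k hk) _) (hnK_pos k hk)) hne'
    have e1 : ∑ k ∈ K', nK k * (S k ^ r / nK k) = ∑ k ∈ K', S k ^ r := by
      apply Finset.sum_congr rfl
      intro k hk
      have := (hnK_pos k hk).ne'
      field_simp
    have e2 : ∑ k ∈ K', nK k * Real.log (S k ^ r / nK k) =
        ∑ k ∈ K', nK k * (r * Real.log (S k) - Real.log (nK k)) := by
      apply Finset.sum_congr rfl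
      intro k hk
      rw [Real.log_div (Real.rpow_pos_of_pos (hSpos k hk) _).ne' (hnK_pos k hk).ne',
        Real.log_rpow (hSpos k hk)]
    have e3 : ∑ k ∈ K', nK k = N := by
      rw [hN_eq]
      simp only [hnK_eq]
      exact Finset.sum_fiberwise_of_maps_to hmaps _
    rw [e1, e2, e3] at h
    have hsub : K' ⊆ K := by
      intro k hk
      obtain ⟨i, hi, rfl⟩ := Finset.mem_image.1 hk
      exact hK i hi
    have hpos' : 0 < ∑ k ∈ K', S k ^ r :=
      Finset.sum_pos (fun k hk => Real.rpow_pos_of_pos (hSpos k hk) _) hne'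
    have hle : ∑ k ∈ K', S k ^ r ≤ ∑ k ∈ K, S k ^ r :=
      Finset.sum_le_sum_of_subset_of_nonneg hsub (fun k _ _ => Real.rpow_nonneg (hS0 k) _)
    have hlog := Real.log_le_log hpos' hle
    nlinarith
  -- regroup
  have hR1 : ∑ k ∈ K', ∑ i ∈ fib k, (cnt i : ℝ) * (Real.log (m i) - Real.log (cnt i)) =
      ∑ i ∈ s, (cnt i : ℝ) * (Real.log (m i) - Real.log (cnt i)) :=
    Finset.sum_fiberwise_of_maps_to hmaps _
  have hR2 : ∑ k ∈ K', nK k * Real.log (nK k) =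
      ∑ i ∈ s, (cnt i : ℝ) * Real.log (nK (kOf i)) := by
    rw [← Finset.sum_fiberwise_of_maps_to hmaps]
    apply Finset.sum_congr rfl
    intro k _
    rw [hnK_eq k, Finset.sum_mul]
    apply Finset.sum_congr rfl
    intro i hi
    rw [(Finset.mem_filter.1 hi).2, ← hnK_eq k]
  have hsumI : ∑ i ∈ s, (cnt i : ℝ) * (Real.log (m i) - Real.log (cnt i)) ≤
      ∑ k ∈ K', nK k * (Real.log (S k) - Real.log (nK k)) := by
    rw [← hR1]
    exact Finset.sum_le_sum hI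
  have e4 : ∑ k ∈ K', nK k * (Real.log (S k) - Real.log (nK k)) * r =
      ∑ k ∈ K', nK k * (r * Real.log (S k) - Real.log (nK k)) +
        (1 - r) * ∑ k ∈ K', nK k * Real.log (nK k) := by
    rw [Finset.mul_sum, ← Finset.sum_add_distrib]
    apply Finset.sum_congr rfl
    intro k _
    ring
  have e5 : ∑ i ∈ s, (cnt i : ℝ) * (r * Real.log (m i) - r * Real.log (cnt i)
        - (1 - r) * Real.log (nK (kOf i))) =
      (∑ i ∈ s, (cnt i : ℝ) * (Real.log (m i) - Real.log (cnt i))) * r -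
        (1 - r) * ∑ i ∈ s, (cnt i : ℝ) * Real.log (nK (kOf i)) := by
    rw [Finset.sum_mul, Finset.mul_sum, ← Finset.sum_sub_distrib]
    apply Finset.sum_congr rfl
    intro i _
    ring
  have h6 : (∑ i ∈ s, (cnt i : ℝ) * (Real.log (m i) - Real.log (cnt i))) * r ≤
      (∑ k ∈ K', nK k * (Real.log (S k) - Real.log (nK k))) * r :=
    mul_le_mul_of_nonneg_right hsumI hr0.le
  rw [Finset.sum_mul (s := K')] at h6
  rw [e4, hR2] at h6
  rw [e5]
  linarith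

/-! ### From integer products to sums of logarithms -/

theorem sum_mul_log_eq (n : ℕ) (f c : ℕ → ℕ) (hf : ∀ i < n, 0 < f i) :
    ∑ i ∈ Finset.range n, (c i : ℝ) * Real.log (f i) =
      Real.log ((∏ i ∈ Finset.range n, f i ^ c i : ℕ) : ℝ) := by
  push_cast
  rw [Real.log_prod]
  · apply Finset.sum_congr rfl
    intro i _
    rw [Real.log_pow]
  · intro i hi
    have := hf i (Finset.mem_range.1 hi)
    positivity

theorem prod_pos_aux (n : ℕ) (f c : ℕ → ℕ) (hf : ∀ i < n, 0 < f i) :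
    0 < ∏ i ∈ Finset.range n, f i ^ c i :=
  Finset.prod_pos (fun i hi => pow_pos (hf i (Finset.mem_range.1 hi)) _)

theorem le_sum_mul_log (n : ℕ) (f c : ℕ → ℕ) (M : ℕ) (hf : ∀ i < n, 0 < f i)
    (h : 2 ^ M ≤ ∏ i ∈ Finset.range n, f i ^ c i) :
    (M : ℝ) * Real.log 2 ≤ ∑ i ∈ Finset.range n, (c i : ℝ) * Real.log (f i) := by
  rw [sum_mul_log_eq n f c hf, ← Real.log_pow]
  apply Real.log_le_log (by positivity)
  exact_mod_cast h

theorem sum_mul_log_le' (n : ℕ) (f c : ℕ → ℕ) (M : ℕ) (hf : ∀ i < n, 0 < f i)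
    (h : ∏ i ∈ Finset.range n, f i ^ c i ≤ 2 ^ M) :
    ∑ i ∈ Finset.range n, (c i : ℝ) * Real.log (f i) ≤ (M : ℝ) * Real.log 2 := by
  rw [sum_mul_log_eq n f c hf, ← Real.log_pow]
  apply Real.log_le_log
  · exact_mod_cast prod_pos_aux n f c hf
  · exact_mod_cast h

/-! ### Weights adapted to the exponents -/

/-- The weight `(nn a / N) ^ x` on the window `[lo, hi]`, zero outside. -/
noncomputable def wt (lo hi : ℤ) (nn : ℤ → ℕ) (N : ℕ) (x : ℝ) (a : ℤ) : ℝ :=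
  if lo ≤ a ∧ a ≤ hi then ((nn a : ℝ) / N) ^ x else 0

theorem wt_nonneg (lo hi : ℤ) (nn : ℤ → ℕ) (N : ℕ) (x : ℝ) (a : ℤ) : 0 ≤ wt lo hi nn N x a := by
  unfold wt
  split_ifs
  · exact Real.rpow_nonneg (by positivity) _
  · exact le_rfl

theorem wt_zero (lo hi : ℤ) (nn : ℤ → ℕ) (N : ℕ) (x : ℝ) :
    ∀ a, a ∉ Finset.Icc lo hi → wt lo hi nn N x a = 0 := by
  intro a ha
  unfold wt
  rw [if_neg]
  rwa [Finset.mem_Icc] at ha

theorem wt_of_mem {lo hi : ℤ} (nn : ℤ → ℕ) (N : ℕ) (x : ℝ) {a : ℤ} (h1 : lo ≤ a) (h2 : a ≤ hi) :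
    wt lo hi nn N x a = ((nn a : ℝ) / N) ^ x := by
  unfold wt
  rw [if_pos ⟨h1, h2⟩]

theorem wt_sum_le (lo hi : ℤ) (nn : ℤ → ℕ) {N : ℕ} (hN : 0 < N) {x p : ℝ} (hxp : x * p = 1)
    (hsum : ∑ a ∈ Finset.Icc lo hi, nn a ≤ N) :
    ∑ a ∈ Finset.Icc lo hi, wt lo hi nn N x a ^ p ≤ 1 := by
  have hNR : (0 : ℝ) < (N : ℝ) := by exact_mod_cast hN
  have e : ∑ a ∈ Finset.Icc lo hi, wt lo hi nn N x a ^ p =
      (∑ a ∈ Finset.Icc lo hi, (nn a : ℝ)) / N := by
    rw [Finset.sum_div]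
    apply Finset.sum_congr rfl
    intro a ha
    rw [Finset.mem_Icc] at ha
    rw [wt_of_mem nn N x ha.1 ha.2, ← Real.rpow_mul (by positivity), hxp, Real.rpow_one]
  rw [e, div_le_one hNR]
  exact_mod_cast hsum

/-! ### The certificate theorem -/

/-- **Certificate theorem.** A list of lines `(kOf i, aOf i)`, `i < n`, with multiplicities
`cnt i`, together with integer weights `nA, nB, nC` on the three digit windows, gives
unboundedness of the trilinear Hilbert transform at every Hölder tuple satisfying the linear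
inequality `hlin` between the exponents and the bit sizes `MA, MB, MC, M1, M2, Mq`. -/
theorem unbounded_of_cert (n : ℕ) (kOf aOf : ℕ → ℤ) (cnt : ℕ → ℕ) (q : ℤ) (hq : 2 ≤ q)
    (aLo aHi bLo bHi cLo cHi kLo kHi : ℤ)
    (hAw : aHi < aLo + q) (hBw : bHi < bLo + q) (hCw : cHi < cLo + q) (hKw : kHi < kLo + q)
    (hpos : 1 ≤ aLo - bHi)
    (nA nB nC : ℤ → ℕ) (N : ℕ) (hN : N = ∑ i ∈ Finset.range n, cnt i) (hn : 0 < n)
    (hsumA : ∑ a ∈ Finset.Icc aLo aHi, nA a ≤ N) (hsumB : ∑ b ∈ Finset.Icc bLo bHi, nB b ≤ N)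
    (hsumC : ∑ c ∈ Finset.Icc cLo cHi, nC c ≤ N)
    (hcnt : ∀ i < n, 0 < cnt i)
    (hKm : ∀ i < n, kLo ≤ kOf i ∧ kOf i ≤ kHi)
    (hAm : ∀ i < n, aLo ≤ aOf i ∧ aOf i ≤ aHi)
    (hBm : ∀ i < n, bLo ≤ 2 * aOf i - kOf i ∧ 2 * aOf i - kOf i ≤ bHi)
    (hCm : ∀ i < n, cLo ≤ 3 * aOf i - 2 * kOf i ∧ 3 * aOf i - 2 * kOf i ≤ cHi)
    (hnA : ∀ i < n, 0 < nA (aOf i)) (hnB : ∀ i < n, 0 < nB (2 * aOf i - kOf i))
    (hnC : ∀ i < n, 0 < nC (3 * aOf i - 2 * kOf i))
    (hinj : ∀ i < n, ∀ j < n, kOf i = kOf j → aOf i = aOf j → i = j)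
    (MA MB MC M1 M2 Mq : ℕ)
    (hMA : 2 ^ MA ≤ ∏ i ∈ Finset.range n, nA (aOf i) ^ cnt i)
    (hMB : 2 ^ MB ≤ ∏ i ∈ Finset.range n, nB (2 * aOf i - kOf i) ^ cnt i)
    (hMC : 2 ^ MC ≤ ∏ i ∈ Finset.range n, nC (3 * aOf i - 2 * kOf i) ^ cnt i)
    (hM1 : ∏ i ∈ Finset.range n,
      (∑ j ∈ (Finset.range n).filter (fun j => kOf j = kOf i), cnt j) ^ cnt i ≤ 2 ^ M1)
    (hM2 : ∏ i ∈ Finset.range n, cnt i ^ cnt i ≤ 2 ^ M2)
    (hMq : q ^ N ≤ 2 ^ Mq)
    (p₁ p₂ p₃ r : ℝ) (h₁ : 0 < p₁) (h₂ : 0 < p₂) (h₃ : 0 < p₃) (hr : 0 < r) (hr1 : r ≤ 1)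
    (hH : 1 / r = 1 / p₁ + 1 / p₂ + 1 / p₃)
    (hlin : (Mq : ℝ) + M2 + (1 / r - 1) * M1 < 1 / p₁ * MA + 1 / p₂ * MB + 1 / p₃ * MC) :
    ¬ ∃ Cst : ℝ, ∀ (f₁ f₂ f₃ : SchwartzMap ℝ ℂ) (g : ℝ → ℂ),
      (∀ x : ℝ, Filter.Tendsto (fun q : ℝ × ℝ => ∫ t in {t : ℝ | q.1 < |t| ∧ |t| < q.2},
          f₁ (x - t) * f₂ (x - 2 * t) * f₃ (x - 3 * t) / (t : ℂ))
        ((nhdsWithin 0 (Set.Ioi 0)) ×ˢ Filter.atTop) (nhds (g x))) →
      MeasureTheory.eLpNorm g (ENNReal.ofReal r) MeasureTheory.volume ≤ ENNReal.ofReal Cst *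
        MeasureTheory.eLpNorm f₁ (ENNReal.ofReal p₁) MeasureTheory.volume *
        MeasureTheory.eLpNorm f₂ (ENNReal.ofReal p₂) MeasureTheory.volume *
        MeasureTheory.eLpNorm f₃ (ENNReal.ofReal p₃) MeasureTheory.volume := by
  classical
  set x₁ : ℝ := 1 / p₁ with hx₁
  set x₂ : ℝ := 1 / p₂ with hx₂
  set x₃ : ℝ := 1 / p₃ with hx₃
  have hx₁0 : 0 < x₁ := by positivity
  have hx₂0 : 0 < x₂ := by positivity
  have hx₃0 : 0 < x₃ := by positivity
  have hcnt0 : 0 < cnt 0 := hcnt 0 hn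
  have hNpos : 0 < N := by
    rw [hN]
    exact lt_of_lt_of_le hcnt0
      (Finset.single_le_sum (f := cnt) (fun _ _ => Nat.zero_le _) (Finset.mem_range.2 hn))
  have hNR : (0 : ℝ) < (N : ℝ) := by exact_mod_cast hNpos
  set u : ℤ → ℝ := wt aLo aHi nA N x₁ with hu
  set v : ℤ → ℝ := wt bLo bHi nB N x₂ with hv
  set w : ℤ → ℝ := wt cLo cHi nC N x₃ with hw
  set A : Finset ℤ := Finset.Icc aLo aHi with hA
  set B : Finset ℤ := Finset.Icc bLo bHi with hB
  set C : Finset ℤ := Finset.Icc cLo cHi with hC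
  set K : Finset ℤ := Finset.Icc kLo kHi with hK
  set F : ℤ → ℤ → ℝ := fun k a => u a * v (2 * a - k) * w (3 * a - 2 * k) with hF
  set G : ℝ := ∑ k ∈ K, (∑ a ∈ A, F k a) ^ r with hG
  have hG0 : 0 ≤ G := Finset.sum_nonneg (fun k _ => Real.rpow_nonneg
    (Finset.sum_nonneg (fun a _ => mul_nonneg (mul_nonneg (wt_nonneg _ _ _ _ _ _)
      (wt_nonneg _ _ _ _ _ _)) (wt_nonneg _ _ _ _ _ _))) _)
  -- the value of `F` on the lines
  have hFline : ∀ i < n, F (kOf i) (aOf i) =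
      ((nA (aOf i) : ℝ) / N) ^ x₁ * ((nB (2 * aOf i - kOf i) : ℝ) / N) ^ x₂ *
        ((nC (3 * aOf i - 2 * kOf i) : ℝ) / N) ^ x₃ := by
    intro i hi
    simp only [hF, hu, hv, hw]
    rw [wt_of_mem nA N x₁ (hAm i hi).1 (hAm i hi).2, wt_of_mem nB N x₂ (hBm i hi).1 (hBm i hi).2,
      wt_of_mem nC N x₃ (hCm i hi).1 (hCm i hi).2]
  have hnAR : ∀ i < n, (0 : ℝ) < (nA (aOf i) : ℝ) := fun i hi => by exact_mod_cast hnA i hi
  have hnBR : ∀ i < n, (0 : ℝ) < (nB (2 * aOf i - kOf i) : ℝ) := fun i hi => by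
    exact_mod_cast hnB i hi
  have hnCR : ∀ i < n, (0 : ℝ) < (nC (3 * aOf i - 2 * kOf i) : ℝ) := fun i hi => by
    exact_mod_cast hnC i hi
  have hFpos : ∀ i < n, 0 < F (kOf i) (aOf i) := by
    intro i hi
    rw [hFline i hi]
    have a1 := hnAR i hi
    have a2 := hnBR i hi
    have a3 := hnCR i hi
    positivity
  have hlogF : ∀ i < n, Real.log (F (kOf i) (aOf i)) =
      x₁ * Real.log (nA (aOf i)) + x₂ * Real.log (nB (2 * aOf i - kOf i)) +
        x₃ * Real.log (nC (3 * aOf i - 2 * kOf i)) - (x₁ + x₂ + x₃) * Real.log N := by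
    intro i hi
    have a1 := hnAR i hi
    have a2 := hnBR i hi
    have a3 := hnCR i hi
    rw [hFline i hi, Real.log_mul (by positivity) (by positivity),
      Real.log_mul (by positivity) (by positivity),
      Real.log_rpow (by positivity), Real.log_rpow (by positivity), Real.log_rpow (by positivity),
      Real.log_div a1.ne' hNR.ne', Real.log_div a2.ne' hNR.ne', Real.log_div a3.ne' hNR.ne']
    ring
  -- the double Jensen bound
  have hJ := log_gain_ge (Finset.range n) kOf aOf cnt K A ⟨0, Finset.mem_range.2 hn⟩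
    (fun i hi => hcnt i (Finset.mem_range.1 hi))
    (fun i hi j hj => hinj i (Finset.mem_range.1 hi) j (Finset.mem_range.1 hj))
    (fun i hi => Finset.mem_Icc.2 (hKm i (Finset.mem_range.1 hi)))
    (fun i hi => Finset.mem_Icc.2 (hAm i (Finset.mem_range.1 hi)))
    F (fun k a => mul_nonneg (mul_nonneg (wt_nonneg _ _ _ _ _ _) (wt_nonneg _ _ _ _ _ _))
      (wt_nonneg _ _ _ _ _ _))
    (fun i hi => hFpos i (Finset.mem_range.1 hi)) hr
  rw [← hN] at hJ
  -- the sums of logarithms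
  set LA : ℝ := ∑ i ∈ Finset.range n, (cnt i : ℝ) * Real.log (nA (aOf i)) with hLA
  set LB : ℝ := ∑ i ∈ Finset.range n, (cnt i : ℝ) * Real.log (nB (2 * aOf i - kOf i)) with hLB
  set LC : ℝ := ∑ i ∈ Finset.range n, (cnt i : ℝ) * Real.log (nC (3 * aOf i - 2 * kOf i))
    with hLC
  set LP : ℝ := ∑ i ∈ Finset.range n, (cnt i : ℝ) * Real.log (cnt i) with hLP
  set LK : ℝ := ∑ i ∈ Finset.range n, (cnt i : ℝ) *
    Real.log ((∑ j ∈ (Finset.range n).filter (fun j => kOf j = kOf i), cnt j : ℕ) : ℝ) with hLK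
  have hNsum : (N : ℝ) = ∑ i ∈ Finset.range n, (cnt i : ℝ) := by
    rw [hN]
    push_cast
    rfl
  have hxr : r * (x₁ + x₂ + x₃) = 1 := by
    rw [← hH]
    field_simp
  have hexp : ∑ i ∈ Finset.range n, (cnt i : ℝ) * (r * Real.log (F (kOf i) (aOf i))
        - r * Real.log (cnt i)
        - (1 - r) * Real.log ((∑ j ∈ (Finset.range n).filter (fun j => kOf j = kOf i),
            cnt j : ℕ) : ℝ)) =
      r * (x₁ * LA + x₂ * LB + x₃ * LC) - (N : ℝ) * Real.log N - r * LP - (1 - r) * LK := by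
    have e : ∀ i ∈ Finset.range n, (cnt i : ℝ) * (r * Real.log (F (kOf i) (aOf i))
        - r * Real.log (cnt i)
        - (1 - r) * Real.log ((∑ j ∈ (Finset.range n).filter (fun j => kOf j = kOf i),
            cnt j : ℕ) : ℝ)) =
        r * (x₁ * ((cnt i : ℝ) * Real.log (nA (aOf i))) +
          x₂ * ((cnt i : ℝ) * Real.log (nB (2 * aOf i - kOf i))) +
          x₃ * ((cnt i : ℝ) * Real.log (nC (3 * aOf i - 2 * kOf i)))) -
          (cnt i : ℝ) * Real.log N * (r * (x₁ + x₂ + x₃)) - r * ((cnt i : ℝ) * Real.log (cnt i)) -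
          (1 - r) * ((cnt i : ℝ) * Real.log ((∑ j ∈ (Finset.range n).filter
            (fun j => kOf j = kOf i), cnt j : ℕ) : ℝ)) := by
      intro i hi
      rw [hlogF i (Finset.mem_range.1 hi)]
      ring
    rw [Finset.sum_congr rfl e, hxr]
    simp only [Finset.sum_sub_distrib, Finset.sum_add_distrib, ← Finset.mul_sum, mul_one,
      ← Finset.sum_mul]
    rw [← hNsum]
  rw [hexp] at hJ
  -- numeric bounds
  have bA : (MA : ℝ) * Real.log 2 ≤ LA :=
    le_sum_mul_log n (fun i => nA (aOf i)) cnt MA hnA hMA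
  have bB : (MB : ℝ) * Real.log 2 ≤ LB :=
    le_sum_mul_log n (fun i => nB (2 * aOf i - kOf i)) cnt MB hnB hMB
  have bC : (MC : ℝ) * Real.log 2 ≤ LC :=
    le_sum_mul_log n (fun i => nC (3 * aOf i - 2 * kOf i)) cnt MC hnC hMC
  have bP : LP ≤ (M2 : ℝ) * Real.log 2 := sum_mul_log_le' n cnt cnt M2 hcnt hM2
  have bK : LK ≤ (M1 : ℝ) * Real.log 2 := by
    apply sum_mul_log_le' n
      (fun i => ∑ j ∈ (Finset.range n).filter (fun j => kOf j = kOf i), cnt j) cnt M1 _ hM1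
    intro i hi
    exact lt_of_lt_of_le (hcnt i hi) (Finset.single_le_sum (f := cnt)
      (fun _ _ => Nat.zero_le _) (Finset.mem_filter.2 ⟨Finset.mem_range.2 hi, rfl⟩))
  have hqR : (2 : ℝ) ≤ (q : ℝ) := by exact_mod_cast hq
  have bq : (N : ℝ) * Real.log q ≤ (Mq : ℝ) * Real.log 2 := by
    rw [← Real.log_pow, ← Real.log_pow]
    apply Real.log_le_log (by positivity)
    exact_mod_cast hMq
  have hlog2 : 0 < Real.log 2 := Real.log_pos (by norm_num)
  -- conclusion: `r * log q < log G`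
  have hmain : r * Real.log q < Real.log G := by
    have h1 : r * ((Mq : ℝ) + M2 + (1 / r - 1) * M1) * Real.log 2 <
        r * (x₁ * MA + x₂ * MB + x₃ * MC) * Real.log 2 :=
      mul_lt_mul_of_pos_right (mul_lt_mul_of_pos_left hlin hr) hlog2
    have h2 : r * ((Mq : ℝ) + M2 + (1 / r - 1) * M1) =
        r * ((Mq : ℝ) + M2) + (1 - r) * M1 := by
      field_simp
    rw [h2] at h1
    have h3 : r * (x₁ * ((MA : ℝ) * Real.log 2) + x₂ * ((MB : ℝ) * Real.log 2) +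
        x₃ * ((MC : ℝ) * Real.log 2)) ≤ r * (x₁ * LA + x₂ * LB + x₃ * LC) := by
      apply mul_le_mul_of_nonneg_left _ hr.le
      have t1 := mul_le_mul_of_nonneg_left bA hx₁0.le
      have t2 := mul_le_mul_of_nonneg_left bB hx₂0.le
      have t3 := mul_le_mul_of_nonneg_left bC hx₃0.le
      linarith only [t1, t2, t3]
    have h4 : r * LP ≤ r * ((M2 : ℝ) * Real.log 2) := mul_le_mul_of_nonneg_left bP hr.le
    have h5 : (1 - r) * LK ≤ (1 - r) * ((M1 : ℝ) * Real.log 2) :=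
      mul_le_mul_of_nonneg_left bK (sub_nonneg.2 hr1)
    have h6 : r * ((N : ℝ) * Real.log q) ≤ r * ((Mq : ℝ) * Real.log 2) :=
      mul_le_mul_of_nonneg_left bq hr.le
    have h7 : (N : ℝ) * (r * Real.log q) < (N : ℝ) * Real.log G := by
      linarith only [hJ, h1, h3, h4, h5, h6]
    exact lt_of_mul_lt_mul_left h7 hNR.le
  have hqpos : (0 : ℝ) < (q : ℝ) := lt_of_lt_of_le (by norm_num) hqR
  have hGpos : 0 < G := by
    rcases eq_or_lt_of_le hG0 with h0 | h0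
    · rw [← h0, Real.log_zero] at hmain
      have hnn : 0 ≤ r * Real.log q :=
        mul_nonneg hr.le (Real.log_nonneg (le_trans (by norm_num) hqR))
      exact absurd hmain (not_lt.2 hnn)
    · exact h0
  have hqG : (q : ℝ) ^ r < G := by
    rw [Real.rpow_def_of_pos hqpos, ← Real.lt_log_iff_exp_lt hGpos]
    linarith only [hmain]
  have hqG' : (q : ℝ) < G ^ (1 / r) := by
    have h := Real.rpow_lt_rpow (Real.rpow_nonneg hqpos.le r) hqG (show 0 < 1 / r by positivity)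
    rwa [← Real.rpow_mul hqpos.le, mul_one_div_cancel hr.ne', Real.rpow_one] at h
  -- the three norms are at most one
  have hx₁p : x₁ * p₁ = 1 := by
    rw [hx₁]
    field_simp
  have hx₂p : x₂ * p₂ = 1 := by
    rw [hx₂]
    field_simp
  have hx₃p : x₃ * p₃ = 1 := by
    rw [hx₃]
    field_simp
  have n1 : (∑ a ∈ A, u a ^ p₁) ^ (1 / p₁) ≤ 1 :=
    Real.rpow_le_one (Finset.sum_nonneg (fun a _ => Real.rpow_nonneg (wt_nonneg _ _ _ _ _ _) _))
      (wt_sum_le aLo aHi nA hNpos hx₁p hsumA) (by positivity)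
  have n2 : (∑ b ∈ B, v b ^ p₂) ^ (1 / p₂) ≤ 1 :=
    Real.rpow_le_one (Finset.sum_nonneg (fun a _ => Real.rpow_nonneg (wt_nonneg _ _ _ _ _ _) _))
      (wt_sum_le bLo bHi nB hNpos hx₂p hsumB) (by positivity)
  have n3 : (∑ c ∈ C, w c ^ p₃) ^ (1 / p₃) ≤ 1 :=
    Real.rpow_le_one (Finset.sum_nonneg (fun a _ => Real.rpow_nonneg (wt_nonneg _ _ _ _ _ _) _))
      (wt_sum_le cLo cHi nC hNpos hx₃p hsumC) (by positivity)
  have m1 : 0 ≤ (∑ a ∈ A, u a ^ p₁) ^ (1 / p₁) := Real.rpow_nonneg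
    (Finset.sum_nonneg (fun a _ => Real.rpow_nonneg (wt_nonneg _ _ _ _ _ _) _)) _
  have m2 : 0 ≤ (∑ b ∈ B, v b ^ p₂) ^ (1 / p₂) := Real.rpow_nonneg
    (Finset.sum_nonneg (fun a _ => Real.rpow_nonneg (wt_nonneg _ _ _ _ _ _) _)) _
  have m3 : 0 ≤ (∑ c ∈ C, w c ^ p₃) ^ (1 / p₃) := Real.rpow_nonneg
    (Finset.sum_nonneg (fun a _ => Real.rpow_nonneg (wt_nonneg _ _ _ _ _ _) _)) _
  apply Vale.Agent.Helper25.TrilinearDigits.unbounded_of_gain h₁ h₂ h₃ hr hq
    (oA := aLo) (oB := bLo) (oC := cLo) (oK := kLo) (A := A) (B := B) (C := C) (K := K)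
    (u := u) (v := v) (w := w) (D := aHi - bLo)
  · intro a ha
    rw [hA, Finset.mem_Icc] at ha
    exact ⟨ha.1, lt_of_le_of_lt ha.2 hAw⟩
  · intro a ha
    rw [hB, Finset.mem_Icc] at ha
    exact ⟨ha.1, lt_of_le_of_lt ha.2 hBw⟩
  · intro a ha
    rw [hC, Finset.mem_Icc] at ha
    exact ⟨ha.1, lt_of_le_of_lt ha.2 hCw⟩
  · intro a ha
    rw [hK, Finset.mem_Icc] at ha
    exact ⟨ha.1, lt_of_le_of_lt ha.2 hKw⟩
  · exact wt_nonneg _ _ _ _ _
  · exact wt_nonneg _ _ _ _ _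
  · exact wt_nonneg _ _ _ _ _
  · exact wt_zero _ _ _ _ _
  · exact wt_zero _ _ _ _ _
  · exact wt_zero _ _ _ _ _
  · intro a ha b hb
    rw [hA, Finset.mem_Icc] at ha
    rw [hB, Finset.mem_Icc] at hb
    constructor
    · linarith only [ha.1, hb.2, hpos]
    · linarith only [ha.2, hb.1]
  · calc (q : ℝ) * (∑ a ∈ A, u a ^ p₁) ^ (1 / p₁) * (∑ b ∈ B, v b ^ p₂) ^ (1 / p₂) *
          (∑ c ∈ C, w c ^ p₃) ^ (1 / p₃) ≤ (q : ℝ) * 1 * 1 * 1 := by
          apply mul_le_mul (mul_le_mul (mul_le_mul_of_nonneg_left n1 hqpos.le) n2 m2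
            (by positivity)) n3 m3 (by positivity)
      _ = (q : ℝ) := by ring
      _ < G ^ (1 / r) := hqG'

end Vale.Agent.Helper25.TrilinearEntropy
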